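import Mathlib

open MeasureTheory Measure Module Set
open scoped ENNReal

namespace Crest.Agent.H7

abbrev E2 := EuclideanSpace ℝ (Fin 2)
abbrev E3 := EuclideanSpace ℝ (Fin 3)

/-- The linear map `x ↦ x 0 • a + x 1 • b`. -/
noncomputable def lin2 {V : Type*} [AddCommGroup V] [Module ℝ V] (a b : V) : E2 →ₗ[ℝ] V where
  toFun x := x 0 • a + x 1 • b
  map_add' x y := by
    simp only [PiLp.add_apply, add_smul]; abel
  map_smul' c x := by
    simp only [PiLp.smul_apply, smul_eq_mul, mul_smul, smul_add, RingHom.id_apply]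

@[simp] lemma lin2_apply {V : Type*} [AddCommGroup V] [Module ℝ V] (a b : V) (x : E2) :
    lin2 a b x = x 0 • a + x 1 • b := rfl

lemma normDet_lin2 {V : Type*} [NormedAddCommGroup V] [InnerProductSpace ℝ V] (a b : V) :
    (lin2 a b).normDet = Real.sqrt (‖a‖ ^ 2 * ‖b‖ ^ 2 - inner ℝ a b ^ 2) := by
  have h := LinearMap.normDet_sq_eq_det_gram (lin2 a b) (EuclideanSpace.basisFun (Fin 2) ℝ)
  have h2 : (lin2 a b).normDet ^ 2 = ‖a‖ ^ 2 * ‖b‖ ^ 2 - inner ℝ a b ^ 2 := by
    have h' : (lin2 a b).normDet ^ 2 = (Matrix.gram ℝ (fun i => lin2 a b ((EuclideanSpace.basisFun (Fin 2) ℝ) i))).det := by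
      exact_mod_cast h
    rw [h', Matrix.det_fin_two]
    simp [Matrix.gram, EuclideanSpace.basisFun_apply]
    rw [real_inner_comm b a]; ring
  rw [← h2, Real.sqrt_sq (LinearMap.normDet_nonneg _)]

lemma area_lin2 {V : Type*} [NormedAddCommGroup V] [InnerProductSpace ℝ V]
    [MeasurableSpace V] [BorelSpace V] (a b c : V) (s : Set E2) :
    μHE[2] ((fun x : E2 => c + (x 0 • a + x 1 • b)) '' s) =
      ENNReal.ofReal (Real.sqrt (‖a‖ ^ 2 * ‖b‖ ^ 2 - inner ℝ a b ^ 2)) * volume s := by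
  have h := LinearMap.euclideanHausdorffMeasure_image_eq_normDet_mul_volume (lin2 a b) s
  rw [normDet_lin2] at h
  have hf : finrank ℝ E2 = 2 := by simp
  rw [hf] at h
  rw [← h]
  have : (fun x : E2 => c + (x 0 • a + x 1 • b)) '' s = (fun y => c + y) '' ((lin2 a b) '' s) := by
    rw [Set.image_image]; rfl
  rw [this]
  exact (isometry_add_left c).euclideanHausdorffMeasure_image _

/-- the standard closed triangle -/
def stdTri : Set E2 := {x | 0 ≤ x 0 ∧ 0 ≤ x 1 ∧ x 0 + x 1 ≤ 1}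
/-- the standard open triangle -/
def stdTriO : Set E2 := {x | 0 < x 0 ∧ 0 < x 1 ∧ x 0 + x 1 < 1}
/-- the standard closed square -/
def stdSq : Set E2 := {x | (0 ≤ x 0 ∧ x 0 ≤ 1) ∧ (0 ≤ x 1 ∧ x 1 ≤ 1)}

/-- the measurable equivalence `E2 ≃ ℝ × ℝ`. -/
noncomputable def e2prod : E2 ≃ᵐ ℝ × ℝ :=
  (MeasurableEquiv.toLp 2 (Fin 2 → ℝ)).symm.trans MeasurableEquiv.finTwoArrow

lemma e2prod_mp : MeasurePreserving e2prod (volume : Measure E2) (volume : Measure (ℝ × ℝ)) :=
  (EuclideanSpace.volume_preserving_symm_measurableEquiv_toLp (Fin 2)).trans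
    (volume_preserving_finTwoArrow ℝ)

lemma volume_preimage_e2prod (s : Set (ℝ × ℝ)) : volume {x : E2 | (x 0, x 1) ∈ s} = volume s := by
  have := e2prod_mp.measure_preimage_equiv s
  rw [← this]; rfl

lemma volume_stdSq : volume stdSq = 1 := by
  have : stdSq = {x : E2 | (x 0, x 1) ∈ (Icc (0:ℝ) 1 ×ˢ Icc (0:ℝ) 1)} := by
    ext x; simp only [stdSq, mem_prod, mem_Icc, mem_ofPred_eq]
  rw [this, volume_preimage_e2prod, Measure.volume_eq_prod, Measure.prod_prod]
  simp

lemma integral_one_sub : ∫ x in (0:ℝ)..1, (1 - x) = 1 / 2 := by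
  rw [intervalIntegral.integral_sub (by simp) (by simp)]; simp; norm_num

lemma volume_stdTriO : volume stdTriO = ENNReal.ofReal (1 / 2) := by
  have : stdTriO = {x : E2 | (x 0, x 1) ∈ regionBetween (fun _ : ℝ => (0:ℝ)) (fun x => 1 - x) (Ioo 0 1)} := by
    ext x
    simp only [stdTriO, regionBetween, mem_ofPred_eq, mem_Ioo]
    constructor
    · rintro ⟨h1, h2, h3⟩; exact ⟨⟨h1, by linarith⟩, h2, by linarith⟩
    · rintro ⟨⟨h1, h2⟩, h3, h4⟩; exact ⟨h1, h3, by linarith⟩
  rw [this, volume_preimage_e2prod, Measure.volume_eq_prod, volume_regionBetween_eq_integral]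
  · congr 1
    simp only [Pi.sub_apply, sub_zero]
    rw [← integral_Ioc_eq_integral_Ioo, ← intervalIntegral.integral_of_le zero_le_one,
      integral_one_sub]
  · exact (continuous_const.integrableOn_Icc).mono_set Ioo_subset_Icc_self
  · exact ((continuous_const.sub continuous_id).integrableOn_Icc).mono_set Ioo_subset_Icc_self
  · exact measurableSet_Ioo
  · intro x hx; simp at hx ⊢; linarith

lemma volume_stdTri : volume stdTri = ENNReal.ofReal (1 / 2) := by
  have h1 : stdTri = {x : E2 | (x 0, x 1) ∈ {p : ℝ × ℝ | 0 ≤ p.1 ∧ 0 ≤ p.2 ∧ p.1 + p.2 ≤ 1}} := rfl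
  have hm : MeasurableSet {p : ℝ × ℝ | 0 ≤ p.1 ∧ 0 ≤ p.2 ∧ p.1 + p.2 ≤ 1} := by
    apply IsClosed.measurableSet
    exact (isClosed_le continuous_const continuous_fst).inter
      ((isClosed_le continuous_const continuous_snd).inter
        (isClosed_le (continuous_fst.add continuous_snd) continuous_const))
  rw [h1, volume_preimage_e2prod, Measure.volume_eq_prod, Measure.prod_apply hm]
  have h2 : ∀ x : ℝ, volume (Prod.mk x ⁻¹' {p : ℝ × ℝ | 0 ≤ p.1 ∧ 0 ≤ p.2 ∧ p.1 + p.2 ≤ 1}) =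
      (Icc (0:ℝ) 1).indicator (fun x => ENNReal.ofReal (1 - x)) x := by
    intro x
    by_cases hx : x ∈ Icc (0:ℝ) 1
    · rw [indicator_of_mem hx]
      have : (Prod.mk x ⁻¹' {p : ℝ × ℝ | 0 ≤ p.1 ∧ 0 ≤ p.2 ∧ p.1 + p.2 ≤ 1}) = Icc 0 (1 - x) := by
        ext y; simp only [mem_preimage, mem_ofPred_eq, mem_Icc]
        constructor
        · rintro ⟨_, h, h'⟩; exact ⟨h, by linarith⟩
        · rintro ⟨h, h'⟩; exact ⟨hx.1, h, by linarith⟩
      rw [this, Real.volume_Icc, sub_zero]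
    · rw [indicator_of_notMem hx]
      have : (Prod.mk x ⁻¹' {p : ℝ × ℝ | 0 ≤ p.1 ∧ 0 ≤ p.2 ∧ p.1 + p.2 ≤ 1}) = ∅ := by
        ext y; simp only [mem_preimage, mem_ofPred_eq, mem_empty_iff_false, iff_false]
        rintro ⟨h, h', h''⟩; exact hx ⟨h, by linarith⟩
      rw [this, measure_empty]
  simp_rw [h2]
  rw [lintegral_indicator measurableSet_Icc, ← ofReal_integral_eq_lintegral_ofReal]
  · congr 1
    rw [integral_Icc_eq_integral_Ioc, ← intervalIntegral.integral_of_le zero_le_one,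
      integral_one_sub]
  · exact (continuous_const.sub continuous_id).integrableOn_Icc
  · filter_upwards [ae_restrict_mem measurableSet_Icc] with x hx
    simp only [Pi.zero_apply]; linarith [hx.2]

lemma convex_stdTri : Convex ℝ stdTri := by
  intro x hx y hy a b ha hb hab
  simp only [stdTri, mem_ofPred_eq, PiLp.add_apply, PiLp.smul_apply, smul_eq_mul] at *
  obtain ⟨h1, h2, h3⟩ := hx
  obtain ⟨h4, h5, h6⟩ := hy
  refine ⟨by positivity, by positivity, ?_⟩
  nlinarith

lemma convexHull_triple {V : Type*} [AddCommGroup V] [Module ℝ V] (p q r : V) :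
    convexHull ℝ {p, q, r} = (fun x : E2 => p + (x 0 • (q - p) + x 1 • (r - p))) '' stdTri := by
  apply subset_antisymm
  · apply convexHull_min
    · intro y hy
      simp only [mem_insert_iff, mem_singleton_iff] at hy
      rcases hy with rfl | rfl | rfl
      · exact ⟨0, by simp [stdTri], by simp⟩
      · exact ⟨EuclideanSpace.single 0 1, by simp [stdTri], by simp⟩
      · exact ⟨EuclideanSpace.single 1 1, by simp [stdTri], by simp⟩
    · have h := (convex_stdTri.linear_image (lin2 (q - p) (r - p))).translate p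
      rw [Set.image_image] at h
      exact h
  · rintro _ ⟨x, ⟨h0, h1, h2⟩, rfl⟩
    have hc := convex_convexHull ℝ {p, q, r}
    have hp : p ∈ convexHull ℝ {p, q, r} := subset_convexHull ℝ _ (by simp)
    have hq : q ∈ convexHull ℝ {p, q, r} := subset_convexHull ℝ _ (by simp)
    have hr : r ∈ convexHull ℝ {p, q, r} := subset_convexHull ℝ _ (by simp)
    have := hc.sum_mem (t := (Finset.univ : Finset (Fin 3))) (w := ![1 - x 0 - x 1, x 0, x 1])
      (z := ![p, q, r]) ?_ ?_ ?_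
    · have e : ∑ i : Fin 3, (![1 - x 0 - x 1, x 0, x 1] : Fin 3 → ℝ) i • (![p, q, r] : Fin 3 → V) i
          = p + (x 0 • (q - p) + x 1 • (r - p)) := by
        simp [Fin.sum_univ_three, sub_smul, smul_sub]; abel
      rw [e] at this
      exact this
    · intro i _
      fin_cases i <;> simp <;> linarith
    · simp [Fin.sum_univ_three]; ring
    · intro i _
      fin_cases i <;> simp [hp, hq, hr]

/-- area of a triangle -/
lemma area_triangle {V : Type*} [NormedAddCommGroup V] [InnerProductSpace ℝ V]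
    [MeasurableSpace V] [BorelSpace V] (p q r : V) :
    μHE[2] (convexHull ℝ {p, q, r}) =
      ENNReal.ofReal (Real.sqrt (‖q - p‖ ^ 2 * ‖r - p‖ ^ 2 - inner ℝ (q - p) (r - p) ^ 2) / 2) := by
  rw [convexHull_triple, area_lin2, volume_stdTri, ← ENNReal.ofReal_mul (Real.sqrt_nonneg _)]
  congr 1; ring

/-- area of a parallelogram -/
lemma area_parallelogram {V : Type*} [NormedAddCommGroup V] [InnerProductSpace ℝ V]
    [MeasurableSpace V] [BorelSpace V] (c a b : V) :
    μHE[2] {x : V | ∃ s ∈ Icc (0:ℝ) 1, ∃ t ∈ Icc (0:ℝ) 1, x = c + s • a + t • b} =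
      ENNReal.ofReal (Real.sqrt (‖a‖ ^ 2 * ‖b‖ ^ 2 - inner ℝ a b ^ 2)) := by
  have h : {x : V | ∃ s ∈ Icc (0:ℝ) 1, ∃ t ∈ Icc (0:ℝ) 1, x = c + s • a + t • b} =
      (fun x : E2 => c + (x 0 • a + x 1 • b)) '' stdSq := by
    ext y; constructor
    · rintro ⟨s, hs, t, ht, rfl⟩
      refine ⟨!₂[s, t], ⟨⟨?_, ?_⟩, ?_, ?_⟩, ?_⟩
      · simpa using hs.1
      · simpa using hs.2
      · simpa using ht.1
      · simpa using ht.2
      · simp [add_assoc]
    · rintro ⟨x, ⟨hx0, hx1⟩, rfl⟩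
      exact ⟨x 0, hx0, x 1, hx1, by simp [add_assoc]⟩
  rw [h, area_lin2, volume_stdSq, mul_one]

end Crest.Agent.H7
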