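import Mathlib
import Crest.Agent.H7.Area

open MeasureTheory Measure Module Set Filter Topology
open scoped ENNReal

namespace Crest.Agent.H7

/-- half-open grid cell of side `δ` -/
def cell (δ : ℝ) (z : ℤ × ℤ) : Set E2 :=
  {x | (δ * z.1 ≤ x 0 ∧ x 0 < δ * (z.1 + 1)) ∧ (δ * z.2 ≤ x 1 ∧ x 1 < δ * (z.2 + 1))}

/-- the corner of a cell -/
noncomputable def corner (δ : ℝ) (z : ℤ × ℤ) : E2 := !₂[δ * z.1, δ * z.2]

@[simp] lemma corner_zero (δ : ℝ) (z : ℤ × ℤ) : corner δ z 0 = δ * z.1 := rfl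
@[simp] lemma corner_one (δ : ℝ) (z : ℤ × ℤ) : corner δ z 1 = δ * z.2 := rfl

lemma cell_eq (δ : ℝ) (z : ℤ × ℤ) :
    cell δ z = {x : E2 | (x 0, x 1) ∈ (Ico (δ * z.1) (δ * (z.1 + 1)) ×ˢ Ico (δ * z.2) (δ * (z.2 + 1)))} := by
  ext x; simp only [cell, mem_prod, mem_Ico, mem_ofPred_eq]

lemma volume_cell {δ : ℝ} (hδ : 0 < δ) (z : ℤ × ℤ) : volume (cell δ z) = ENNReal.ofReal (δ ^ 2) := by
  rw [cell_eq, volume_preimage_e2prod, Measure.volume_eq_prod, Measure.prod_prod,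
    Real.volume_Ico, Real.volume_Ico, ← ENNReal.ofReal_mul (by ring_nf; exact hδ.le)]
  congr 1; ring

lemma measurableSet_cell (δ : ℝ) (z : ℤ × ℤ) : MeasurableSet (cell δ z) := by
  rw [cell_eq]
  exact e2prod.measurable (measurableSet_Ico.prod measurableSet_Ico)

lemma mem_cell_floor {δ : ℝ} (hδ : 0 < δ) (x : E2) : x ∈ cell δ (⌊x 0 / δ⌋, ⌊x 1 / δ⌋) := by
  refine ⟨⟨?_, ?_⟩, ?_, ?_⟩
  · have := Int.floor_le (x 0 / δ)
    rw [le_div_iff₀ hδ] at this; simpa [mul_comm] using this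
  · have := Int.lt_floor_add_one (x 0 / δ)
    rw [div_lt_iff₀ hδ] at this; simpa [mul_comm] using this
  · have := Int.floor_le (x 1 / δ)
    rw [le_div_iff₀ hδ] at this; simpa [mul_comm] using this
  · have := Int.lt_floor_add_one (x 1 / δ)
    rw [div_lt_iff₀ hδ] at this; simpa [mul_comm] using this

lemma eq_floor_of_mem_cell {δ : ℝ} (hδ : 0 < δ) {x : E2} {z : ℤ × ℤ} (h : x ∈ cell δ z) :
    z = (⌊x 0 / δ⌋, ⌊x 1 / δ⌋) := by
  obtain ⟨⟨h1, h2⟩, h3, h4⟩ := h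
  ext
  · symm; rw [Int.floor_eq_iff]
    constructor
    · rw [le_div_iff₀ hδ]; linarith
    · rw [div_lt_iff₀ hδ]; linarith
  · symm; rw [Int.floor_eq_iff]
    constructor
    · rw [le_div_iff₀ hδ]; linarith
    · rw [div_lt_iff₀ hδ]; linarith

lemma norm_sub_le_of_coord {x y : E2} {δ : ℝ} (h0 : |x 0 - y 0| ≤ δ) (h1 : |x 1 - y 1| ≤ δ) :
    ‖x - y‖ ≤ 2 * δ := by
  have hδ : 0 ≤ δ := (abs_nonneg _).trans h0
  rw [EuclideanSpace.norm_eq, Real.sqrt_le_left (by linarith)]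
  simp only [Fin.sum_univ_two, PiLp.sub_apply, Real.norm_eq_abs, sq_abs]
  have h0' := sq_le_sq' (by linarith [(abs_le.1 h0).1]) (abs_le.1 h0).2
  have h1' := sq_le_sq' (by linarith [(abs_le.1 h1).1]) (abs_le.1 h1).2
  nlinarith

lemma norm_sub_le_of_mem_cell {δ : ℝ} {x y : E2} {z : ℤ × ℤ} (hx : x ∈ cell δ z)
    (hy : y ∈ cell δ z) : ‖x - y‖ ≤ 2 * δ := by
  obtain ⟨⟨h1, h2⟩, h3, h4⟩ := hx
  obtain ⟨⟨h1', h2'⟩, h3', h4'⟩ := hy
  apply norm_sub_le_of_coord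
  · rw [abs_le]; constructor <;> linarith
  · rw [abs_le]; constructor <;> linarith

lemma cell_disjoint {δ : ℝ} (hδ : 0 < δ) {z z' : ℤ × ℤ} (h : z ≠ z') :
    Disjoint (cell δ z) (cell δ z') := by
  rw [Set.disjoint_left]
  intro x hx hx'
  exact h ((eq_floor_of_mem_cell hδ hx).trans (eq_floor_of_mem_cell hδ hx').symm)

lemma finite_cells {T : Set E2} (hT : IsCompact T) {δ : ℝ} (hδ : 0 < δ) :
    {z : ℤ × ℤ | (cell δ z ∩ T).Nonempty}.Finite := by
  obtain ⟨R, hR⟩ := hT.isBounded.exists_norm_le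
  have hsub : {z : ℤ × ℤ | (cell δ z ∩ T).Nonempty} ⊆
      (Icc ⌊-R / δ⌋ ⌊R / δ⌋) ×ˢ (Icc ⌊-R / δ⌋ ⌊R / δ⌋) := by
    rintro z ⟨x, hxz, hxT⟩
    rw [eq_floor_of_mem_cell hδ hxz]
    have hx := hR x hxT
    have h0 : |x 0| ≤ R := (PiLp.norm_apply_le x 0).trans hx
    have h1 : |x 1| ≤ R := (PiLp.norm_apply_le x 1).trans hx
    rw [abs_le] at h0 h1
    refine ⟨⟨?_, ?_⟩, ?_, ?_⟩
    · exact Int.floor_le_floor (div_le_div_of_nonneg_right h0.1 hδ.le)
    · exact Int.floor_le_floor (div_le_div_of_nonneg_right h0.2 hδ.le)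
    · exact Int.floor_le_floor (div_le_div_of_nonneg_right h1.1 hδ.le)
    · exact Int.floor_le_floor (div_le_div_of_nonneg_right h1.2 hδ.le)
  exact ((Set.finite_Icc _ _).prod (Set.finite_Icc _ _)).subset hsub

/-- Grid covering lemma. -/
lemma grid_cover {T : Set E2} (hT : IsCompact T) {η : ℝ} (hη : 0 < η) :
    ∃ δ₀ : ℝ, 0 < δ₀ ∧ ∀ δ : ℝ, 0 < δ → δ < δ₀ → ∃ Z : Finset (ℤ × ℤ),
      (∀ z ∈ Z, (cell δ z ∩ T).Nonempty) ∧ (T ⊆ ⋃ z ∈ Z, cell δ z) ∧
      Z.card * δ ^ 2 ≤ (volume T).toReal + η := by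
  have htend := tendsto_measure_cthickening_of_isCompact (μ := (volume : Measure E2)) hT
  have hfin : volume T ≠ ⊤ := hT.measure_lt_top.ne
  have hlt : volume T < volume T + ENNReal.ofReal η :=
    ENNReal.lt_add_right hfin (by simpa using hη)
  have hev := htend.eventually (gt_mem_nhds hlt)
  obtain ⟨r, hr0, hr⟩ := Metric.eventually_nhds_iff.1 hev
  refine ⟨r / 2, by linarith, fun δ hδ hδr => ?_⟩
  have hfc := finite_cells hT hδ
  refine ⟨hfc.toFinset, fun z hz => ?_, ?_, ?_⟩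
  · simpa using hz
  · intro x hx
    simp only [mem_iUnion]
    exact ⟨_, by simpa using ⟨x, mem_cell_floor hδ x, hx⟩, mem_cell_floor hδ x⟩
  · have hunion : volume (⋃ z ∈ hfc.toFinset, cell δ z) = hfc.toFinset.card * ENNReal.ofReal (δ ^ 2) := by
      rw [measure_biUnion_finset]
      · simp [volume_cell hδ]
      · intro z _ z' _ hzz'
        exact cell_disjoint hδ hzz'
      · intro z _; exact measurableSet_cell δ z
    have hsub : (⋃ z ∈ hfc.toFinset, cell δ z) ⊆ Metric.cthickening (2 * δ) T := by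
      intro x hx
      simp only [mem_iUnion] at hx
      obtain ⟨z, hz, hxz⟩ := hx
      have hz' : (cell δ z ∩ T).Nonempty := by simpa using hz
      obtain ⟨y, hyz, hyT⟩ := hz'
      apply Metric.mem_cthickening_of_dist_le x y (2 * δ) T hyT
      rw [dist_eq_norm]
      exact norm_sub_le_of_mem_cell hxz hyz
    have hle : volume (⋃ z ∈ hfc.toFinset, cell δ z) ≤ volume T + ENNReal.ofReal η := by
      refine (measure_mono hsub).trans (hr ?_).le
      rw [Real.dist_eq, sub_zero, abs_of_pos (by linarith)]; linarith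
    rw [hunion] at hle
    have h2 := ENNReal.toReal_mono (by simp [hfin]) hle
    rw [ENNReal.toReal_mul, ENNReal.toReal_add hfin (by simp), ENNReal.toReal_ofReal hη.le,
      ENNReal.toReal_ofReal (by positivity)] at h2
    simpa using h2

end Crest.Agent.H7
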