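import Mathlib
import Crest.Agent.H7.Area
import Crest.Agent.H7.Grid

open MeasureTheory Measure Module Set Filter Topology
open scoped ENNReal

namespace Crest.Agent.H7

/-- sheared square cylinder -/
def sqCyl (c a b g : E2) : Set (ℝ × E2) :=
  {z | ∃ x ∈ Icc (0:ℝ) 1, ∃ y ∈ Icc (0:ℝ) 1, z.2 = c + x • a + y • b + z.1 • g}

/-- `S` is covered by finitely many sheared square cylinders of total base area at most `A` with
velocities bounded by `G`. -/
def GCov (S : Set (ℝ × E2)) (A G : ℝ) : Prop :=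
  ∃ (ι : Type) (_ : Fintype ι) (c a b g : ι → E2),
    (∀ i, a i ≠ 0 ∧ ‖b i‖ = ‖a i‖ ∧ inner ℝ (a i) (b i) = 0) ∧
    (S ⊆ ⋃ i, sqCyl (c i) (a i) (b i) (g i)) ∧ (∀ i, ‖g i‖ ≤ G) ∧ ∑ i, ‖a i‖ ^ 2 ≤ A

lemma GCov.mono {S S' : Set (ℝ × E2)} {A A' G G' : ℝ} (h : GCov S A G) (hS : S' ⊆ S) (hA : A ≤ A')
    (hG : G ≤ G') : GCov S' A' G' := by
  obtain ⟨ι, _, c, a, b, g, h1, h2, h3, h4⟩ := h
  exact ⟨ι, ‹_›, c, a, b, g, h1, hS.trans h2, fun i => (h3 i).trans hG, h4.trans hA⟩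

lemma GCov.union {S S' : Set (ℝ × E2)} {A A' G : ℝ} (h : GCov S A G) (h' : GCov S' A' G) :
    GCov (S ∪ S') (A + A') G := by
  obtain ⟨ι, _, c, a, b, g, h1, h2, h3, h4⟩ := h
  obtain ⟨ι', _, c', a', b', g', h1', h2', h3', h4'⟩ := h'
  refine ⟨ι ⊕ ι', inferInstance, Sum.elim c c', Sum.elim a a', Sum.elim b b', Sum.elim g g',
    ?_, ?_, ?_, ?_⟩
  · rintro (i | i)
    · exact h1 i
    · exact h1' i
  · rintro z (hz | hz)
    · obtain ⟨i, hi⟩ := mem_iUnion.1 (h2 hz)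
      exact mem_iUnion.2 ⟨Sum.inl i, hi⟩
    · obtain ⟨i, hi⟩ := mem_iUnion.1 (h2' hz)
      exact mem_iUnion.2 ⟨Sum.inr i, hi⟩
  · rintro (i | i)
    · exact h3 i
    · exact h3' i
  · rw [Fintype.sum_sum_type]
    exact add_le_add h4 h4'

lemma GCov.empty {G : ℝ} : GCov ∅ 0 G :=
  ⟨Empty, inferInstance, nofun, nofun, nofun, nofun, nofun, by simp, nofun, by simp⟩

lemma GCov.biUnion {α : Type*} (Z : Finset α) {S : α → Set (ℝ × E2)} {A : α → ℝ} {G : ℝ}
    (h : ∀ z ∈ Z, GCov (S z) (A z) G) : GCov (⋃ z ∈ Z, S z) (∑ z ∈ Z, A z) G := by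
  classical
  induction Z using Finset.induction_on with
  | empty => simpa using GCov.empty
  | insert z Z hz ih =>
    rw [Finset.set_biUnion_insert, Finset.sum_insert hz]
    exact (h z (Finset.mem_insert_self _ _)).union
      (ih fun w hw => h w (Finset.mem_insert_of_mem hw))

/-- A compact prism is efficiently covered. -/
lemma gcov_prism {T : Set E2} (hT : IsCompact T) (v : E2) {η : ℝ} (hη : 0 < η) {A : ℝ}
    (hA : (volume T).toReal + η ≤ A) {G : ℝ} (hG : ‖v‖ ≤ G) :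
    GCov {z | ∃ p ∈ T, z.2 = p + z.1 • v} A G := by
  obtain ⟨δ₀, hδ₀, H⟩ := grid_cover hT hη
  obtain ⟨Z, _, hcov, hcard⟩ := H (δ₀ / 2) (by linarith) (by linarith)
  set δ := δ₀ / 2 with hδ
  have hδ0 : 0 < δ := by rw [hδ]; linarith
  have hn1 : ‖(!₂[δ, 0] : E2)‖ = δ := by
    simp [EuclideanSpace.norm_eq, Real.sqrt_sq_eq_abs, abs_of_pos hδ0]
  have hn2 : ‖(!₂[0, δ] : E2)‖ = δ := by
    simp [EuclideanSpace.norm_eq, Real.sqrt_sq_eq_abs, abs_of_pos hδ0]
  refine ⟨Z, inferInstance, fun z => corner δ z.1, fun _ => !₂[δ, 0], fun _ => !₂[0, δ], fun _ => v,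
    ?_, ?_, fun _ => hG, ?_⟩
  · intro i
    refine ⟨?_, by rw [hn1, hn2], ?_⟩
    · intro h
      simp only at h
      rw [h, norm_zero] at hn1; linarith
    · simp [PiLp.inner_apply, Fin.sum_univ_two]
  · rintro z ⟨p, hp, hz⟩
    obtain ⟨c, hc, hpc⟩ := mem_iUnion₂.1 (hcov hp)
    obtain ⟨⟨h1, h2⟩, h3, h4⟩ := hpc
    refine mem_iUnion.2 ⟨⟨c, hc⟩, (p 0 - δ * c.1) / δ, ?_, (p 1 - δ * c.2) / δ, ?_, ?_⟩
    · constructor
      · apply div_nonneg <;> linarith
      · rw [div_le_one hδ0]; linarith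
    · constructor
      · apply div_nonneg <;> linarith
      · rw [div_le_one hδ0]; linarith
    · rw [hz]
      congr 1
      ext i
      fin_cases i
      · simp; field_simp; ring
      · simp; field_simp; ring
  · rw [Finset.sum_congr rfl (fun i _ => by rw [hn1])]
    simpa using hcard.trans hA

lemma volume_lin2 (a b c : E2) (s : Set E2) :
    volume ((fun x : E2 => c + (x 0 • a + x 1 • b)) '' s) =
      ENNReal.ofReal (Real.sqrt (‖a‖ ^ 2 * ‖b‖ ^ 2 - inner ℝ a b ^ 2)) * volume s := by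
  rw [← area_lin2 a b c s, EuclideanSpace.euclideanHausdorffMeasure_eq_volume]

lemma continuous_aff2 {V : Type*} [NormedAddCommGroup V] [NormedSpace ℝ V] (a b c : V) :
    Continuous (fun x : E2 => c + (x 0 • a + x 1 • b)) := by
  fun_prop

lemma isCompact_stdSq : IsCompact stdSq := by
  apply Metric.isCompact_of_isClosed_isBounded
  · have h0 : Continuous fun x : E2 => x 0 := by fun_prop
    have h1 : Continuous fun x : E2 => x 1 := by fun_prop
    exact ((isClosed_le continuous_const h0).inter (isClosed_le h0 continuous_const)).inter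
      ((isClosed_le continuous_const h1).inter (isClosed_le h1 continuous_const))
  · rw [isBounded_iff_forall_norm_le]
    refine ⟨2, fun x hx => ?_⟩
    obtain ⟨⟨h1, h2⟩, h3, h4⟩ := hx
    have := norm_sub_le_of_coord (x := x) (y := 0) (δ := 1) ?_ ?_
    · simpa using this
    · simp; rw [abs_le]; constructor <;> linarith
    · simp; rw [abs_le]; constructor <;> linarith

lemma norm_le_of_mem_stdSq {x : E2} (hx : x ∈ stdSq) : ‖x‖ ≤ 2 := by
  obtain ⟨⟨h1, h2⟩, h3, h4⟩ := hx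
  have := norm_sub_le_of_coord (x := x) (y := 0) (δ := 1) ?_ ?_
  · simpa using this
  · simp; rw [abs_le]; constructor <;> linarith
  · simp; rw [abs_le]; constructor <;> linarith

lemma isCompact_stdTri : IsCompact stdTri := by
  refine isCompact_stdSq.of_isClosed_subset ?_ ?_
  · have h0 : Continuous fun x : E2 => x 0 := by fun_prop
    have h1 : Continuous fun x : E2 => x 1 := by fun_prop
    exact (isClosed_le continuous_const h0).inter
      ((isClosed_le continuous_const h1).inter (isClosed_le (h0.add h1) continuous_const))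
  · rintro x ⟨h1, h2, h3⟩
    exact ⟨⟨h1, by linarith⟩, h2, by linarith⟩

/-- Two rigid triangles cover a hyperbolically moving parallelogram. -/
lemma two_triangles {M : E2 →L[ℝ] E2} {e1 e2 : E2} {μ L : ℝ} (h1 : M e1 = μ • e1)
    (h2 : M e2 = (-μ) • e2) (hμ0 : 0 ≤ μ) (hμL : μ * L ≤ 1) {τ : ℝ} (hτ : 0 < τ)
    (z : ℤ × ℤ) :
    {w : ℝ × E2 | |w.1| ≤ L ∧ ∃ x ∈ cell τ z, w.2 = lin2 e1 e2 x + w.1 • M (lin2 e1 e2 x)} ⊆
      {w : ℝ × E2 | ∃ p ∈ (fun x : E2 => lin2 e1 e2 (corner τ z) + (x 0 • (τ • e1) + x 1 • (τ • (e1 + e2)))) '' stdTri,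
          w.2 = p + w.1 • ((μ * (τ * z.1 + τ)) • e1 - (μ * (τ * z.2)) • e2)} ∪
      {w : ℝ × E2 | ∃ p ∈ (fun x : E2 => lin2 e1 e2 (corner τ z) + (x 0 • (τ • e2) + x 1 • (τ • (e1 + e2)))) '' stdTri,
          w.2 = p + w.1 • ((μ * (τ * z.1)) • e1 - (μ * (τ * z.2 + τ)) • e2)} := by
  rintro ⟨s, ξ⟩ ⟨hs, x, ⟨⟨hx1, hx2⟩, hx3, hx4⟩, hξ⟩
  simp only at hs hξ
  have hs' := abs_le.1 hs
  have hms : |s * μ| ≤ 1 := by
    rw [abs_mul, abs_of_nonneg hμ0]
    calc |s| * μ ≤ L * μ := mul_le_mul_of_nonneg_right hs hμ0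
      _ ≤ 1 := by linarith
  set α := s * μ with hα
  obtain ⟨ha1, ha2⟩ := abs_le.1 hms
  set X := (x 0 - τ * z.1) / τ with hX
  set Y := (x 1 - τ * z.2) / τ with hY
  have hX0 : 0 ≤ X := div_nonneg (by linarith) hτ.le
  have hX1 : X ≤ 1 := by rw [hX, div_le_one hτ]; linarith
  have hY0 : 0 ≤ Y := div_nonneg (by linarith) hτ.le
  have hY1 : Y ≤ 1 := by rw [hY, div_le_one hτ]; linarith
  have hx0' : x 0 = τ * z.1 + τ * X := by rw [hX]; field_simp; ring
  have hx1' : x 1 = τ * z.2 + τ * Y := by rw [hY]; field_simp; ring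
  have hMx : M (lin2 e1 e2 x) = (μ * x 0) • e1 - (μ * x 1) • e2 := by
    simp only [lin2_apply, map_add, map_smul, h1, h2]
    module
  by_cases hc : (1 - α) * Y ≤ (1 + α) * X - α
  · left
    refine ⟨_, ⟨!₂[(1 + α) * X - α - (1 - α) * Y, (1 - α) * Y], ⟨?_, ?_, ?_⟩, rfl⟩, ?_⟩
    · simp; linarith
    · simp; exact mul_nonneg (by linarith) hY0
    · simp; nlinarith
    · simp only
      rw [hξ, hMx]
      simp only [lin2_apply, corner_zero, corner_one, hx0', hx1']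
      simp only [Matrix.cons_val_zero, Matrix.cons_val_one]
      simp only [hα]
      clear_value X Y
      module
  · right
    push Not at hc
    refine ⟨_, ⟨!₂[(1 - α) * Y + α - (1 + α) * X, (1 + α) * X], ⟨?_, ?_, ?_⟩, rfl⟩, ?_⟩
    · simp; linarith
    · simp; exact mul_nonneg (by linarith) hX0
    · simp; nlinarith
    · simp only
      rw [hξ, hMx]
      simp only [lin2_apply, corner_zero, corner_one, hx0', hx1']
      simp only [Matrix.cons_val_zero, Matrix.cons_val_one]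
      simp only [hα]
      clear_value X Y
      module


lemma exists_eigen {M : E2 →L[ℝ] E2} {a b c μ : ℝ} (hμ : 0 < μ) (hμ2 : μ ^ 2 = a ^ 2 + b * c)
    (hM : ∀ x : E2, M x = !₂[a * x 0 + b * x 1, c * x 0 - a * x 1]) :
    ∃ e1 e2 : E2, M e1 = μ • e1 ∧ M e2 = (-μ) • e2 ∧ Function.Injective (lin2 e1 e2) := by
  rcases le_or_gt 0 a with ha | ha
  · refine ⟨!₂[μ + a, c], !₂[b, -(μ + a)], ?_, ?_, ?_⟩
    · rw [hM]; ext i; fin_cases i <;> simp <;> nlinarith
    · rw [hM]; ext i; fin_cases i <;> simp <;> nlinarith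
    · rw [injective_iff_map_eq_zero]
      intro x hx
      have h0 := congrArg (fun y : E2 => y 0) hx
      have h1 := congrArg (fun y : E2 => y 1) hx
      simp at h0 h1
      have hdet : (μ + a) ^ 2 + b * c ≠ 0 := by nlinarith [mul_nonneg hμ.le ha, mul_pos hμ hμ]
      have e0 : x 0 * ((μ + a) ^ 2 + b * c) = 0 := by
        linear_combination (μ + a) * h0 + b * h1
      have e1 : x 1 * ((μ + a) ^ 2 + b * c) = 0 := by
        linear_combination c * h0 - (μ + a) * h1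
      have e0' := (mul_eq_zero.1 e0).resolve_right hdet
      have e1' := (mul_eq_zero.1 e1).resolve_right hdet
      ext i; fin_cases i
      · simpa using e0'
      · simpa using e1'
  · refine ⟨!₂[b, μ - a], !₂[μ - a, -c], ?_, ?_, ?_⟩
    · rw [hM]; ext i; fin_cases i <;> simp <;> nlinarith
    · rw [hM]; ext i; fin_cases i <;> simp <;> nlinarith
    · rw [injective_iff_map_eq_zero]
      intro x hx
      have h0 := congrArg (fun y : E2 => y 0) hx
      have h1 := congrArg (fun y : E2 => y 1) hx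
      simp at h0 h1
      have hdet : (μ - a) ^ 2 + b * c ≠ 0 := by nlinarith [mul_pos hμ (neg_pos.2 ha), mul_pos hμ hμ]
      have e0 : x 0 * ((μ - a) ^ 2 + b * c) = 0 := by
        linear_combination c * h0 + (μ - a) * h1
      have e1 : x 1 * ((μ - a) ^ 2 + b * c) = 0 := by
        linear_combination (μ - a) * h0 - b * h1
      have e0' := (mul_eq_zero.1 e0).resolve_right hdet
      have e1' := (mul_eq_zero.1 e1).resolve_right hdet
      ext i; fin_cases i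
      · simpa using e0'
      · simpa using e1'

/-- the thickened moving square -/
def SM (M : E2 →L[ℝ] E2) (L ρ : ℝ) : Set (ℝ × E2) :=
  {z | |z.1| ≤ L ∧ ∃ p ∈ stdSq, ∃ w : E2, ‖w‖ ≤ ρ ∧ z.2 = p + z.1 • M p + w}

lemma gram_add (a b : E2) : ‖a‖ ^ 2 * ‖a + b‖ ^ 2 - inner ℝ a (a + b) ^ 2 =
    ‖a‖ ^ 2 * ‖b‖ ^ 2 - inner ℝ a b ^ 2 := by
  have h1 := @norm_add_sq_real _ _ _ a b
  rw [h1, inner_add_right, real_inner_self_eq_norm_sq]; ring

lemma gram_smul (a b : E2) (τ : ℝ) : ‖τ • a‖ ^ 2 * ‖τ • b‖ ^ 2 - inner ℝ (τ • a) (τ • b) ^ 2 =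
    (τ ^ 2) ^ 2 * (‖a‖ ^ 2 * ‖b‖ ^ 2 - inner ℝ a b ^ 2) := by
  rw [norm_smul, norm_smul, inner_smul_left, inner_smul_right]
  simp only [Real.norm_eq_abs, mul_pow, sq_abs, conj_trivial]
  ring

lemma aux_kappa {g κ : ℝ} (hg : 0 ≤ g) (hκ : 0 ≤ κ) : κ * (g / (2 * (κ + 1))) ≤ g / 2 := by
  rw [show κ * (g / (2 * (κ + 1))) = (g / 2) * (κ / (κ + 1)) by field_simp]
  apply mul_le_of_le_one_right (by linarith)
  rw [div_le_one (by linarith)]; linarith

lemma aux_card {g N : ℝ} (hg : 0 ≤ g) (hN : 0 ≤ N) : N * (2 * (g / 2 / (2 * (N + 1)))) ≤ g / 2 := by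
  rw [show N * (2 * (g / 2 / (2 * (N + 1)))) = (g / 2) * (N / (N + 1)) by field_simp]
  apply mul_le_of_le_one_right (by linarith)
  rw [div_le_one (by linarith)]; linarith

lemma lin_cover_strict {M : E2 →L[ℝ] E2} {e1 e2 : E2} {μ L : ℝ} (h1 : M e1 = μ • e1)
    (h2 : M e2 = (-μ) • e2) (hinj : Function.Injective (lin2 e1 e2)) (hμ0 : 0 < μ) (hL : 0 < L)
    {K d₀ ρ A : ℝ} (hK : ‖M‖ ≤ K) (hd₀ : 0 < d₀) (hd : d₀ ≤ 1 - L ^ 2 * μ ^ 2) (hρ : 0 ≤ ρ)
    (hA : (volume (Metric.cthickening ((1 + L * K) / d₀ * ρ) stdSq)).toReal < A) :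
    ∃ G, GCov (SM M L ρ) A G := by
  set r := (1 + L * K) / d₀ * ρ with hr
  have hK0 : 0 ≤ K := (norm_nonneg _).trans hK
  have hr0 : 0 ≤ r := by positivity
  have hμL : μ * L ≤ 1 := by
    have : (μ * L) ^ 2 ≤ 1 := by nlinarith
    nlinarith [mul_pos hμ0 hL]
  set T' := Metric.cthickening r stdSq with hT'
  have hT'c : IsCompact T' := isCompact_stdSq.cthickening
  let B : E2 ≃L[ℝ] E2 := (LinearEquiv.ofInjectiveEndo (lin2 e1 e2) hinj).toContinuousLinearEquiv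
  have hB : ∀ x, B x = lin2 e1 e2 x := fun x => rfl
  set T'' := B.symm '' T' with hT''
  have hT''c : IsCompact T'' := hT'c.image B.symm.continuous
  set κ := Real.sqrt (‖e1‖ ^ 2 * ‖e2‖ ^ 2 - inner ℝ e1 e2 ^ 2) with hκ
  have himg : T' = (fun x : E2 => 0 + (x 0 • e1 + x 1 • e2)) '' T'' := by
    rw [hT'', Set.image_image]
    have : ∀ y, (fun x : E2 => 0 + (x 0 • e1 + x 1 • e2)) (B.symm y) = y := by
      intro y
      have := hB (B.symm y)
      rw [B.apply_symm_apply, lin2_apply] at this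
      simp only [zero_add]; exact this.symm
    simp only [this, Set.image_id']
  have hvol : volume T' = ENNReal.ofReal κ * volume T'' := by
    conv_lhs => rw [himg]
    rw [volume_lin2]
  have hκ0 : 0 ≤ κ := Real.sqrt_nonneg _
  have hvol' : (volume T').toReal = κ * (volume T'').toReal := by
    rw [hvol, ENNReal.toReal_mul, ENNReal.toReal_ofReal hκ0]
  set v := (volume T'').toReal with hv
  have hgap : 0 < A - κ * v := by rw [← hvol']; linarith
  -- choose η''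
  set η := (A - κ * v) / (2 * (κ + 1)) with hη
  have hη0 : 0 < η := by positivity
  have hκη : κ * η ≤ (A - κ * v) / 2 := aux_kappa hgap.le hκ0
  obtain ⟨δ₀, hδ₀, H⟩ := grid_cover hT''c hη0
  obtain ⟨Z, _, hcov, hcard⟩ := H (δ₀ / 2) (by linarith) (by linarith)
  set τ := δ₀ / 2 with hτ
  have hτ0 : 0 < τ := by rw [hτ]; linarith
  -- the small extra
  obtain ⟨N, hN⟩ : ∃ N : ℝ, N = Z.card := ⟨_, rfl⟩
  have hN0 : 0 ≤ N := by rw [hN]; exact Nat.cast_nonneg _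
  rw [← hN] at hcard
  set η₃ := (A - κ * v) / 2 / (2 * (N + 1)) with hη₃
  have hη₃0 : 0 < η₃ := div_pos (by linarith) (by linarith)
  -- prisms
  let vm : ℤ × ℤ → E2 := fun z => (μ * (τ * z.1 + τ)) • e1 - (μ * (τ * z.2)) • e2
  let vp : ℤ × ℤ → E2 := fun z => (μ * (τ * z.1)) • e1 - (μ * (τ * z.2 + τ)) • e2
  obtain ⟨G, hG⟩ : ∃ G : ℝ, ∀ z ∈ Z, ‖vm z‖ ≤ G ∧ ‖vp z‖ ≤ G := by
    refine ⟨∑ z ∈ Z, (‖vm z‖ + ‖vp z‖), fun z hz => ?_⟩
    have := Finset.single_le_sum (f := fun z => ‖vm z‖ + ‖vp z‖) (fun i _ => by positivity) hz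
    constructor <;> linarith [norm_nonneg (vm z), norm_nonneg (vp z)]
  have hgr1 : Real.sqrt (‖τ • e1‖ ^ 2 * ‖τ • (e1 + e2)‖ ^ 2 - inner ℝ (τ • e1) (τ • (e1 + e2)) ^ 2)
      = τ ^ 2 * κ := by
    rw [gram_smul, gram_add, Real.sqrt_mul (by positivity), Real.sqrt_sq (by positivity)]
  have hgr2 : Real.sqrt (‖τ • e2‖ ^ 2 * ‖τ • (e1 + e2)‖ ^ 2 - inner ℝ (τ • e2) (τ • (e1 + e2)) ^ 2)
      = τ ^ 2 * κ := by
    rw [gram_smul, add_comm e1 e2, gram_add, Real.sqrt_mul (by positivity), Real.sqrt_sq (by positivity),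
      hκ, real_inner_comm e2 e1, mul_comm (‖e2‖ ^ 2)]
  have hcell : ∀ z ∈ Z, GCov {w : ℝ × E2 | |w.1| ≤ L ∧ ∃ x ∈ cell τ z,
      w.2 = lin2 e1 e2 x + w.1 • M (lin2 e1 e2 x)} (τ ^ 2 * κ + 2 * η₃) G := by
    intro z hz
    refine GCov.mono ?_ (two_triangles h1 h2 hμ0.le hμL hτ0 z)
      (le_of_eq (by ring) : (τ ^ 2 * κ / 2 + η₃) + (τ ^ 2 * κ / 2 + η₃) ≤ τ ^ 2 * κ + 2 * η₃) le_rfl
    apply GCov.union
    · apply gcov_prism (isCompact_stdTri.image (continuous_aff2 _ _ _)) _ hη₃0 _ (hG z hz).1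
      rw [volume_lin2, hgr1, volume_stdTri, ENNReal.toReal_mul, ENNReal.toReal_ofReal (by positivity),
        ENNReal.toReal_ofReal (by positivity)]
      linarith
    · apply gcov_prism (isCompact_stdTri.image (continuous_aff2 _ _ _)) _ hη₃0 _ (hG z hz).2
      rw [volume_lin2, hgr2, volume_stdTri, ENNReal.toReal_mul, ENNReal.toReal_ofReal (by positivity),
        ENNReal.toReal_ofReal (by positivity)]
      linarith
  refine ⟨G, (GCov.biUnion Z hcell).mono ?_ ?_ le_rfl⟩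
  · rintro ⟨s, ξ⟩ ⟨hs, p, hp, w, hw, hξ⟩
    simp only at hs hξ
    have hs2 : s ^ 2 ≤ L ^ 2 := sq_le_sq' (by linarith [(abs_le.1 hs).1]) (abs_le.1 hs).2
    have hden : d₀ ≤ 1 - s ^ 2 * μ ^ 2 := by nlinarith [sq_nonneg μ]
    have hden0 : 0 < 1 - s ^ 2 * μ ^ 2 := lt_of_lt_of_le hd₀ hden
    have hMM : ∀ y, M (M y) = (μ ^ 2) • y := by
      intro y
      obtain ⟨x, rfl⟩ : ∃ x, B x = y := ⟨B.symm y, B.apply_symm_apply y⟩
      rw [hB, lin2_apply]
      simp only [map_add, map_smul, h1, h2]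
      module
    set w' := (1 - s ^ 2 * μ ^ 2)⁻¹ • (w - s • M w) with hw'
    have hww : w' + s • M w' = w := by
      rw [hw', map_smul, map_sub, map_smul, hMM]
      have : (1 - s ^ 2 * μ ^ 2)⁻¹ • (w - s • M w) + s • (1 - s ^ 2 * μ ^ 2)⁻¹ • (M w - s • μ ^ 2 • w)
          = ((1 - s ^ 2 * μ ^ 2)⁻¹ * (1 - s ^ 2 * μ ^ 2)) • w := by module
      rw [this, inv_mul_cancel₀ hden0.ne', one_smul]
    have hw'n : ‖w'‖ ≤ r := by
      rw [hw', norm_smul, Real.norm_eq_abs, abs_inv, abs_of_pos hden0, hr]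
      have e1 : ‖w - s • M w‖ ≤ (1 + L * K) * ρ := by
        calc ‖w - s • M w‖ ≤ ‖w‖ + ‖s • M w‖ := norm_sub_le _ _
          _ = ‖w‖ + |s| * ‖M w‖ := by rw [norm_smul, Real.norm_eq_abs]
          _ ≤ ρ + L * (K * ρ) := by
              gcongr
              exact (M.le_opNorm w).trans (by gcongr)
          _ = (1 + L * K) * ρ := by ring
      calc (1 - s ^ 2 * μ ^ 2)⁻¹ * ‖w - s • M w‖ ≤ d₀⁻¹ * ((1 + L * K) * ρ) := by
            gcongr
        _ = (1 + L * K) / d₀ * ρ := by ring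
    have hp' : p + w' ∈ T' := by
      apply Metric.mem_cthickening_of_dist_le _ p _ _ hp
      rw [dist_eq_norm]; simpa using hw'n
    have hx : B.symm (p + w') ∈ T'' := ⟨_, hp', rfl⟩
    obtain ⟨z, hz, hxz⟩ := mem_iUnion₂.1 (hcov hx)
    refine mem_iUnion₂.2 ⟨z, hz, hs, _, hxz, ?_⟩
    rw [← hB, B.apply_symm_apply]
    simp only
    rw [hξ, map_add, smul_add]
    nth_rewrite 1 [← hww]
    abel
  · rw [Finset.sum_const, nsmul_eq_mul, ← hN]
    have h3 : N * (2 * η₃) ≤ (A - κ * v) / 2 := aux_card hgap.le hN0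
    have h4 : N * (τ ^ 2 * κ) ≤ κ * v + κ * η := by
      calc N * (τ ^ 2 * κ) = κ * (N * τ ^ 2) := by ring
        _ ≤ κ * (v + η) := mul_le_mul_of_nonneg_left hcard hκ0
        _ = κ * v + κ * η := by ring
    linarith

end Crest.Agent.H7
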