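import Mathlib
import Crest.Agent.H7.Ruled

open MeasureTheory Measure Module Set Filter Topology
open scoped ENNReal

namespace Crest.Agent.H7

lemma inner3 (a b : E3) : inner ℝ a b = a 0 * b 0 + a 1 * b 1 + a 2 * b 2 := by
  simp [PiLp.inner_apply, Fin.sum_univ_three]; ring

lemma normsq3 (a : E3) : ‖a‖ ^ 2 = a 0 ^ 2 + a 1 ^ 2 + a 2 ^ 2 := by
  rw [← real_inner_self_eq_norm_sq, inner3]; ring

lemma inner2 (a b : E2) : inner ℝ a b = a 0 * b 0 + a 1 * b 1 := by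
  simp [PiLp.inner_apply, Fin.sum_univ_two]; ring

lemma normsq2 (a : E2) : ‖a‖ ^ 2 = a 0 ^ 2 + a 1 ^ 2 := by
  rw [← real_inner_self_eq_norm_sq, inner2]; ring

/-- orthogonal projection along the unit vector `u` -/
noncomputable def PP (u : E3) : E3 →ₗ[ℝ] E3 where
  toFun y := y - inner ℝ y u • u
  map_add' x y := by rw [inner_add_left, add_smul]; abel
  map_smul' c x := by
    rw [inner_smul_left, RingHom.id_apply, smul_sub, smul_smul]; rfl

@[simp] lemma PP_apply (u y : E3) : PP u y = y - inner ℝ y u • u := rfl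

lemma PP_continuous (u : E3) : Continuous (PP u) := (PP u).continuous_of_finiteDimensional

lemma inner_PP_left {u : E3} (hu : ‖u‖ = 1) (a : E3) : inner ℝ (PP u a) u = 0 := by
  rw [PP_apply, inner_sub_left, inner_smul_left, real_inner_self_eq_norm_sq, hu]; simp

lemma inner_PP {u : E3} (hu : ‖u‖ = 1) (a b : E3) :
    inner ℝ (PP u a) (PP u b) = inner ℝ a b - inner ℝ a u * inner ℝ b u := by
  rw [PP_apply, PP_apply, inner_sub_left, inner_sub_right, inner_sub_right, inner_smul_left,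
    inner_smul_right, inner_smul_left, inner_smul_right, real_inner_self_eq_norm_sq, hu,
    real_inner_comm b u]
  simp only [conj_trivial]; ring

lemma PP_self_of_perp {u : E3} {x : E3} (h : inner ℝ x u = 0) : PP u x = x := by
  rw [PP_apply, h]; simp

/-- triple product -/
def det3 (a b c : E3) : ℝ :=
  a 0 * (b 1 * c 2 - b 2 * c 1) - a 1 * (b 0 * c 2 - b 2 * c 0) + a 2 * (b 0 * c 1 - b 1 * c 0)

lemma gram_PP {u : E3} (hu : ‖u‖ = 1) (a b : E3) :
    ‖PP u a‖ ^ 2 * ‖PP u b‖ ^ 2 - inner ℝ (PP u a) (PP u b) ^ 2 = det3 a b u ^ 2 := by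
  rw [← real_inner_self_eq_norm_sq, ← real_inner_self_eq_norm_sq, inner_PP hu, inner_PP hu,
    inner_PP hu]
  have h1 : u 0 ^ 2 + u 1 ^ 2 + u 2 ^ 2 = 1 := by rw [← normsq3, hu]; norm_num
  simp only [inner3, det3]
  linear_combination ((a 0 * a 0 + a 1 * a 1 + a 2 * a 2) * (b 0 * b 0 + b 1 * b 1 + b 2 * b 2) -
    (a 0 * b 0 + a 1 * b 1 + a 2 * b 2) ^ 2) * (- h1)

lemma exists_plane_iso {u : E3} (hu : ‖u‖ = 1) :
    ∃ Ψ : E2 →ₗᵢ[ℝ] E3, ∀ x, inner ℝ x u = 0 ↔ x ∈ Set.range Ψ := by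
  have hu0 : u ≠ 0 := by intro h; rw [h, norm_zero] at hu; exact zero_ne_one hu
  haveI : Fact (finrank ℝ E3 = 2 + 1) := ⟨by simp⟩
  have hfr : finrank ℝ (ℝ ∙ u)ᗮ = 2 := Submodule.finrank_orthogonal_span_singleton hu0
  let b := (stdOrthonormalBasis ℝ (ℝ ∙ u)ᗮ).reindex (finCongr hfr)
  refine ⟨(ℝ ∙ u)ᗮ.subtypeₗᵢ.comp b.repr.symm.toLinearIsometry, fun x => ?_⟩
  constructor
  · intro hx
    have hx' : x ∈ (ℝ ∙ u)ᗮ := by
      rw [Submodule.mem_orthogonal_singleton_iff_inner_left]; exact hx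
    exact ⟨b.repr ⟨x, hx'⟩, by simp⟩
  · rintro ⟨y, rfl⟩
    have : ((b.repr.symm y : (ℝ ∙ u)ᗮ) : E3) ∈ (ℝ ∙ u)ᗮ := (b.repr.symm y).2
    rw [Submodule.mem_orthogonal_singleton_iff_inner_left] at this
    exact this

lemma area_iso (Ψ : E2 →ₗᵢ[ℝ] E3) (S : Set E2) : μHE[2] (Ψ '' S) = volume S := by
  rw [Ψ.isometry.euclideanHausdorffMeasure_image, EuclideanSpace.euclideanHausdorffMeasure_eq_volume]

lemma area_lt_top {u : E3} (hu : ‖u‖ = 1) {T : Set E3} (hT : IsCompact T)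
    (hTu : ∀ x ∈ T, inner ℝ x u = 0) : μHE[2] T < ⊤ := by
  obtain ⟨Ψ, hΨ⟩ := exists_plane_iso hu
  have hTeq : T = Ψ '' (Ψ ⁻¹' T) := by
    rw [Set.image_preimage_eq_inter_range]
    exact (inter_eq_left.2 fun x hx => (hΨ x).1 (hTu x hx)).symm
  rw [hTeq, area_iso]
  exact (Ψ.isometry.isClosedEmbedding.isCompact_preimage hT).measure_lt_top

lemma open_base {u : E3} (hu : ‖u‖ = 1) {T : Set E3} (hT : IsCompact T)
    (hTu : ∀ x ∈ T, inner ℝ x u = 0) {η : ℝ} (hη : 0 < η) :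
    ∃ B : Set E3, T ⊆ B ∧ Bornology.IsBounded B ∧
      (∃ O : Set E3, IsOpen O ∧ B = O ∩ {x | inner ℝ x u = 0}) ∧
      (μHE[2] B).toReal ≤ (μHE[2] T).toReal + η := by
  obtain ⟨Ψ, hΨ⟩ := exists_plane_iso hu
  set T2 := Ψ ⁻¹' T with hT2
  have hTeq : T = Ψ '' T2 := by
    rw [hT2, Set.image_preimage_eq_inter_range]
    exact (inter_eq_left.2 fun x hx => (hΨ x).1 (hTu x hx)).symm
  have hT2c : IsCompact T2 := Ψ.isometry.isClosedEmbedding.isCompact_preimage hT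
  have htend := tendsto_measure_cthickening_of_isCompact (μ := (volume : Measure E2)) hT2c
  have hfin : volume T2 ≠ ⊤ := hT2c.measure_lt_top.ne
  have hlt : volume T2 < volume T2 + ENNReal.ofReal η :=
    ENNReal.lt_add_right hfin (by simpa using hη)
  have hev := htend.eventually (gt_mem_nhds hlt)
  obtain ⟨r, hr0, hr⟩ := Metric.eventually_nhds_iff.1 hev
  have hr2 := (hr (y := r / 2) (by rw [Real.dist_eq, sub_zero, abs_of_pos (by linarith)]; linarith)).le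
  refine ⟨Metric.thickening (r / 2) T ∩ {x | inner ℝ x u = 0}, ?_, ?_,
    ⟨_, Metric.isOpen_thickening, rfl⟩, ?_⟩
  · intro x hx
    exact ⟨Metric.self_subset_thickening (by linarith) _ hx, hTu x hx⟩
  · exact (hT.isBounded.thickening).subset inter_subset_left
  · have hsub : Metric.thickening (r / 2) T ∩ {x | inner ℝ x u = 0} ⊆
        Ψ '' (Metric.cthickening (r / 2) T2) := by
      rintro x ⟨hx, hxu⟩
      obtain ⟨y, rfl⟩ := (hΨ x).1 hxu
      refine ⟨y, ?_, rfl⟩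
      obtain ⟨w, hw, hyw⟩ := Metric.mem_thickening_iff.1 hx
      rw [hTeq] at hw
      obtain ⟨w', hw', rfl⟩ := hw
      apply Metric.mem_cthickening_of_dist_le y w' _ _ hw'
      rw [← Ψ.isometry.dist_eq]; exact hyw.le
    have h1 : μHE[2] (Metric.thickening (r / 2) T ∩ {x | inner ℝ x u = 0}) ≤
        μHE[2] T + ENNReal.ofReal η := by
      calc _ ≤ μHE[2] (Ψ '' (Metric.cthickening (r / 2) T2)) := measure_mono hsub
        _ = volume (Metric.cthickening (r / 2) T2) := area_iso _ _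
        _ ≤ volume T2 + ENNReal.ofReal η := hr2
        _ = _ := by rw [hTeq, area_iso]
    have hTfin : μHE[2] T ≠ ⊤ := (area_lt_top hu hT hTu).ne
    have h2 := ENNReal.toReal_mono (by simp [hTfin]) h1
    rwa [ENNReal.toReal_add hTfin (by simp), ENNReal.toReal_ofReal hη.le] at h2

lemma isCompact_parallelogram (c a b : E3) :
    IsCompact {x : E3 | ∃ s ∈ Icc (0:ℝ) 1, ∃ t ∈ Icc (0:ℝ) 1, x = c + s • a + t • b} := by
  have h : {x : E3 | ∃ s ∈ Icc (0:ℝ) 1, ∃ t ∈ Icc (0:ℝ) 1, x = c + s • a + t • b} =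
      (fun q : ℝ × ℝ => c + q.1 • a + q.2 • b) '' (Icc (0:ℝ) 1 ×ˢ Icc (0:ℝ) 1) := by
    ext y; constructor
    · rintro ⟨s, hs, t, ht, rfl⟩
      exact ⟨(s, t), ⟨hs, ht⟩, rfl⟩
    · rintro ⟨⟨s, t⟩, ⟨hs, ht⟩, rfl⟩
      exact ⟨s, hs, t, ht, rfl⟩
  rw [h]
  exact (isCompact_Icc.prod isCompact_Icc).image (by fun_prop)

end Crest.Agent.H7
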