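import Mathlib
import Crest.Agent.H7.Plane

open MeasureTheory Measure Module Set Filter Topology
open scoped ENNReal

namespace Crest.Agent.H7

lemma gram_comb (a b : E3) (x1 y1 x2 y2 : ℝ) :
    ‖x1 • a + y1 • b‖ ^ 2 * ‖x2 • a + y2 • b‖ ^ 2 -
        inner ℝ (x1 • a + y1 • b) (x2 • a + y2 • b) ^ 2 =
      (x1 * y2 - x2 * y1) ^ 2 * (‖a‖ ^ 2 * ‖b‖ ^ 2 - inner ℝ a b ^ 2) := by
  simp only [← real_inner_self_eq_norm_sq, inner3, PiLp.add_apply, PiLp.smul_apply, smul_eq_mul]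
  ring

lemma gram_nonneg3 (a b : E3) : 0 ≤ ‖a‖ ^ 2 * ‖b‖ ^ 2 - inner ℝ a b ^ 2 := by
  have h := abs_real_inner_le_norm a b
  have h2 : inner ℝ a b ^ 2 ≤ (‖a‖ * ‖b‖) ^ 2 := by
    rw [← sq_abs]; exact pow_le_pow_left₀ (abs_nonneg _) h 2
  nlinarith

lemma det3_perp {a b c e : E3} (he : ‖e‖ = 1) (ha : inner ℝ a e = 0) (hb : inner ℝ b e = 0)
    (hc : inner ℝ c e = 0) : det3 a b c = 0 := by
  have h1 : e 0 ^ 2 + e 1 ^ 2 + e 2 ^ 2 = 1 := by rw [← normsq3, he]; norm_num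
  rw [inner3] at ha hb hc
  have k0 : det3 a b c * e 0 = 0 := by
    simp only [det3]
    linear_combination (b 1 * c 2 - b 2 * c 1) * ha - (a 1 * c 2 - a 2 * c 1) * hb +
      (a 1 * b 2 - a 2 * b 1) * hc
  have k1 : det3 a b c * e 1 = 0 := by
    simp only [det3]
    linear_combination -(b 0 * c 2 - b 2 * c 0) * ha + (a 0 * c 2 - a 2 * c 0) * hb -
      (a 0 * b 2 - a 2 * b 0) * hc
  have k2 : det3 a b c * e 2 = 0 := by
    simp only [det3]
    linear_combination (b 0 * c 1 - b 1 * c 0) * ha - (a 0 * c 1 - a 1 * c 0) * hb +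
      (a 0 * b 1 - a 1 * b 0) * hc
  have : det3 a b c = det3 a b c * (e 0 ^ 2 + e 1 ^ 2 + e 2 ^ 2) := by rw [h1, mul_one]
  rw [this]
  linear_combination e 0 * k0 + e 1 * k1 + e 2 * k2

/-- unit vector in the direction `n` -/
noncomputable def un (n : E3) : E3 := ‖n‖⁻¹ • n

lemma norm_un {n : E3} (hn : n ≠ 0) : ‖un n‖ = 1 := by
  rw [un, norm_smul, norm_inv, norm_norm, inv_mul_cancel₀ (norm_ne_zero_iff.2 hn)]

lemma norm_axis_sq {e w : E3} (he : ‖e‖ = 1) (hw : inner ℝ w e = 0) :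
    ‖e + w‖ ^ 2 = 1 + ‖w‖ ^ 2 := by
  rw [norm_add_sq_real, he, real_inner_comm, hw]; ring

lemma norm_axis {e w : E3} (he : ‖e‖ = 1) (hw : inner ℝ w e = 0) :
    ‖e + w‖ = Real.sqrt (1 + ‖w‖ ^ 2) := by
  rw [← norm_axis_sq he hw, Real.sqrt_sq (norm_nonneg _)]

lemma axis_ne_zero {e w : E3} (he : ‖e‖ = 1) (hw : inner ℝ w e = 0) : e + w ≠ 0 := by
  intro h
  have := norm_axis_sq he hw
  rw [h, norm_zero] at this
  nlinarith [sq_nonneg ‖w‖]

lemma gram_axis {a b w e : E3} (he : ‖e‖ = 1) (ha : inner ℝ a e = 0) (hb : inner ℝ b e = 0)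
    (hw : inner ℝ w e = 0) :
    ‖PP (un (e + w)) a‖ ^ 2 * ‖PP (un (e + w)) b‖ ^ 2 -
      inner ℝ (PP (un (e + w)) a) (PP (un (e + w)) b) ^ 2 =
      (‖a‖ ^ 2 * ‖b‖ ^ 2 - inner ℝ a b ^ 2) / (1 + ‖w‖ ^ 2) := by
  rw [gram_PP (norm_un (axis_ne_zero he hw))]
  have h1 : ‖a‖ ^ 2 * ‖b‖ ^ 2 - inner ℝ a b ^ 2 = det3 a b e ^ 2 := by
    rw [← gram_PP he, PP_self_of_perp ha, PP_self_of_perp hb]
  have h2 : det3 a b (un (e + w)) = ‖e + w‖⁻¹ * det3 a b e := by
    have h3 := det3_perp (a := a) (b := b) (c := w) he ha hb hw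
    have h4 : det3 a b (un (e + w)) = ‖e + w‖⁻¹ * (det3 a b e + det3 a b w) := by
      simp only [det3, un, PiLp.smul_apply, PiLp.add_apply, smul_eq_mul]; ring
    rw [h4, h3, add_zero]
  rw [h1, h2, ← norm_axis_sq he hw, mul_pow, inv_pow]
  field_simp

/-- sector triangle vertices, projected along `n`. -/
noncomputable def sv0 (n O : E3) : E3 := PP (un n) O
noncomputable def sv1 (n O a b : E3) (p h : ℝ) : E3 := PP (un n) (O + h • (a + p • b))

lemma inner_PP_un {n : E3} (hn : n ≠ 0) (x : E3) : inner ℝ (PP (un n) x) n = 0 := by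
  have h := inner_PP_left (norm_un hn) x
  rw [un, inner_smul_right] at h
  rcases mul_eq_zero.1 h with h | h
  · exact absurd h (inv_ne_zero (norm_ne_zero_iff.2 hn))
  · exact h

lemma sector_area {a b w e : E3} (he : ‖e‖ = 1) (ha : inner ℝ a e = 0) (hb : inner ℝ b e = 0)
    (hw : inner ℝ w e = 0) (O : E3) {p q : ℝ} (hpq : p ≤ q) (h : ℝ) :
    μHE[2] (convexHull ℝ {sv0 (e + w) O, sv1 (e + w) O a b p h, sv1 (e + w) O a b q h}) =
      ENNReal.ofReal (Real.sqrt (‖a‖ ^ 2 * ‖b‖ ^ 2 - inner ℝ a b ^ 2) *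
        ((q - p) * (h ^ 2 / (2 * Real.sqrt (1 + ‖w‖ ^ 2))))) := by
  rw [area_triangle]
  congr 1
  have e1 : sv1 (e + w) O a b p h - sv0 (e + w) O =
      h • PP (un (e + w)) a + (h * p) • PP (un (e + w)) b := by
    rw [sv1, sv0, map_add, map_smul, map_add, map_smul, smul_add, smul_smul]; abel
  have e2 : sv1 (e + w) O a b q h - sv0 (e + w) O =
      h • PP (un (e + w)) a + (h * q) • PP (un (e + w)) b := by
    rw [sv1, sv0, map_add, map_smul, map_add, map_smul, smul_add, smul_smul]; abel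
  rw [e1, e2, gram_comb, gram_axis he ha hb hw]
  have e3 : (h * (h * q) - h * (h * p)) ^ 2 = (h ^ 2 * (q - p)) ^ 2 := by ring
  rw [e3, Real.sqrt_mul (by positivity), Real.sqrt_sq (by nlinarith [sq_nonneg h]),
    Real.sqrt_div (gram_nonneg3 a b)]
  have : 0 < Real.sqrt (1 + ‖w‖ ^ 2) := Real.sqrt_pos.2 (by positivity)
  field_simp

lemma sector_mem {n : E3} (O a b : E3) (p q : ℝ) {h μ₁ μ₂ : ℝ} (hh : 0 < h)
    (h1 : 0 ≤ μ₁) (h2 : 0 ≤ μ₂) (h3 : μ₁ + μ₂ ≤ h) (σ : ℝ) :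
    ∃ y ∈ convexHull ℝ {sv0 n O, sv1 n O a b p h, sv1 n O a b q h}, ∃ σ' : ℝ,
      O + μ₁ • (a + p • b) + μ₂ • (a + q • b) + σ • n = y + σ' • n := by
  set x := O + μ₁ • (a + p • b) + μ₂ • (a + q • b) with hx
  refine ⟨PP (un n) x, ?_, σ + inner ℝ x (un n) * ‖n‖⁻¹, ?_⟩
  · rw [convexHull_triple]
    refine ⟨!₂[μ₁ / h, μ₂ / h], ?_, ?_⟩
    · refine ⟨?_, ?_, ?_⟩
      · simp; positivity
      · simp; positivity
      · simp
        rw [← add_div, div_le_one hh]; exact h3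
    · have e1 : sv1 n O a b p h - sv0 n O = h • PP (un n) (a + p • b) := by
        rw [sv1, sv0, map_add, map_smul]; abel
      have e2 : sv1 n O a b q h - sv0 n O = h • PP (un n) (a + q • b) := by
        rw [sv1, sv0, map_add, map_smul]; abel
      simp only [e1, e2]
      rw [smul_smul, smul_smul]
      have e3 : (!₂[μ₁ / h, μ₂ / h] : E2) 0 * h = μ₁ := by simp; field_simp
      have e4 : (!₂[μ₁ / h, μ₂ / h] : E2) 1 * h = μ₂ := by simp; field_simp
      rw [e3, e4, hx, sv0]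
      simp only [map_add, map_smul]
      abel
  · rw [PP_apply, un, add_smul, smul_smul]
    abel

lemma sector_affine {a b w e : E3} (he : ‖e‖ = 1) (ha : inner ℝ a e = 0) (hb : inner ℝ b e = 0)
    (hw : inner ℝ w e = 0) (hg : 0 < ‖a‖ ^ 2 * ‖b‖ ^ 2 - inner ℝ a b ^ 2)
    (O : E3) {p q : ℝ} (hpq : p < q) {h : ℝ} (hh : 0 < h) :
    AffineIndependent ℝ ![sv0 (e + w) O, sv1 (e + w) O a b p h, sv1 (e + w) O a b q h] := by
  have e1 : sv1 (e + w) O a b p h - sv0 (e + w) O =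
      h • PP (un (e + w)) a + (h * p) • PP (un (e + w)) b := by
    rw [sv1, sv0, map_add, map_smul, map_add, map_smul, smul_add, smul_smul]; abel
  have e2 : sv1 (e + w) O a b q h - sv0 (e + w) O =
      h • PP (un (e + w)) a + (h * q) • PP (un (e + w)) b := by
    rw [sv1, sv0, map_add, map_smul, map_add, map_smul, smul_add, smul_smul]; abel
  set V0 := sv0 (e + w) O
  set V1 := sv1 (e + w) O a b p h
  set V2 := sv1 (e + w) O a b q h
  have hgr : 0 < ‖V1 - V0‖ ^ 2 * ‖V2 - V0‖ ^ 2 - inner ℝ (V1 - V0) (V2 - V0) ^ 2 := by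
    rw [e1, e2, gram_comb, gram_axis he ha hb hw]
    have : h * (h * q) - h * (h * p) ≠ 0 := by
      have : 0 < h * (h * (q - p)) := mul_pos hh (mul_pos hh (by linarith))
      nlinarith
    positivity
  rw [affineIndependent_iff_of_fintype]
  intro c hc hcv
  rw [Finset.univ.weightedVSub_eq_linear_combination hc] at hcv
  simp only [Fin.sum_univ_three, Matrix.cons_val_zero, Matrix.cons_val_one, Matrix.cons_val] at hc hcv
  have hv : c 1 • (V1 - V0) + c 2 • (V2 - V0) = 0 := by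
    have : c 0 = - c 1 - c 2 := by linarith
    rw [this] at hcv
    rw [← hcv]
    module
  have k1 := congrArg (fun y => inner ℝ (V1 - V0) y) hv
  have k2 := congrArg (fun y => inner ℝ (V2 - V0) y) hv
  simp only [inner_add_right, inner_smul_right, inner_zero_right, real_inner_self_eq_norm_sq] at k1 k2
  rw [real_inner_comm (V1 - V0) (V2 - V0)] at k2
  have c1 : c 1 * (‖V1 - V0‖ ^ 2 * ‖V2 - V0‖ ^ 2 - inner ℝ (V1 - V0) (V2 - V0) ^ 2) = 0 := by
    linear_combination ‖V2 - V0‖ ^ 2 * k1 - inner ℝ (V1 - V0) (V2 - V0) * k2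
  have c2 : c 2 * (‖V1 - V0‖ ^ 2 * ‖V2 - V0‖ ^ 2 - inner ℝ (V1 - V0) (V2 - V0) ^ 2) = 0 := by
    linear_combination ‖V1 - V0‖ ^ 2 * k2 - inner ℝ (V1 - V0) (V2 - V0) * k1
  have d1 : c 1 = 0 := (mul_eq_zero.1 c1).resolve_right hgr.ne'
  have d2 : c 2 = 0 := (mul_eq_zero.1 c2).resolve_right hgr.ne'
  intro i
  fin_cases i
  · simp only [Fin.zero_eta]; linarith
  · exact d1
  · exact d2

/-- the sweep points in one sector are covered -/
lemma sweep_mem {n p₀ a b v : E3} {p q τ ρ s L Λ A B Rm h : ℝ} (hpq : p < q)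
    (hτ : τ ∈ Icc p q) (hρ : 0 ≤ ρ) (hρR : ρ ≤ Rm) (hs : |s| ≤ L)
    (hv : v = n + (A • a + B • b)) (hA : |A| ≤ Λ * (q - p)) (hBp : |B - p * A| ≤ Λ * (q - p) ^ 2)
    (hBq : |B - q * A| ≤ Λ * (q - p) ^ 2) (hh0 : 0 < h) (hh : Rm + 3 * L * Λ * (q - p) ≤ h) :
    ∃ y ∈ convexHull ℝ {sv0 n (p₀ - (2 * L * Λ * (q - p)) • a - (L * Λ * (q - p) * (p + q)) • b),
        sv1 n (p₀ - (2 * L * Λ * (q - p)) • a - (L * Λ * (q - p) * (p + q)) • b) a b p h,
        sv1 n (p₀ - (2 * L * Λ * (q - p)) • a - (L * Λ * (q - p) * (p + q)) • b) a b q h},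
      ∃ σ' : ℝ, p₀ + ρ • (a + τ • b) + s • v = y + σ' • n := by
  have hL : 0 ≤ L := (abs_nonneg s).trans hs
  have hd : 0 < q - p := by linarith
  set X := ρ + s * A with hX
  set Y := ρ * τ + s * B with hY
  set k := L * Λ * (q - p) ^ 2 with hk
  have hsA : |s * A| ≤ L * (Λ * (q - p)) := by
    rw [abs_mul]; exact mul_le_mul hs hA (abs_nonneg _) hL
  have hsp : |s * (B - p * A)| ≤ L * (Λ * (q - p) ^ 2) := by
    rw [abs_mul]; exact mul_le_mul hs hBp (abs_nonneg _) hL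
  have hsq : |s * (B - q * A)| ≤ L * (Λ * (q - p) ^ 2) := by
    rw [abs_mul]; exact mul_le_mul hs hBq (abs_nonneg _) hL
  rw [abs_le] at hsA hsp hsq
  have h1 : 0 ≤ (q * X + k - Y) / (q - p) := by
    apply div_nonneg _ hd.le
    have : 0 ≤ ρ * (q - τ) := mul_nonneg hρ (by linarith [hτ.2])
    have e : q * X + k - Y = ρ * (q - τ) + (k - s * (B - q * A)) := by rw [hX, hY]; ring
    rw [e]; nlinarith [hsq.2]
  have h2 : 0 ≤ (Y - p * X + k) / (q - p) := by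
    apply div_nonneg _ hd.le
    have : 0 ≤ ρ * (τ - p) := mul_nonneg hρ (by linarith [hτ.1])
    have e : Y - p * X + k = ρ * (τ - p) + (s * (B - p * A) + k) := by rw [hX, hY]; ring
    rw [e]; nlinarith [hsp.1]
  have h3 : (q * X + k - Y) / (q - p) + (Y - p * X + k) / (q - p) ≤ h := by
    have e : (q * X + k - Y) / (q - p) + (Y - p * X + k) / (q - p) = X + 2 * (L * Λ * (q - p)) := by
      rw [hk]; field_simp; ring
    rw [e, hX]; nlinarith [hsA.2]
  obtain ⟨y, hy, σ', hσ⟩ := sector_mem (n := n)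
    (p₀ - (2 * L * Λ * (q - p)) • a - (L * Λ * (q - p) * (p + q)) • b) a b p q hh0 h1 h2 h3 s
  refine ⟨y, hy, σ', ?_⟩
  rw [← hσ, hv]
  have e1 : (q * X + k - Y) / (q - p) + (Y - p * X + k) / (q - p) = X + 2 * (L * Λ * (q - p)) := by
    rw [hk]; field_simp; ring
  have e2 : (q * X + k - Y) / (q - p) * p + (Y - p * X + k) / (q - p) * q =
      Y + L * Λ * (q - p) * (p + q) := by
    rw [hk]; field_simp; ring
  set m1 := (q * X + k - Y) / (q - p)
  set m2 := (Y - p * X + k) / (q - p)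
  have e3 : m1 • (a + p • b) + m2 • (a + q • b) = (m1 + m2) • a + (m1 * p + m2 * q) • b := by module
  have e4 : p₀ - (2 * L * Λ * (q - p)) • a - (L * Λ * (q - p) * (p + q)) • b + m1 • (a + p • b) +
      m2 • (a + q • b) + s • n = p₀ - (2 * L * Λ * (q - p)) • a - (L * Λ * (q - p) * (p + q)) • b +
      (m1 • (a + p • b) + m2 • (a + q • b)) + s • n := by abel
  rw [e4, e3, e1, e2, hX, hY]
  module

end Crest.Agent.H7
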