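import Mathlib
import Crest.Agent.H7.Sweep

open MeasureTheory Measure Module Set Filter Topology
open scoped ENNReal

namespace Crest.Agent.H7

/-- extension of a finite sequence to ℕ -/
def extT {N : ℕ} (t : Fin (N + 1) → ℝ) (k : ℕ) : ℝ :=
  if h : k < N + 1 then t ⟨k, h⟩ else t (Fin.last N)

lemma extT_castSucc {N : ℕ} (t : Fin (N + 1) → ℝ) (i : Fin N) : extT t i = t i.castSucc := by
  rw [extT, dif_pos (by omega)]; rfl

lemma extT_succ {N : ℕ} (t : Fin (N + 1) → ℝ) (i : Fin N) : extT t (i + 1) = t i.succ := by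
  rw [extT, dif_pos (by omega)]; rfl

lemma extT_zero {N : ℕ} (t : Fin (N + 1) → ℝ) : extT t 0 = t 0 := by
  rw [extT, dif_pos (by omega)]; rfl

lemma extT_last {N : ℕ} (t : Fin (N + 1) → ℝ) : extT t N = t (Fin.last N) := by
  rw [extT, dif_pos (by omega)]; rfl

lemma sum_mesh {N : ℕ} (t : Fin (N + 1) → ℝ) :
    ∑ i : Fin N, (t i.succ - t i.castSucc) = t (Fin.last N) - t 0 := by
  have h1 : ∑ i : Fin N, (t i.succ - t i.castSucc) = ∑ i : Fin N, (extT t (i + 1) - extT t i) := by
    apply Finset.sum_congr rfl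
    intro i _
    rw [extT_castSucc, extT_succ]
  rw [h1, Fin.sum_univ_eq_sum_range (fun k => extT t (k + 1) - extT t k), Finset.sum_range_sub,
    extT_zero, extT_last]

lemma sum_int_mesh {N : ℕ} (t : Fin (N + 1) → ℝ) (g : ℝ → ℝ)
    (hg : ∀ i : Fin N, IntervalIntegrable g volume (t i.castSucc) (t i.succ)) :
    ∑ i : Fin N, ∫ x in (t i.castSucc)..(t i.succ), g x = ∫ x in (t 0)..(t (Fin.last N)), g x := by
  have h1 : ∑ i : Fin N, ∫ x in (t i.castSucc)..(t i.succ), g x =
      ∑ i : Fin N, ∫ x in (extT t i)..(extT t (i + 1)), g x := by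
    apply Finset.sum_congr rfl
    intro i _
    rw [extT_castSucc, extT_succ]
  rw [h1, Fin.sum_univ_eq_sum_range (fun k => ∫ x in (extT t k)..(extT t (k + 1)), g x),
    intervalIntegral.sum_integral_adjacent_intervals, extT_zero, extT_last]
  intro k hk
  have := hg ⟨k, hk⟩
  rw [← extT_castSucc t, ← extT_succ t] at this
  exact this

lemma mesh_mem {N : ℕ} {t : Fin (N + 1) → ℝ} (ht : StrictMono t) {α β : ℝ} (h0 : t 0 = α)
    (h1 : t (Fin.last N) = β) (i : Fin (N + 1)) : t i ∈ Icc α β := by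
  rw [← h0, ← h1]
  exact ⟨ht.monotone (Fin.zero_le i), ht.monotone (Fin.le_last i)⟩

lemma exists_piece {N : ℕ} {t : Fin (N + 1) → ℝ} {α β : ℝ} (h0 : t 0 = α)
    (h1 : t (Fin.last N) = β) (hαβ : α < β) {τ : ℝ} (hτ : τ ∈ Icc α β) :
    ∃ i : Fin N, τ ∈ Icc (t i.castSucc) (t i.succ) := by
  by_contra hcon
  push Not at hcon
  have key : ∀ k : ℕ, (hk : k < N + 1) → t ⟨k, hk⟩ ≤ τ := by
    intro k
    induction k with
    | zero => intro hk; have : t ⟨0, hk⟩ = t 0 := rfl
              rw [this, h0]; exact hτ.1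
    | succ k ih =>
      intro hk
      have h2 := ih (by omega)
      have h3 := hcon ⟨k, by omega⟩
      by_contra h4
      push Not at h4
      exact h3 ⟨h2, h4.le⟩
  have h2 := key N (by omega)
  have h3 : t ⟨N, by omega⟩ = β := h1
  rw [h3] at h2
  have h4 : τ = β := le_antisymm hτ.2 h2
  rcases N with _ | N
  · have : α = β := by rw [← h0, ← h1]; rfl
    exact hαβ.ne this
  · apply hcon ⟨N, by omega⟩
    refine ⟨key N (by omega), ?_⟩
    rw [h4, ← h1]
    exact le_rfl

/-- tagged Riemann sums converge uniformly in the mesh -/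
lemma riemann_close {g : ℝ → ℝ} {α β : ℝ} (hαβ : α < β) (hg : ContinuousOn g (Icc α β))
    {η : ℝ} (hη : 0 < η) : ∃ δ : ℝ, 0 < δ ∧ ∀ (N : ℕ) (t : Fin (N + 1) → ℝ) (c : Fin N → ℝ),
      StrictMono t → t 0 = α → t (Fin.last N) = β →
      (∀ i : Fin N, t i.succ - t i.castSucc ≤ δ) →
      (∀ i : Fin N, t i.castSucc ≤ c i ∧ c i ≤ t i.succ) →
      |∑ i : Fin N, (t i.succ - t i.castSucc) * g (c i) - ∫ τ in α..β, g τ| ≤ η := by
  have huc := isCompact_Icc.uniformContinuousOn_of_continuous hg
  rw [Metric.uniformContinuousOn_iff_le] at huc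
  obtain ⟨δ, hδ, h⟩ := huc (η / (β - α)) (div_pos hη (by linarith))
  refine ⟨δ, hδ, fun N t c ht h0 h1 hm hc => ?_⟩
  have hmem := fun i => mesh_mem ht h0 h1 i
  have hle : ∀ i : Fin N, t i.castSucc ≤ t i.succ := fun i => (hc i).1.trans (hc i).2
  have hint : ∀ i : Fin N, IntervalIntegrable g volume (t i.castSucc) (t i.succ) := by
    intro i
    apply ContinuousOn.intervalIntegrable
    rw [uIcc_of_le (hle i)]
    exact hg.mono (Icc_subset_Icc (hmem _).1 (hmem _).2)
  have e1 : ∫ τ in α..β, g τ = ∑ i : Fin N, ∫ x in (t i.castSucc)..(t i.succ), g x := by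
    rw [sum_int_mesh t g hint, h0, h1]
  rw [e1, ← Finset.sum_sub_distrib]
  calc |∑ i : Fin N, ((t i.succ - t i.castSucc) * g (c i) - ∫ x in (t i.castSucc)..(t i.succ), g x)|
      ≤ ∑ i : Fin N, |(t i.succ - t i.castSucc) * g (c i) - ∫ x in (t i.castSucc)..(t i.succ), g x| :=
        Finset.abs_sum_le_sum_abs _ _
    _ ≤ ∑ i : Fin N, η / (β - α) * (t i.succ - t i.castSucc) := by
        apply Finset.sum_le_sum
        intro i _
        have e2 : (t i.succ - t i.castSucc) * g (c i) - ∫ x in (t i.castSucc)..(t i.succ), g x =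
            ∫ x in (t i.castSucc)..(t i.succ), (g (c i) - g x) := by
          rw [intervalIntegral.integral_sub (by simp) (hint i)]
          simp
        rw [e2, ← Real.norm_eq_abs]
        have := intervalIntegral.norm_integral_le_of_norm_le_const (a := t i.castSucc)
          (b := t i.succ) (f := fun x => g (c i) - g x) (C := η / (β - α)) (by
            intro x hx
            rw [uIoc_of_le (hle i)] at hx
            have hx' : x ∈ Icc α β := ⟨(hmem _).1.trans hx.1.le, hx.2.trans (hmem _).2⟩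
            have hc' : c i ∈ Icc α β := ⟨(hmem _).1.trans (hc i).1, (hc i).2.trans (hmem _).2⟩
            have hd : dist (c i) x ≤ δ := by
              rw [Real.dist_eq, abs_le]
              constructor
              · linarith [hm i, (hc i).1, hx.2]
              · linarith [hm i, (hc i).2, hx.1]
            have := h (c i) hc' x hx' hd
            rw [Real.dist_eq] at this
            rw [Real.norm_eq_abs]; exact this)
        rwa [abs_of_nonneg (by linarith [hle i])] at this
    _ = η := by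
        rw [← Finset.mul_sum, sum_mesh, h0, h1]
        exact div_mul_cancel₀ _ (by linarith)

end Crest.Agent.H7
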