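import Mathlib
import Crest.Agent.H7.Ruled

open MeasureTheory Measure Module Set Filter Topology
open scoped ENNReal

namespace Crest.Agent.H7

/-- the reflection `x ↦ (x 0, - x 1)` -/
noncomputable def refl2 : E2 →L[ℝ] E2 :=
  LinearMap.toContinuousLinearMap
    (lin2 (EuclideanSpace.single 0 1 : E2) (-(EuclideanSpace.single 1 1 : E2)))

lemma refl2_apply (x : E2) : refl2 x = !₂[x 0, - x 1] := by
  ext i; fin_cases i <;> simp [refl2]

lemma entries (M : E2 →L[ℝ] E2) (htr : LinearMap.trace ℝ _ M.toLinearMap = 0) :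
    ∃ a b c : ℝ, (∀ x : E2, M x = !₂[a * x 0 + b * x 1, c * x 0 - a * x 1]) ∧
      LinearMap.det M.toLinearMap = - (a ^ 2 + b * c) := by
  set e := EuclideanSpace.basisFun (Fin 2) ℝ
  set f0 : E2 := EuclideanSpace.single 0 1 with hf0
  set f1 : E2 := EuclideanSpace.single 1 1 with hf1
  have hx : ∀ x : E2, x = x 0 • f0 + x 1 • f1 := by
    intro x; ext i; fin_cases i <;> simp [f0, f1]
  have htr' : (M f0) 0 + (M f1) 1 = 0 := by
    rw [LinearMap.trace_eq_matrix_trace ℝ e.toBasis] at htr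
    simpa [Matrix.trace, Fin.sum_univ_two, LinearMap.toMatrix_apply, e, f0, f1] using htr
  have hdet : LinearMap.det M.toLinearMap = (M f0) 0 * (M f1) 1 - (M f1) 0 * (M f0) 1 := by
    rw [← LinearMap.det_toMatrix e.toBasis, Matrix.det_fin_two]
    simp [LinearMap.toMatrix_apply, e, f0, f1]
  refine ⟨(M f0) 0, (M f1) 0, (M f0) 1, ?_, ?_⟩
  · intro x
    conv_lhs => rw [hx x]
    have h1 : (M f1) 1 = - (M f0) 0 := by linarith
    rw [map_add, map_smul, map_smul]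
    ext i; fin_cases i
    · simp; ring
    · simp [h1]; ring
  · have h1 : (M f1) 1 = - (M f0) 0 := by linarith
    rw [hdet, h1]; ring

/-- For every `η > 0`, the thickening is small for small radius. -/
lemma exists_small_thick {A : ℝ} (hA : 1 < A) (C : ℝ) (hC : 0 ≤ C) :
    ∃ ρ : ℝ, 0 < ρ ∧ (volume (Metric.cthickening (C * ρ) stdSq)).toReal < A := by
  have htend := tendsto_measure_cthickening_of_isCompact (μ := (volume : Measure E2)) isCompact_stdSq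
  rw [volume_stdSq] at htend
  have hlt : (1 : ℝ≥0∞) < ENNReal.ofReal A := by
    rw [← ENNReal.ofReal_one]
    exact (ENNReal.ofReal_lt_ofReal_iff (by linarith)).2 hA
  have hev := htend.eventually (gt_mem_nhds hlt)
  obtain ⟨r, hr0, hr⟩ := Metric.eventually_nhds_iff.1 hev
  refine ⟨r / (2 * (C + 1)), by positivity, ?_⟩
  have h1 : dist (C * (r / (2 * (C + 1)))) 0 < r := by
    rw [Real.dist_eq, sub_zero, abs_of_nonneg (by positivity)]
    have := aux_kappa hr0.le hC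
    linarith
  have h2 := hr h1
  have h3 := (ENNReal.toReal_lt_toReal h2.ne_top ENNReal.ofReal_ne_top).2 h2
  rwa [ENNReal.toReal_ofReal (by linarith)] at h3

lemma SM_perturb {M M' : E2 →L[ℝ] E2} {L ρ : ℝ} (hL : 0 < L) (h : ‖M - M'‖ * (2 * L) ≤ ρ / 2) :
    SM M L (ρ / 2) ⊆ SM M' L ρ := by
  rintro ⟨s, ξ⟩ ⟨hs, p, hp, w, hw, hξ⟩
  simp only at hs hξ
  refine ⟨hs, p, hp, w + s • (M - M') p, ?_, ?_⟩
  · calc ‖w + s • (M - M') p‖ ≤ ‖w‖ + ‖s • (M - M') p‖ := norm_add_le _ _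
      _ ≤ ρ / 2 + L * (‖M - M'‖ * 2) := by
          rw [norm_smul, Real.norm_eq_abs]
          gcongr
          exact ((M - M').le_opNorm p).trans (by gcongr; exact norm_le_of_mem_stdSq hp)
      _ ≤ ρ := by linarith
  · simp only; rw [hξ, ContinuousLinearMap.sub_apply, smul_sub]; abel

/-- local covering lemma -/
lemma lin_cover (M : E2 →L[ℝ] E2) {L A : ℝ} (hL : 0 < L) (hA : 1 < A)
    (htr : LinearMap.trace ℝ _ M.toLinearMap = 0)
    (hdet1 : -(L ^ 2)⁻¹ < LinearMap.det M.toLinearMap) (hdet2 : LinearMap.det M.toLinearMap ≤ 0) :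
    ∃ ρ G : ℝ, 0 < ρ ∧ GCov (SM M L ρ) A G := by
  obtain ⟨a, b, c, hM, hdet⟩ := entries M htr
  rw [hdet] at hdet1 hdet2
  have hm2 : 0 ≤ a ^ 2 + b * c := by linarith
  have hgap : 0 < 1 - L ^ 2 * (a ^ 2 + b * c) := by
    have : a ^ 2 + b * c < (L ^ 2)⁻¹ := by linarith
    have := mul_lt_mul_of_pos_left this (show 0 < L ^ 2 by positivity)
    rw [mul_inv_cancel₀ (by positivity)] at this
    linarith
  set d₀ := (1 - L ^ 2 * (a ^ 2 + b * c)) / 2 with hd₀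
  have hd₀0 : 0 < d₀ := by linarith
  set K := ‖M‖ + ‖refl2‖ with hK
  have hK0 : 0 ≤ K := by positivity
  obtain ⟨ρ, hρ0, hρ⟩ := exists_small_thick hA ((1 + L * K) / d₀) (by positivity)
  -- choose t
  set t := min 1 (min (d₀ / (L ^ 2 * (2 * |a| + 1))) (ρ / 2 / (2 * L * (‖refl2‖ + 1)))) with ht
  have ht0 : 0 < t := by
    rw [ht]
    apply lt_min one_pos (lt_min _ _) <;> positivity
  have ht1 : t ≤ 1 := min_le_left _ _
  have ht2 : t * (L ^ 2 * (2 * |a| + 1)) ≤ d₀ := by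
    have : t ≤ d₀ / (L ^ 2 * (2 * |a| + 1)) := (min_le_right _ _).trans (min_le_left _ _)
    rwa [le_div_iff₀ (by positivity)] at this
  have ht3 : t * (2 * L * (‖refl2‖ + 1)) ≤ ρ / 2 := by
    have : t ≤ ρ / 2 / (2 * L * (‖refl2‖ + 1)) := (min_le_right _ _).trans (min_le_right _ _)
    rwa [le_div_iff₀ (by positivity)] at this
  obtain ⟨σ, hσ1, hσ2⟩ : ∃ σ : ℝ, |σ| = 1 ∧ a * σ = |a| := by
    rcases le_total 0 a with h | h
    · exact ⟨1, by simp, by simp [abs_of_nonneg h]⟩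
    · exact ⟨-1, by simp, by simp [abs_of_nonpos h]⟩
  have hσσ : σ ^ 2 = 1 := by rw [← sq_abs, hσ1]; norm_num
  set a' := a + σ * t with ha'
  have hm' : a' ^ 2 + b * c = (a ^ 2 + b * c) + 2 * |a| * t + t ^ 2 := by
    rw [ha', ← hσ2]; linear_combination t ^ 2 * hσσ
  have hm'0 : 0 < a' ^ 2 + b * c := by rw [hm']; positivity
  set μ := Real.sqrt (a' ^ 2 + b * c) with hμ
  have hμ0 : 0 < μ := Real.sqrt_pos.2 hm'0
  have hμ2 : μ ^ 2 = a' ^ 2 + b * c := Real.sq_sqrt hm'0.le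
  set M' : E2 →L[ℝ] E2 := M + (σ * t) • refl2 with hM'
  have hM'e : ∀ x : E2, M' x = !₂[a' * x 0 + b * x 1, c * x 0 - a' * x 1] := by
    intro x
    rw [hM', ContinuousLinearMap.add_apply, ContinuousLinearMap.smul_apply, hM, refl2_apply]
    ext i; fin_cases i <;> simp [ha'] <;> ring
  obtain ⟨e1, e2, h1, h2, hinj⟩ := exists_eigen hμ0 hμ2 hM'e
  have hM'n : ‖M'‖ ≤ K := by
    rw [hM', hK]
    refine (norm_add_le _ _).trans (add_le_add le_rfl ?_)
    rw [norm_smul, Real.norm_eq_abs, abs_mul, hσ1, abs_of_pos ht0, one_mul]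
    exact mul_le_of_le_one_left (norm_nonneg _) ht1
  have hd' : d₀ ≤ 1 - L ^ 2 * μ ^ 2 := by
    rw [hμ2, hm']
    have : t ^ 2 ≤ t := by nlinarith
    have h5 : L ^ 2 * (2 * |a| * t + t ^ 2) ≤ d₀ := by
      calc L ^ 2 * (2 * |a| * t + t ^ 2) ≤ L ^ 2 * (2 * |a| * t + t) := by gcongr
        _ = t * (L ^ 2 * (2 * |a| + 1)) := by ring
        _ ≤ d₀ := ht2
    have h6 : 1 - L ^ 2 * (a ^ 2 + b * c) = 2 * d₀ := by rw [hd₀]; ring
    nlinarith
  obtain ⟨G, hG⟩ := lin_cover_strict h1 h2 hinj hμ0 hL hM'n hd₀0 hd' hρ0.le hρ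
  refine ⟨ρ / 2, G, by positivity, hG.mono (SM_perturb hL ?_) le_rfl le_rfl⟩
  have : M - M' = -((σ * t) • refl2) := by rw [hM']; abel
  rw [this, norm_neg, norm_smul, Real.norm_eq_abs, abs_mul, hσ1, abs_of_pos ht0, one_mul]
  calc t * ‖refl2‖ * (2 * L) ≤ t * (2 * L * (‖refl2‖ + 1)) := by
        have : 0 ≤ t * (2 * L) := by positivity
        nlinarith
    _ ≤ ρ / 2 := ht3

/-- uniform version over a compact set of matrices -/
lemma lin_cover_unif {𝓜 : Set (E2 →L[ℝ] E2)} (h𝓜 : IsCompact 𝓜) {L A : ℝ} (hL : 0 < L) (hA : 1 < A)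
    (htr : ∀ M ∈ 𝓜, LinearMap.trace ℝ _ M.toLinearMap = 0)
    (hdet : ∀ M ∈ 𝓜, -(L ^ 2)⁻¹ < LinearMap.det M.toLinearMap ∧ LinearMap.det M.toLinearMap ≤ 0) :
    ∃ ρ G : ℝ, 0 < ρ ∧ ∀ M ∈ 𝓜, GCov (SM M L ρ) A G := by
  apply h𝓜.induction_on (p := fun s => ∃ ρ G : ℝ, 0 < ρ ∧ ∀ M ∈ s, GCov (SM M L ρ) A G)
  · exact ⟨1, 0, one_pos, by simp⟩
  · rintro s t hst ⟨ρ, G, hρ, h⟩
    exact ⟨ρ, G, hρ, fun M hM => h M (hst hM)⟩
  · rintro s t ⟨ρ, G, hρ, h⟩ ⟨ρ', G', hρ', h'⟩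
    have hmono : ∀ (M : E2 →L[ℝ] E2) (r r' : ℝ), r ≤ r' → SM M L r ⊆ SM M L r' := by
      rintro M r r' hr z ⟨hz, p, hp, w, hw, e⟩
      exact ⟨hz, p, hp, w, hw.trans hr, e⟩
    refine ⟨min ρ ρ', max G G', lt_min hρ hρ', fun M hM => ?_⟩
    rcases hM with hM | hM
    · exact (h M hM).mono (hmono M _ _ (min_le_left _ _)) le_rfl (le_max_left _ _)
    · exact (h' M hM).mono (hmono M _ _ (min_le_right _ _)) le_rfl (le_max_right _ _)
  · intro M hM
    obtain ⟨ρ, G, hρ, hG⟩ := lin_cover M hL hA (htr M hM) (hdet M hM).1 (hdet M hM).2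
    have hr : 0 < ρ / 2 / (2 * L) := by positivity
    refine ⟨Metric.ball M (ρ / 2 / (2 * L)) , mem_nhdsWithin_of_mem_nhds (Metric.ball_mem_nhds M hr),
      ρ / 2, G, by positivity, fun M' hM' => ?_⟩
    refine hG.mono (SM_perturb hL ?_) le_rfl le_rfl
    rw [Metric.mem_ball, dist_eq_norm, lt_div_iff₀ (by positivity)] at hM'
    exact hM'.le

end Crest.Agent.H7
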