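import Mathlib
import Crest.Agent.H7.Ruled2

open MeasureTheory Measure Module Set Filter Topology
open scoped ENNReal

namespace Crest.Agent.H7

/-- the direction factor -/
noncomputable def JJ (h : ℝ) (g : E2) : ℝ := 1 / Real.sqrt (1 + (g 0) ^ 2 + h ^ 2 * (g 1) ^ 2)

lemma JJ_arg_pos (h : ℝ) (g : E2) : 0 < 1 + (g 0) ^ 2 + h ^ 2 * (g 1) ^ 2 := by positivity

lemma JJ_pos (h : ℝ) (g : E2) : 0 < JJ h g := by
  have := JJ_arg_pos h g
  unfold JJ; positivity

lemma JJ_le_one (h : ℝ) (g : E2) : JJ h g ≤ 1 := by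
  unfold JJ
  rw [div_le_one (Real.sqrt_pos.2 (JJ_arg_pos h g)), Real.one_le_sqrt]
  nlinarith [sq_nonneg (g 0), mul_nonneg (sq_nonneg h) (sq_nonneg (g 1))]

lemma JJ_continuous (h : ℝ) : Continuous (JJ h) := by
  unfold JJ
  have : Continuous fun g : E2 => Real.sqrt (1 + (g 0) ^ 2 + h ^ 2 * (g 1) ^ 2) := by fun_prop
  exact continuous_const.div this fun g => (Real.sqrt_pos.2 (JJ_arg_pos h g)).ne'

theorem ruled_cover (D : Set E2) (hD : IsCompact D) (V : E2 → E2) (U : Set E2)
    (hU : IsOpen U) (hDU : D ⊆ U) (hV : ContDiffOn ℝ 1 V U) (L h : ℝ) (hL : 0 < L)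
    (htr : ∀ p ∈ D, LinearMap.trace ℝ _ (fderiv ℝ V p).toLinearMap = 0)
    (hdet : ∀ p ∈ D, -(L ^ 2)⁻¹ < LinearMap.det (fderiv ℝ V p).toLinearMap ∧
      LinearMap.det (fderiv ℝ V p).toLinearMap ≤ 0)
    (ε : ℝ) (hε : 0 < ε) :
    ∃ (ι : Type) (_ : Fintype ι) (c a b g : ι → E2),
      (∀ i, a i ≠ 0 ∧ ‖b i‖ = ‖a i‖ ∧ inner ℝ (a i) (b i) = 0) ∧
      ({z : ℝ × E2 | ∃ p ∈ D, |z.1| ≤ L ∧ z.2 = p + z.1 • V p} ⊆
        ⋃ i, sqCyl (c i) (a i) (b i) (g i)) ∧
      ∑ i, ‖a i‖ ^ 2 * JJ h (g i) ≤ (∫ p in D, JJ h (V p)) + ε := by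
  have hDVc : ContinuousOn (fderiv ℝ V) U := hV.continuousOn_fderiv_of_isOpen hU le_rfl
  have hVc : ContinuousOn V D := hV.continuousOn.mono hDU
  have h𝓜 : IsCompact (fderiv ℝ V '' D) := hD.image_of_continuousOn (hDVc.mono hDU)
  set v0 := (volume D).toReal with hv0
  have hv00 : 0 ≤ v0 := ENNReal.toReal_nonneg
  -- choose η
  obtain ⟨η, hη0, hη1, hηε⟩ : ∃ η : ℝ, 0 < η ∧ η ≤ 1 ∧ η * (5 * v0 + 5) ≤ ε := by
    refine ⟨min 1 (ε / (5 * v0 + 5)), by positivity, min_le_left _ _, ?_⟩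
    have : min 1 (ε / (5 * v0 + 5)) ≤ ε / (5 * v0 + 5) := min_le_right _ _
    rwa [le_div_iff₀ (by positivity)] at this
  obtain ⟨ρ, G, hρ0, hG⟩ := lin_cover_unif h𝓜 hL (by linarith : (1:ℝ) < 1 + η)
    (by rintro _ ⟨p, hp, rfl⟩; exact htr p hp) (by rintro _ ⟨p, hp, rfl⟩; exact hdet p hp)
  obtain ⟨r, hr0, hrU⟩ := hD.exists_cthickening_subset_open hU hDU
  have hKD : IsCompact (Metric.cthickening r D) := hD.cthickening
  have hDVu := hKD.uniformContinuousOn_of_continuous (hDVc.mono hrU)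
  rw [Metric.uniformContinuousOn_iff] at hDVu
  set ζ := ρ / (2 * L) with hζ
  have hζ0 : 0 < ζ := by positivity
  obtain ⟨δ2, hδ2, hDV⟩ := hDVu ζ hζ0
  obtain ⟨K, hK⟩ := hKD.exists_bound_of_continuousOn (hDVc.mono hrU)
  obtain ⟨R, hR⟩ := hD.exists_bound_of_continuousOn hVc
  have hJu := (isCompact_closedBall (0 : E2) (R + 1)).uniformContinuousOn_of_continuous
    (JJ_continuous h).continuousOn
  rw [Metric.uniformContinuousOn_iff] at hJu
  obtain ⟨δ1, hδ1, hJ⟩ := hJu η hη0
  have hJ' : ∀ x ∈ D, ∀ y : E2, ‖y - V x‖ < min 1 δ1 → |JJ h y - JJ h (V x)| ≤ η := by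
    intro x hx y hy
    have h1 : ‖y - V x‖ < 1 := hy.trans_le (min_le_left _ _)
    have h2 : ‖y - V x‖ < δ1 := hy.trans_le (min_le_right _ _)
    have hVx := hR x hx
    have := hJ y ?_ (V x) ?_ (by rwa [dist_eq_norm])
    · rw [Real.dist_eq] at this; exact this.le
    · rw [mem_closedBall_zero_iff]
      calc ‖y‖ = ‖(y - V x) + V x‖ := by simp
        _ ≤ ‖y - V x‖ + ‖V x‖ := norm_add_le _ _
        _ ≤ R + 1 := by linarith
    · rw [mem_closedBall_zero_iff]; linarith
  -- first order estimate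
  have hfirst : ∀ d ∈ D, ∀ p : E2, ‖p - d‖ < min δ2 r →
      ‖V p - V d - fderiv ℝ V d (p - d)‖ ≤ ζ * ‖p - d‖ := by
    intro d hd p hp
    have hsub : Metric.ball d (min δ2 r) ⊆ Metric.cthickening r D := by
      intro x hx
      rw [Metric.mem_ball] at hx
      exact Metric.mem_cthickening_of_dist_le x d r D hd (hx.le.trans (min_le_right _ _))
    refine (convex_ball d (min δ2 r)).norm_image_sub_le_of_norm_hasFDerivWithin_le'
      (f' := fderiv ℝ V) ?_ ?_ ?_ ?_
    · intro x hx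
      have hxU := hrU (hsub hx)
      exact ((hV.differentiableOn (by norm_num) x hxU).differentiableAt
        (hU.mem_nhds hxU)).hasFDerivAt.hasFDerivWithinAt
    · intro x hx
      have hdd : d ∈ Metric.cthickening r D := Metric.self_subset_cthickening _ hd
      have := hDV x (hsub hx) d hdd (lt_of_lt_of_le (Metric.mem_ball.1 hx) (min_le_left _ _))
      rw [dist_eq_norm] at this; exact this.le
    · exact Metric.mem_ball_self (lt_min hδ2 hr0)
    · rw [Metric.mem_ball, dist_eq_norm]; exact hp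
  -- choose the mesh
  obtain ⟨δ₀, hδ₀, Hgrid⟩ := grid_cover hD hη0
  set K' := max K 0 with hK'
  set G' := max G 0 with hG'
  have hK'0 : 0 ≤ K' := le_max_right _ _
  have hG'0 : 0 ≤ G' := le_max_right _ _
  obtain ⟨δ, hδ0, hδa, hδb, hδc⟩ : ∃ δ : ℝ, 0 < δ ∧ δ < δ₀ ∧ 2 * δ < min δ2 r ∧
      δ * (2 * K' + G' + 2 * ζ + 1) < min 1 δ1 := by
    have hm : 0 < min δ2 r := lt_min hδ2 hr0
    have hm1 : 0 < min 1 δ1 := lt_min one_pos hδ1
    refine ⟨min (δ₀ / 2) (min (min δ2 r / 4) (min 1 δ1 / (2 * (2 * K' + G' + 2 * ζ + 1)))), ?_, ?_, ?_, ?_⟩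
    · positivity
    · exact (min_le_left _ _).trans_lt (by linarith)
    · have : min (δ₀ / 2) (min (min δ2 r / 4) (min 1 δ1 / (2 * (2 * K' + G' + 2 * ζ + 1)))) ≤ min δ2 r / 4 :=
        (min_le_right _ _).trans (min_le_left _ _)
      linarith
    · have : min (δ₀ / 2) (min (min δ2 r / 4) (min 1 δ1 / (2 * (2 * K' + G' + 2 * ζ + 1)))) ≤
        min 1 δ1 / (2 * (2 * K' + G' + 2 * ζ + 1)) :=
        (min_le_right _ _).trans (min_le_right _ _)
      rw [le_div_iff₀ (by positivity)] at this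
      linarith
  obtain ⟨Z, hZne, hZcov, hZcard⟩ := Hgrid δ hδ0 hδa
  have hZne' : ∀ z : Z, ∃ d, d ∈ cell δ z.1 ∧ d ∈ D := fun z => hZne z.1 z.2
  choose d hdcell hdD using hZne'
  have hG2 : ∀ z : Z, GCov (SM (fderiv ℝ V (d z)) L ρ) (1 + η) G := fun z => hG _ ⟨d z, hdD z, rfl⟩
  choose ι' inst c' a' b' g' hsq hcov hgb hsum using hG2
  -- base velocity
  let v : Z → E2 := fun z => V (d z) + fderiv ℝ V (d z) (corner δ z.1 - d z)
  have hfd : ∀ z : Z, ‖fderiv ℝ V (d z)‖ ≤ K' := fun z =>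
    (hK _ (Metric.self_subset_cthickening _ (hdD z))).trans (le_max_left _ _)
  have hcd : ∀ z : Z, ‖corner δ z.1 - d z‖ ≤ 2 * δ := by
    intro z
    apply norm_sub_le_of_mem_cell (z := z.1) _ (hdcell z)
    refine ⟨⟨by simp, ?_⟩, by simp, ?_⟩ <;> simp <;> nlinarith
  -- velocity closeness
  have hvel : ∀ (z : Z) (j : ι' z), ‖(v z + δ • g' z j) - V (d z)‖ < min 1 δ1 := by
    intro z j
    calc ‖(v z + δ • g' z j) - V (d z)‖ = ‖fderiv ℝ V (d z) (corner δ z.1 - d z) + δ • g' z j‖ := by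
          simp only [v]; congr 1; abel
      _ ≤ ‖fderiv ℝ V (d z) (corner δ z.1 - d z)‖ + ‖δ • g' z j‖ := norm_add_le _ _
      _ ≤ K' * (2 * δ) + δ * G' := by
          rw [norm_smul, Real.norm_eq_abs, abs_of_pos hδ0]
          gcongr
          · exact ((fderiv ℝ V (d z)).le_opNorm _).trans
              (mul_le_mul (hfd z) (hcd z) (norm_nonneg _) hK'0)
          · exact (hgb z j).trans (le_max_left _ _)
      _ ≤ δ * (2 * K' + G' + 2 * ζ + 1) := by nlinarith
      _ < min 1 δ1 := hδc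
  letI := inst
  refine ⟨(z : Z) × ι' z, inferInstance, fun i => corner δ i.1.1 + δ • c' i.1 i.2,
    fun i => δ • a' i.1 i.2, fun i => δ • b' i.1 i.2, fun i => v i.1 + δ • g' i.1 i.2, ?_, ?_, ?_⟩
  · rintro ⟨z, j⟩
    obtain ⟨h1, h2, h3⟩ := hsq z j
    refine ⟨smul_ne_zero hδ0.ne' h1, by simp only [norm_smul, h2], ?_⟩
    simp only [inner_smul_left, inner_smul_right, h3, mul_zero]
  · rintro ⟨s, ξ⟩ ⟨p, hp, hs, hξ⟩
    simp only at hs hξ
    obtain ⟨z, hz, hpz⟩ := mem_iUnion₂.1 (hZcov hp)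
    set zz : Z := ⟨z, hz⟩ with hzz
    have hpd : ‖p - d zz‖ ≤ 2 * δ := norm_sub_le_of_mem_cell hpz (hdcell zz)
    have herr := hfirst (d zz) (hdD zz) p (hpd.trans_lt hδb)
    set q : E2 := δ⁻¹ • (p - corner δ z) with hq
    have hpq : p = corner δ z + δ • q := by
      rw [hq, smul_smul, mul_inv_cancel₀ hδ0.ne', one_smul]; abel
    have hqsq : q ∈ stdSq := by
      obtain ⟨⟨h1, h2⟩, h3, h4⟩ := hpz
      have e0 : q 0 = (p 0 - δ * z.1) / δ := by rw [hq]; simp; ring
      have e1 : q 1 = (p 1 - δ * z.2) / δ := by rw [hq]; simp; ring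
      refine ⟨⟨?_, ?_⟩, ?_, ?_⟩
      · rw [e0]; exact div_nonneg (by linarith) hδ0.le
      · rw [e0, div_le_one hδ0]; linarith
      · rw [e1]; exact div_nonneg (by linarith) hδ0.le
      · rw [e1, div_le_one hδ0]; linarith
    clear_value q
    set err := V p - V (d zz) - fderiv ℝ V (d zz) (p - d zz) with herr_def
    have hw : ‖(s / δ) • err‖ ≤ ρ := by
      rw [norm_smul, Real.norm_eq_abs, abs_div, abs_of_pos hδ0]
      calc |s| / δ * ‖err‖ ≤ L / δ * (ζ * (2 * δ)) := by
            gcongr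
            exact herr.trans (by gcongr)
        _ = ρ := by rw [hζ]; field_simp
    have hmem : (s, q + s • fderiv ℝ V (d zz) q + (s / δ) • err) ∈ SM (fderiv ℝ V (d zz)) L ρ :=
      ⟨hs, q, hqsq, _, hw, rfl⟩
    obtain ⟨j, x, hx, y, hy, hj⟩ := mem_iUnion.1 (hcov zz hmem)
    simp only at hj
    refine mem_iUnion.2 ⟨⟨zz, j⟩, x, hx, y, hy, ?_⟩
    simp only
    have hVp : V p = V (d zz) + fderiv ℝ V (d zz) (corner δ z - d zz) + δ • fderiv ℝ V (d zz) q + err := by
      have h1 : p - d zz = (corner δ z - d zz) + δ • q := by rw [hpq]; abel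
      have h2 : fderiv ℝ V (d zz) (p - d zz) =
          fderiv ℝ V (d zz) (corner δ z - d zz) + δ • fderiv ℝ V (d zz) q := by
        rw [h1, map_add, map_smul]
      have h3 : V p = V (d zz) + fderiv ℝ V (d zz) (p - d zz) + err := by rw [herr_def]; abel
      rw [h3, h2]; abel
    have e1 : s • err = δ • ((s / δ) • err) := by
      rw [smul_smul]; congr 1; field_simp
    calc ξ = corner δ z + δ • (q + s • fderiv ℝ V (d zz) q + (s / δ) • err)
          + s • (V (d zz) + fderiv ℝ V (d zz) (corner δ z - d zz)) := by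
          rw [hξ, hVp, smul_add, smul_add, e1]
          nth_rewrite 1 [hpq]
          simp only [smul_add]
          rw [smul_comm s δ]
          abel
      _ = _ := by
          rw [hj]
          simp only [v, smul_add, hzz]
          rw [smul_comm δ s, smul_comm δ x, smul_comm δ y]
          abel
  · rw [Fintype.sum_sigma]
    -- per-cell estimate
    have hcell : ∀ z : Z, ∑ j : ι' z, ‖δ • a' z j‖ ^ 2 * JJ h (v z + δ • g' z j) ≤
        (1 + η) * (δ ^ 2 * (JJ h (V (d z)) + η)) := by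
      intro z
      calc ∑ j : ι' z, ‖δ • a' z j‖ ^ 2 * JJ h (v z + δ • g' z j)
          ≤ ∑ j : ι' z, ‖a' z j‖ ^ 2 * (δ ^ 2 * (JJ h (V (d z)) + η)) := by
            apply Finset.sum_le_sum
            intro j _
            have h1 := hJ' (d z) (hdD z) _ (hvel z j)
            rw [abs_le] at h1
            rw [norm_smul, mul_pow, Real.norm_eq_abs, sq_abs]
            have h2 : 0 ≤ ‖a' z j‖ ^ 2 := by positivity
            have h3 : 0 ≤ δ ^ 2 := by positivity
            calc δ ^ 2 * ‖a' z j‖ ^ 2 * JJ h (v z + δ • g' z j)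
                ≤ δ ^ 2 * ‖a' z j‖ ^ 2 * (JJ h (V (d z)) + η) := by
                  apply mul_le_mul_of_nonneg_left _ (by positivity)
                  linarith
              _ = _ := by ring
        _ = (∑ j : ι' z, ‖a' z j‖ ^ 2) * (δ ^ 2 * (JJ h (V (d z)) + η)) := by
            rw [Finset.sum_mul]
        _ ≤ (1 + η) * (δ ^ 2 * (JJ h (V (d z)) + η)) := by
            apply mul_le_mul_of_nonneg_right (hsum z)
            have := JJ_pos h (V (d z))
            positivity
    -- integral comparison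
    have hcontJ : ContinuousOn (fun p => JJ h (V p)) D := (JJ_continuous h).comp_continuousOn hVc
    have hintD : IntegrableOn (fun p => JJ h (V p)) D := hcontJ.integrableOn_compact hD
    have hDm : MeasurableSet D := hD.isClosed.measurableSet
    have hDeq : D = ⋃ z ∈ (Finset.univ : Finset Z), D ∩ cell δ z.1 := by
      ext x; constructor
      · intro hx
        obtain ⟨z, hz, hxz⟩ := mem_iUnion₂.1 (hZcov hx)
        exact mem_iUnion₂.2 ⟨⟨z, hz⟩, Finset.mem_univ _, hx, hxz⟩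
      · intro hx
        obtain ⟨z, _, hxz⟩ := mem_iUnion₂.1 hx
        exact hxz.1
    have hdisj : (↑(Finset.univ : Finset Z) : Set Z).PairwiseDisjoint (fun z => D ∩ cell δ z.1) := by
      intro z _ z' _ hzz'
      exact (cell_disjoint hδ0 (fun h => hzz' (Subtype.ext h))).mono inter_subset_right inter_subset_right
    have hint : ∫ p in D, JJ h (V p) = ∑ z : Z, ∫ p in D ∩ cell δ z.1, JJ h (V p) := by
      conv_lhs => rw [hDeq]
      rw [integral_biUnion_finset _ (fun z _ => hDm.inter (measurableSet_cell δ z.1)) hdisj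
        (fun z _ => hintD.mono_set inter_subset_left)]
    have hvolD : v0 = ∑ z : Z, (volume (D ∩ cell δ z.1)).toReal := by
      have : volume D = ∑ z : Z, volume (D ∩ cell δ z.1) := by
        conv_lhs => rw [hDeq]
        rw [measure_biUnion_finset hdisj (fun z _ => hDm.inter (measurableSet_cell δ z.1))]
      rw [hv0, this, ENNReal.toReal_sum]
      intro z _
      exact ((measure_mono inter_subset_left).trans_lt hD.measure_lt_top).ne
    have hvz : ∀ z : Z, (volume (D ∩ cell δ z.1)).toReal ≤ δ ^ 2 := by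
      intro z
      have := ENNReal.toReal_mono (by rw [volume_cell hδ0]; exact ENNReal.ofReal_ne_top)
        (measure_mono (inter_subset_right : D ∩ cell δ z.1 ⊆ cell δ z.1) (μ := volume))
      rwa [volume_cell hδ0, ENNReal.toReal_ofReal (by positivity)] at this
    have hIz : ∀ z : Z, (JJ h (V (d z)) - η) * (volume (D ∩ cell δ z.1)).toReal ≤
        ∫ p in D ∩ cell δ z.1, JJ h (V p) := by
      intro z
      have hfin : volume (D ∩ cell δ z.1) ≠ ⊤ :=
        ((measure_mono inter_subset_left).trans_lt hD.measure_lt_top).ne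
      have h1 : ∫ p in D ∩ cell δ z.1, (JJ h (V (d z)) - η) ≤ ∫ p in D ∩ cell δ z.1, JJ h (V p) := by
        apply setIntegral_mono_on (integrableOn_const hfin)
          (hintD.mono_set inter_subset_left) (hDm.inter (measurableSet_cell δ z.1))
        intro p hp
        have hpd : ‖p - d z‖ ≤ 2 * δ := norm_sub_le_of_mem_cell hp.2 (hdcell z)
        have herr := hfirst (d z) (hdD z) p (hpd.trans_lt hδb)
        have hclose : ‖V p - V (d z)‖ < min 1 δ1 := by
          calc ‖V p - V (d z)‖ = ‖(V p - V (d z) - fderiv ℝ V (d z) (p - d z)) + fderiv ℝ V (d z) (p - d z)‖ := by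
                congr 1; abel
            _ ≤ ζ * ‖p - d z‖ + ‖fderiv ℝ V (d z)‖ * ‖p - d z‖ :=
                (norm_add_le _ _).trans (add_le_add herr ((fderiv ℝ V (d z)).le_opNorm _))
            _ ≤ ζ * (2 * δ) + K' * (2 * δ) := by
                gcongr
                exact hfd z
            _ ≤ δ * (2 * K' + G' + 2 * ζ + 1) := by nlinarith
            _ < min 1 δ1 := hδc
        have := hJ' (d z) (hdD z) _ hclose
        rw [abs_le] at this
        linarith
      rw [setIntegral_const, smul_eq_mul, Measure.real, mul_comm] at h1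
      exact h1
    have hbound : ∀ z : Z, δ ^ 2 * JJ h (V (d z)) ≤ (∫ p in D ∩ cell δ z.1, JJ h (V p)) +
        (δ ^ 2 - (volume (D ∩ cell δ z.1)).toReal) + η * (volume (D ∩ cell δ z.1)).toReal := by
      intro z
      have h1 := hIz z
      have h2 := hvz z
      have h3 := JJ_le_one h (V (d z))
      have h4 := JJ_pos h (V (d z))
      nlinarith
    have hsumb : ∑ z : Z, δ ^ 2 * JJ h (V (d z)) ≤ (∫ p in D, JJ h (V p)) + η + η * v0 := by
      calc ∑ z : Z, δ ^ 2 * JJ h (V (d z)) ≤ ∑ z : Z, ((∫ p in D ∩ cell δ z.1, JJ h (V p)) +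
        (δ ^ 2 - (volume (D ∩ cell δ z.1)).toReal) + η * (volume (D ∩ cell δ z.1)).toReal) :=
            Finset.sum_le_sum fun z _ => hbound z
        _ = (∫ p in D, JJ h (V p)) + (Z.card * δ ^ 2 - v0) + η * v0 := by
            rw [Finset.sum_add_distrib, Finset.sum_add_distrib, Finset.sum_sub_distrib, ← hint,
              ← Finset.mul_sum, ← hvolD]
            simp
        _ ≤ _ := by linarith
    have hIle : (∫ p in D, JJ h (V p)) ≤ v0 := by
      have h1 : ∫ p in D, JJ h (V p) ≤ ∫ p in D, (1:ℝ) := by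
        apply setIntegral_mono_on hintD (integrableOn_const hD.measure_lt_top.ne) hDm
        intro p _; exact JJ_le_one h _
      rw [setIntegral_const, smul_eq_mul, mul_one] at h1
      exact h1
    calc ∑ z : Z, ∑ j : ι' z, ‖δ • a' z j‖ ^ 2 * JJ h (v z + δ • g' z j)
        ≤ ∑ z : Z, (1 + η) * (δ ^ 2 * (JJ h (V (d z)) + η)) := Finset.sum_le_sum fun z _ => hcell z
      _ = (1 + η) * (∑ z : Z, δ ^ 2 * JJ h (V (d z)) + η * (Z.card * δ ^ 2)) := by
          rw [← Finset.mul_sum]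
          congr 1
          simp only [mul_add, Finset.sum_add_distrib]
          simp; ring
      _ ≤ (1 + η) * (((∫ p in D, JJ h (V p)) + η + η * v0) + η * (v0 + η)) := by
          gcongr
      _ ≤ (∫ p in D, JJ h (V p)) + η * (5 * v0 + 5) := by
          have hI0 : 0 ≤ ∫ p in D, JJ h (V p) := by
            apply setIntegral_nonneg hDm
            intro p _; exact (JJ_pos h _).le
          nlinarith [mul_nonneg hη0.le hv00, mul_nonneg hη0.le hη0.le, mul_nonneg hη0.le hI0,
            mul_nonneg (mul_nonneg hη0.le hη0.le) hv00]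
      _ ≤ (∫ p in D, JJ h (V p)) + ε := by linarith

end Crest.Agent.H7
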