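import Mathlib
import Crest.Agent.H7.Riemann

open MeasureTheory Measure Module Set Filter Topology
open scoped ENNReal

namespace Crest.Agent.H7

/-- coefficients of `w τ - w c` -/
lemma sweep_coeff {a b : E3} {w : ℝ → E3} {lam : ℝ → ℝ} {α β : ℝ}
    (hlam : ContinuousOn lam (Icc α β))
    (hw' : ∀ t ∈ Icc α β, HasDerivWithinAt w (lam t • (a + t • b)) (Icc α β) t)
    {Λ : ℝ} (hΛ : ∀ x ∈ Icc α β, |lam x| ≤ Λ) {p q c τ : ℝ} (hp : p ∈ Icc α β) (hq : q ∈ Icc α β)
    (hc : c ∈ Icc p q) (hτ : τ ∈ Icc p q) :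
    ∃ A B : ℝ, w τ = w c + (A • a + B • b) ∧ |A| ≤ Λ * (q - p) ∧ |B - p * A| ≤ Λ * (q - p) ^ 2 ∧
      |B - q * A| ≤ Λ * (q - p) ^ 2 := by
  have hpq : p ≤ q := hc.1.trans hc.2
  have hΛ0 : 0 ≤ Λ := (abs_nonneg _).trans (hΛ p hp)
  have hsub : Icc p q ⊆ Icc α β := Icc_subset_Icc hp.1 hq.2
  have hsub2 : uIcc c τ ⊆ Icc p q := by
    rw [uIcc]; exact Icc_subset_Icc (le_inf hc.1 hτ.1) (sup_le hc.2 hτ.2)
  have hlc : ContinuousOn lam (uIcc c τ) := hlam.mono (hsub2.trans hsub)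
  have hli : IntervalIntegrable lam volume c τ := hlc.intervalIntegrable
  have hli2 : IntervalIntegrable (fun x => x * lam x) volume c τ :=
    (continuousOn_id.mul hlc).intervalIntegrable
  have hmem : ∀ x ∈ Set.uIoc c τ, x ∈ Icc p q := fun x hx => hsub2 (uIoc_subset_uIcc hx)
  have hcτ : |τ - c| ≤ q - p := by
    rw [abs_le]; constructor <;> linarith [hc.1, hc.2, hτ.1, hτ.2]
  refine ⟨∫ x in c..τ, lam x, ∫ x in c..τ, x * lam x, ?_, ?_, ?_, ?_⟩
  · -- fundamental theorem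
    have hFTC : ∫ x in c..τ, lam x • (a + x • b) = w τ - w c := by
      apply intervalIntegral.integral_eq_sub_of_hasDeriv_right
      · intro x hx
        exact ((hw' x (hsub (hsub2 hx))).continuousWithinAt).mono (hsub2.trans hsub)
      · intro x hx
        have hx1 : x ∈ Icc α β := hsub (hsub2 ⟨hx.1.le, hx.2.le⟩)
        have hx2 : x < β := hx.2.trans_le ((max_le hc.2 hτ.2).trans hq.2)
        have h1 := (hw' x hx1).mono (s := Ico x β) (fun y hy => ⟨hx1.1.trans hy.1, hy.2.le⟩)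
        have h2 : HasDerivWithinAt w (lam x • (a + x • b)) (Ici x) x :=
          h1.mono_of_mem_nhdsWithin (Ico_mem_nhdsGE hx2)
        exact h2.mono Ioi_subset_Ici_self
      · apply ContinuousOn.intervalIntegrable
        exact hlc.smul (continuousOn_const.add (continuousOn_id.smul continuousOn_const))
    have h2 : ∫ x in c..τ, lam x • (a + x • b) =
        (∫ x in c..τ, lam x) • a + (∫ x in c..τ, x * lam x) • b := by
      rw [← intervalIntegral.integral_smul_const, ← intervalIntegral.integral_smul_const,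
        ← intervalIntegral.integral_add]
      · congr 1; ext1 x
        rw [smul_add, smul_smul, mul_comm (lam x) x]
      · exact (hlc.smul continuousOn_const).intervalIntegrable
      · exact ((continuousOn_id.mul hlc).smul continuousOn_const).intervalIntegrable
    rw [← h2, hFTC]; abel
  · have := intervalIntegral.norm_integral_le_of_norm_le_const (a := c) (b := τ) (f := lam)
      (C := Λ) (fun x hx => hΛ x (hsub (hmem x hx)))
    rw [Real.norm_eq_abs] at this
    exact this.trans (by gcongr)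
  · have e : (∫ x in c..τ, x * lam x) - p * ∫ x in c..τ, lam x = ∫ x in c..τ, (x - p) * lam x := by
      rw [← intervalIntegral.integral_const_mul, ← intervalIntegral.integral_sub hli2 (hli.const_mul p)]
      congr 1; ext1 x; ring
    rw [e]
    have := intervalIntegral.norm_integral_le_of_norm_le_const (a := c) (b := τ)
      (f := fun x => (x - p) * lam x) (C := (q - p) * Λ) (fun x hx => by
        rw [norm_mul, Real.norm_eq_abs, Real.norm_eq_abs]
        have hx' := hmem x hx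
        apply mul_le_mul _ (hΛ x (hsub hx')) (abs_nonneg _) (by linarith)
        rw [abs_le]; constructor <;> linarith [hx'.1, hx'.2])
    rw [Real.norm_eq_abs] at this
    calc _ ≤ _ := this
      _ ≤ (q - p) * Λ * (q - p) := by
        apply mul_le_mul_of_nonneg_left hcτ
        exact mul_nonneg (by linarith) hΛ0
      _ = _ := by ring
  · have e : (∫ x in c..τ, x * lam x) - q * ∫ x in c..τ, lam x = ∫ x in c..τ, (x - q) * lam x := by
      rw [← intervalIntegral.integral_const_mul, ← intervalIntegral.integral_sub hli2 (hli.const_mul q)]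
      congr 1; ext1 x; ring
    rw [e]
    have := intervalIntegral.norm_integral_le_of_norm_le_const (a := c) (b := τ)
      (f := fun x => (x - q) * lam x) (C := (q - p) * Λ) (fun x hx => by
        rw [norm_mul, Real.norm_eq_abs, Real.norm_eq_abs]
        have hx' := hmem x hx
        apply mul_le_mul _ (hΛ x (hsub hx')) (abs_nonneg _) (by linarith)
        rw [abs_le]; constructor <;> linarith [hx'.1, hx'.2])
    rw [Real.norm_eq_abs] at this
    calc _ ≤ _ := this
      _ ≤ (q - p) * Λ * (q - p) := by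
        apply mul_le_mul_of_nonneg_left hcτ
        exact mul_nonneg (by linarith) hΛ0
      _ = _ := by ring

lemma gram_pos_of_li {a b : E3} (hab : LinearIndependent ℝ ![a, b]) :
    0 < ‖a‖ ^ 2 * ‖b‖ ^ 2 - inner ℝ a b ^ 2 := by
  rcases (gram_nonneg3 a b).eq_or_lt with h | h
  · exfalso
    rw [LinearIndependent.pair_iff] at hab
    have h1 : ‖(‖b‖ ^ 2) • a + (-inner ℝ a b) • b‖ ^ 2 = 0 := by
      rw [norm_add_sq_real, norm_smul, norm_smul, inner_smul_left, inner_smul_right,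
        Real.norm_eq_abs, Real.norm_eq_abs, mul_pow, mul_pow, sq_abs, sq_abs]
      simp only [conj_trivial]
      linear_combination -‖b‖ ^ 2 * h
    have h2 : (‖b‖ ^ 2) • a + (-inner ℝ a b) • b = 0 := by
      rw [← norm_eq_zero]; exact pow_eq_zero_iff (two_ne_zero) |>.1 h1
    obtain ⟨h3, -⟩ := hab _ _ h2
    have h4 : b = 0 := by
      rw [← norm_eq_zero]; exact pow_eq_zero_iff (two_ne_zero) |>.1 h3
    obtain ⟨-, h6⟩ := hab 0 1 (by rw [h4]; simp)
    exact one_ne_zero h6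
  · exact h

/-- elementary estimate of the radial terms -/
lemma radial_est {r θ M : ℝ} (hr : 0 ≤ r) (hrM : r ≤ M) (hθ : 0 ≤ θ) (hθ1 : θ ≤ 1) :
    (r + θ) ^ 2 ≤ r ^ 2 + 2 * (M + 1) * θ ∧ r ^ 2 - 2 * (M + 1) * θ ≤ (max (r - θ) 0) ^ 2 := by
  constructor
  · nlinarith
  · rcases le_total (r - θ) 0 with h | h
    · rw [max_eq_right h]; nlinarith
    · rw [max_eq_left h]; nlinarith

theorem s328
    (e a b p₀ : E3) (he : ‖e‖ = 1)
    (ha : inner ℝ a e = 0) (hb : inner ℝ b e = 0)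
    (hab : LinearIndependent ℝ ![a, b]) (L : ℝ) (hL : 0 < L) (α β : ℝ) (hαβ : α < β)
    (R : ℝ → ℝ) (hR : ContinuousOn R (Set.Icc α β)) (hR0 : ∀ t ∈ Set.Icc α β, 0 ≤ R t)
    (w : ℝ → E3) (hw : ∀ t ∈ Set.Icc α β, inner ℝ (w t) e = 0)
    (lam : ℝ → ℝ) (hlam : ContinuousOn lam (Set.Icc α β))
    (hw' : ∀ t ∈ Set.Icc α β, HasDerivWithinAt w (lam t • (a + t • b)) (Set.Icc α β) t)
    (η : ℝ) (hη : 0 < η) :
    ∃ δ : ℝ, 0 < δ ∧ ∀ (N : ℕ) (t : Fin (N + 1) → ℝ) (c : Fin N → ℝ),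
      StrictMono t → t 0 = α → t (Fin.last N) = β →
      (∀ i : Fin N, t i.succ - t i.castSucc ≤ δ) →
      (∀ i : Fin N, t i.castSucc ≤ c i ∧ c i ≤ t i.succ) →
      (∃ (p q r : Fin N → E3),
        (∀ i, inner ℝ (p i) (e + w (c i)) = 0 ∧ inner ℝ (q i) (e + w (c i)) = 0 ∧
          inner ℝ (r i) (e + w (c i)) = 0) ∧
        (∀ i, AffineIndependent ℝ ![p i, q i, r i]) ∧
        {x : E3 | ∃ τ ∈ Set.Icc α β, ∃ ρ ∈ Set.Icc 0 (R τ), ∃ s : ℝ, abs s ≤ L ∧
            x = p₀ + ρ • (a + τ • b) + s • (e + w τ)} ⊆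
          ⋃ i, {x : E3 | ∃ y ∈ convexHull ℝ {p i, q i, r i}, ∃ σ : ℝ,
            x = y + σ • (e + w (c i))} ∧
        abs ((∑ i, (μHE[2] (convexHull ℝ ({p i, q i, r i} : Set (E3)))).toReal) -
            Real.sqrt (‖a‖ ^ 2 * ‖b‖ ^ 2 - inner ℝ a b ^ 2) *
              ∫ τ in α..β, R τ ^ 2 / (2 * Real.sqrt (1 + ‖w τ‖ ^ 2))) ≤ η) ∧
      abs ((∑ i : Fin N, (μHE[2] ((fun y => y - (inner ℝ y (e + w (c i)) / ‖e + w (c i)‖ ^ 2) • (e + w (c i))) ''
            {x : E3 | ∃ τ ∈ Set.Icc (t i.castSucc) (t i.succ), ∃ ρ ∈ Set.Icc 0 (R τ),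
              ∃ s : ℝ, abs s ≤ L ∧ x = p₀ + ρ • (a + τ • b) + s • (e + w τ)})).toReal) -
          Real.sqrt (‖a‖ ^ 2 * ‖b‖ ^ 2 - inner ℝ a b ^ 2) *
            ∫ τ in α..β, R τ ^ 2 / (2 * Real.sqrt (1 + ‖w τ‖ ^ 2))) ≤ η := by
  -- gram determinant positive
  have hgr : 0 < ‖a‖ ^ 2 * ‖b‖ ^ 2 - inner ℝ a b ^ 2 := gram_pos_of_li hab
  set κ := Real.sqrt (‖a‖ ^ 2 * ‖b‖ ^ 2 - inner ℝ a b ^ 2) with hκ
  have hκ0 : 0 < κ := Real.sqrt_pos.2 hgr
  -- bounds
  obtain ⟨M, hM⟩ : ∃ M : ℝ, ∀ x ∈ Icc α β, R x ≤ M := by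
    obtain ⟨M, hM⟩ := isCompact_Icc.bddAbove_image hR
    exact ⟨M, fun x hx => hM (mem_image_of_mem _ hx)⟩
  have hM0 : 0 ≤ M := (hR0 α ⟨le_rfl, hαβ.le⟩).trans (hM α ⟨le_rfl, hαβ.le⟩)
  obtain ⟨Λ, hΛ, hΛ0⟩ : ∃ Λ : ℝ, (∀ x ∈ Icc α β, |lam x| ≤ Λ) ∧ 0 < Λ := by
    obtain ⟨K, hK⟩ := isCompact_Icc.bddAbove_image hlam.abs
    refine ⟨max K 1, fun x hx => (hK (mem_image_of_mem _ hx)).trans (le_max_left _ _), ?_⟩
    exact zero_lt_one.trans_le (le_max_right _ _)
  have hwc : ContinuousOn w (Icc α β) := fun x hx => (hw' x hx).continuousWithinAt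
  let G : ℝ → ℝ := fun τ => R τ ^ 2 / (2 * Real.sqrt (1 + ‖w τ‖ ^ 2))
  have hGc : ContinuousOn G (Icc α β) := by
    apply (hR.pow 2).div
    · apply continuousOn_const.mul
      exact (continuousOn_const.add (hwc.norm.pow 2)).sqrt
    · intro x _
      have : 0 < Real.sqrt (1 + ‖w x‖ ^ 2) := Real.sqrt_pos.2 (by positivity)
      positivity
  obtain ⟨δ₁, hδ₁, hRie⟩ := riemann_close hαβ hGc (η := η / (2 * κ)) (by positivity)
  -- choice of θ
  set D := κ * (β - α) * (M + 1) with hD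
  have hD0 : 0 < D := mul_pos (mul_pos hκ0 (by linarith)) (by linarith)
  set θ := min 1 (η / (2 * D)) with hθ
  have hθ0 : 0 < θ := lt_min one_pos (by positivity)
  have hθ1 : θ ≤ 1 := min_le_left _ _
  have hθD : D * θ ≤ η / 2 := by
    calc D * θ ≤ D * (η / (2 * D)) := mul_le_mul_of_nonneg_left (min_le_right _ _) hD0.le
      _ = η / 2 := by field_simp
  have huc := isCompact_Icc.uniformContinuousOn_of_continuous hR
  rw [Metric.uniformContinuousOn_iff_le] at huc
  obtain ⟨δ₂, hδ₂, huc⟩ := huc (θ / 2) (by positivity)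
  set δ₃ := θ / (6 * L * Λ) with hδ₃
  have hδ₃0 : 0 < δ₃ := by positivity
  refine ⟨min δ₁ (min δ₂ δ₃), lt_min hδ₁ (lt_min hδ₂ hδ₃0), fun N t c ht h0 h1 hm hc => ?_⟩
  have hm1 : ∀ i : Fin N, t i.succ - t i.castSucc ≤ δ₁ := fun i => (hm i).trans (min_le_left _ _)
  have hm2 : ∀ i : Fin N, t i.succ - t i.castSucc ≤ δ₂ :=
    fun i => (hm i).trans ((min_le_right _ _).trans (min_le_left _ _))
  have hm3 : ∀ i : Fin N, 3 * L * Λ * (t i.succ - t i.castSucc) ≤ θ / 2 := by
    intro i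
    have h2 : t i.succ - t i.castSucc ≤ δ₃ := (hm i).trans ((min_le_right _ _).trans (min_le_right _ _))
    calc 3 * L * Λ * (t i.succ - t i.castSucc) ≤ 3 * L * Λ * δ₃ :=
          mul_le_mul_of_nonneg_left h2 (by positivity)
      _ = θ / 2 := by rw [hδ₃]; field_simp; norm_num
  have hsum := hRie N t c ht h0 h1 hm1 hc
  have hmem := fun i => mesh_mem ht h0 h1 i
  have hlt : ∀ i : Fin N, t i.castSucc < t i.succ := fun i => ht i.castSucc_lt_succ
  have hcm : ∀ i : Fin N, c i ∈ Icc α β := fun i =>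
    ⟨(hmem _).1.trans (hc i).1, (hc i).2.trans (hmem _).2⟩
  have hdist : ∀ i : Fin N, ∀ τ ∈ Icc (t i.castSucc) (t i.succ), |R τ - R (c i)| ≤ θ / 2 := by
    intro i τ hτ
    have hτ' : τ ∈ Icc α β := ⟨(hmem _).1.trans hτ.1, hτ.2.trans (hmem _).2⟩
    have := huc τ hτ' (c i) (hcm i) (by
      rw [Real.dist_eq, abs_le]
      constructor
      · linarith [hm2 i, (hc i).2, hτ.1]
      · linarith [hm2 i, (hc i).1, hτ.2])
    rwa [Real.dist_eq] at this
  -- the triangles
  let n : Fin N → E3 := fun i => e + w (c i)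
  have hn : ∀ i, n i ≠ 0 := fun i => axis_ne_zero he (hw _ (hcm i))
  let O : Fin N → E3 := fun i => p₀ - (2 * L * Λ * (t i.succ - t i.castSucc)) • a -
    (L * Λ * (t i.succ - t i.castSucc) * (t i.castSucc + t i.succ)) • b
  let H : Fin N → ℝ := fun i => R (c i) + θ
  have hH0 : ∀ i, 0 < H i := fun i => by
    have := hR0 _ (hcm i); simp only [H]; linarith
  have hcov : ∀ i : Fin N, ∀ τ ∈ Icc (t i.castSucc) (t i.succ), ∀ ρ ∈ Icc 0 (R τ), ∀ s : ℝ, |s| ≤ L →
      ∃ y ∈ convexHull ℝ {sv0 (n i) (O i), sv1 (n i) (O i) a b (t i.castSucc) (H i),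
        sv1 (n i) (O i) a b (t i.succ) (H i)}, ∃ σ' : ℝ,
        p₀ + ρ • (a + τ • b) + s • (e + w τ) = y + σ' • n i := by
    intro i τ hτ ρ hρ s hs
    obtain ⟨A, B, hAB, hA, hB1, hB2⟩ := sweep_coeff hlam hw' hΛ (hmem i.castSucc) (hmem i.succ)
      (hc i) hτ
    refine sweep_mem (Λ := Λ) (A := A) (B := B) (Rm := R (c i) + θ / 2) (hlt i) hτ hρ.1 ?_ hs ?_ hA hB1 hB2
      (hH0 i) ?_
    · have := abs_le.1 (hdist i τ hτ)
      linarith [hρ.2]
    · rw [hAB]; simp only [n]; abel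
    · simp only [H]; linarith [hm3 i]
  have harea : ∀ i, (μHE[2] (convexHull ℝ {sv0 (n i) (O i), sv1 (n i) (O i) a b (t i.castSucc) (H i),
        sv1 (n i) (O i) a b (t i.succ) (H i)})) = ENNReal.ofReal (κ *
        ((t i.succ - t i.castSucc) * ((H i) ^ 2 / (2 * Real.sqrt (1 + ‖w (c i)‖ ^ 2))))) := by
    intro i
    exact sector_area he ha hb (hw _ (hcm i)) (O i) (hlt i).le (H i)
  have hs1 : ∀ i : Fin N, 1 ≤ Real.sqrt (1 + ‖w (c i)‖ ^ 2) := by
    intro i
    rw [Real.one_le_sqrt]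
    nlinarith [sq_nonneg ‖w (c i)‖]
  have hGup : ∀ i : Fin N, (t i.succ - t i.castSucc) * ((H i) ^ 2 / (2 * Real.sqrt (1 + ‖w (c i)‖ ^ 2))) ≤
      (t i.succ - t i.castSucc) * G (c i) + (t i.succ - t i.castSucc) * ((M + 1) * θ) := by
    intro i
    rw [← mul_add]
    apply mul_le_mul_of_nonneg_left _ (by linarith [hlt i])
    have h2 := (radial_est (hR0 _ (hcm i)) (hM _ (hcm i)) hθ0.le hθ1).1
    have h3 := hs1 i
    set S := Real.sqrt (1 + ‖w (c i)‖ ^ 2)
    have h4 : G (c i) = R (c i) ^ 2 / (2 * S) := rfl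
    rw [h4, div_add' _ _ _ (by positivity)]
    apply div_le_div_of_nonneg_right _ (by positivity)
    have h5 : 0 ≤ (M + 1) * θ := by positivity
    calc H i ^ 2 ≤ R (c i) ^ 2 + 2 * (M + 1) * θ := h2
      _ ≤ R (c i) ^ 2 + (M + 1) * θ * (2 * S) := by nlinarith
  have hGlo : ∀ i : Fin N, (t i.succ - t i.castSucc) * G (c i) - (t i.succ - t i.castSucc) * ((M + 1) * θ) ≤
      (t i.succ - t i.castSucc) * ((max (R (c i) - θ) 0) ^ 2 / (2 * Real.sqrt (1 + ‖w (c i)‖ ^ 2))) := by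
    intro i
    rw [← mul_sub]
    apply mul_le_mul_of_nonneg_left _ (by linarith [hlt i])
    have h2 := (radial_est (hR0 _ (hcm i)) (hM _ (hcm i)) hθ0.le hθ1).2
    have h3 := hs1 i
    set S := Real.sqrt (1 + ‖w (c i)‖ ^ 2)
    have h4 : G (c i) = R (c i) ^ 2 / (2 * S) := rfl
    rw [h4, div_sub' (by positivity)]
    apply div_le_div_of_nonneg_right _ (by positivity)
    have h5 : 0 ≤ (M + 1) * θ := by positivity
    calc R (c i) ^ 2 - 2 * S * ((M + 1) * θ) ≤ R (c i) ^ 2 - 2 * (M + 1) * θ := by nlinarith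
      _ ≤ _ := h2
  have hGH : ∀ i : Fin N, (t i.succ - t i.castSucc) * G (c i) ≤
      (t i.succ - t i.castSucc) * ((H i) ^ 2 / (2 * Real.sqrt (1 + ‖w (c i)‖ ^ 2))) := by
    intro i
    apply mul_le_mul_of_nonneg_left _ (by linarith [hlt i])
    simp only [G, H]
    apply div_le_div_of_nonneg_right _ (by positivity)
    exact pow_le_pow_left₀ (hR0 _ (hcm i)) (by linarith) 2
  have hsumm : ∑ i : Fin N, (t i.succ - t i.castSucc) * ((M + 1) * θ) = (β - α) * ((M + 1) * θ) := by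
    rw [← Finset.sum_mul, sum_mesh, h0, h1]
  have hsum' := abs_le.1 hsum
  have hκη : κ * (η / (2 * κ)) = η / 2 := by field_simp
  have hsq1 : κ * (∑ i : Fin N, (t i.succ - t i.castSucc) * G (c i)) ≤
      κ * (∫ τ in α..β, G τ) + η / 2 := by
    rw [← hκη, ← mul_add]; apply mul_le_mul_of_nonneg_left _ hκ0.le; linarith [hsum'.2]
  have hsq2 : κ * (∫ τ in α..β, G τ) - η / 2 ≤
      κ * (∑ i : Fin N, (t i.succ - t i.castSucc) * G (c i)) := by
    rw [← hκη, ← mul_sub]; apply mul_le_mul_of_nonneg_left _ hκ0.le; linarith [hsum'.1]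
  have hκθ : κ * ((β - α) * ((M + 1) * θ)) ≤ η / 2 := by
    calc κ * ((β - α) * ((M + 1) * θ)) = D * θ := by rw [hD]; ring
      _ ≤ _ := hθD
  constructor
  · refine ⟨fun i => sv0 (n i) (O i), fun i => sv1 (n i) (O i) a b (t i.castSucc) (H i),
      fun i => sv1 (n i) (O i) a b (t i.succ) (H i), ?_, ?_, ?_, ?_⟩
    · intro i
      exact ⟨inner_PP_un (hn i) _, inner_PP_un (hn i) _, inner_PP_un (hn i) _⟩
    · intro i
      exact sector_affine he ha hb (hw _ (hcm i)) hgr (O i) (hlt i) (hH0 i)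
    · rintro x ⟨τ, hτ, ρ, hρ, s, hs, rfl⟩
      obtain ⟨i, hi⟩ := exists_piece h0 h1 hαβ hτ
      exact mem_iUnion.2 ⟨i, hcov i τ hi ρ hρ s hs⟩
    · have e1 : (∑ i, (μHE[2] (convexHull ℝ ({sv0 (n i) (O i), sv1 (n i) (O i) a b (t i.castSucc) (H i),
          sv1 (n i) (O i) a b (t i.succ) (H i)} : Set E3))).toReal) = κ * ∑ i : Fin N,
          ((t i.succ - t i.castSucc) * ((H i) ^ 2 / (2 * Real.sqrt (1 + ‖w (c i)‖ ^ 2)))) := by
        rw [Finset.mul_sum]
        apply Finset.sum_congr rfl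
        intro i _
        rw [harea i, ENNReal.toReal_ofReal]
        have := hlt i
        have : 0 ≤ t i.succ - t i.castSucc := by linarith
        positivity
      rw [e1]
      have e2 := Finset.sum_le_sum (fun i (_ : i ∈ Finset.univ) => hGup i)
      rw [Finset.sum_add_distrib, hsumm] at e2
      have e3 := Finset.sum_le_sum (fun i (_ : i ∈ Finset.univ) => hGH i)
      have e4 := mul_le_mul_of_nonneg_left e2 hκ0.le
      have e5 := mul_le_mul_of_nonneg_left e3 hκ0.le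
      rw [mul_add] at e4
      rw [abs_le]
      constructor
      · change -η ≤ _ - κ * ∫ τ in α..β, G τ
        linarith
      · change _ - κ * (∫ τ in α..β, G τ) ≤ η
        linarith
  · -- projections of the pieces
    let S : Fin N → Set E3 := fun i => {x : E3 | ∃ τ ∈ Set.Icc (t i.castSucc) (t i.succ), ∃ ρ ∈ Set.Icc 0 (R τ),
              ∃ s : ℝ, abs s ≤ L ∧ x = p₀ + ρ • (a + τ • b) + s • (e + w τ)}
    have hproj : ∀ i : Fin N, (fun y : E3 => y - (inner ℝ y (e + w (c i)) / ‖e + w (c i)‖ ^ 2) • (e + w (c i))) =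
        (fun y => PP (un (n i)) y) := by
      intro i
      ext1 y
      rw [PP_apply, un, inner_smul_right, smul_smul]
      congr 2
      simp only [n]
      ring
    have hup : ∀ i : Fin N, μHE[2] ((fun y : E3 => y - (inner ℝ y (e + w (c i)) / ‖e + w (c i)‖ ^ 2) • (e + w (c i))) '' S i) ≤
        ENNReal.ofReal (κ *
        ((t i.succ - t i.castSucc) * ((H i) ^ 2 / (2 * Real.sqrt (1 + ‖w (c i)‖ ^ 2))))) := by
      intro i
      rw [← harea i, hproj i]
      apply measure_mono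
      rintro z ⟨x, ⟨τ, hτ, ρ, hρ, s, hs, rfl⟩, rfl⟩
      obtain ⟨y, hy, σ, hσ⟩ := hcov i τ hτ ρ hρ s hs
      simp only
      rw [hσ, map_add, map_smul]
      have h3 : PP (un (n i)) (n i) = 0 := by
        rw [PP_apply, un, inner_smul_right, real_inner_self_eq_norm_sq, smul_smul]
        have : ‖n i‖⁻¹ * ‖n i‖ ^ 2 * ‖n i‖⁻¹ = 1 := by
          have := norm_ne_zero_iff.2 (hn i)
          field_simp
        rw [this, one_smul, sub_self]
      rw [h3, smul_zero, add_zero]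
      have h4 : inner ℝ y (un (n i)) = 0 := by
        have hconv : Convex ℝ {y : E3 | inner ℝ y (un (n i)) = 0} := by
          have : {y : E3 | inner ℝ y (un (n i)) = 0} = ((LinearMap.ker (innerₗ E3 (un (n i)))) : Set E3) := by
            ext z
            simp [real_inner_comm]
          rw [this]
          exact (LinearMap.ker (innerₗ E3 (un (n i)))).convex
        apply convexHull_min _ hconv hy
        intro z hz
        simp only [mem_insert_iff, mem_singleton_iff] at hz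
        rcases hz with rfl | rfl | rfl
        · exact inner_PP_left (norm_un (hn i)) _
        · exact inner_PP_left (norm_un (hn i)) _
        · exact inner_PP_left (norm_un (hn i)) _
      rw [PP_self_of_perp h4]
      exact hy
    have hlo : ∀ i : Fin N, ENNReal.ofReal (κ *
        ((t i.succ - t i.castSucc) * ((max (R (c i) - θ) 0) ^ 2 / (2 * Real.sqrt (1 + ‖w (c i)‖ ^ 2))))) ≤
        μHE[2] ((fun y : E3 => y - (inner ℝ y (e + w (c i)) / ‖e + w (c i)‖ ^ 2) • (e + w (c i))) '' S i) := by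
      intro i
      rw [← sector_area he ha hb (hw _ (hcm i)) p₀ (hlt i).le (max (R (c i) - θ) 0), hproj i]
      apply measure_mono
      rw [convexHull_triple]
      rintro z ⟨x, ⟨hx0, hx1, hx2⟩, rfl⟩
      set m := max (R (c i) - θ) 0
      have hm0 : 0 ≤ m := le_max_right _ _
      -- choose τ
      obtain ⟨τ, hτ, hτe⟩ : ∃ τ ∈ Icc (t i.castSucc) (t i.succ),
          (x 0 + x 1) * τ = x 0 * t i.castSucc + x 1 * t i.succ := by
        rcases eq_or_lt_of_le (add_nonneg hx0 hx1) with h | h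
        · refine ⟨t i.castSucc, ⟨le_rfl, (hlt i).le⟩, ?_⟩
          have g1 : x 1 = 0 := by linarith
          have g2 : x 0 = 0 := by linarith
          rw [g1, g2]; ring
        · refine ⟨(x 0 * t i.castSucc + x 1 * t i.succ) / (x 0 + x 1), ⟨?_, ?_⟩, ?_⟩
          · rw [le_div_iff₀ h]; nlinarith [hlt i]
          · rw [div_le_iff₀ h]; nlinarith [hlt i]
          · field_simp
      have hτR : m ≤ R τ := by
        have h3 := abs_le.1 (hdist i τ hτ)
        have h4 : 0 ≤ R τ := hR0 τ ⟨(hmem _).1.trans hτ.1, hτ.2.trans (hmem _).2⟩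
        exact max_le (by linarith) h4
      refine ⟨p₀ + (m * (x 0 + x 1)) • (a + τ • b) + (0:ℝ) • (e + w τ), ⟨τ, hτ, m * (x 0 + x 1),
        ⟨by positivity, ?_⟩, 0, by simpa using hL.le, rfl⟩, ?_⟩
      · calc m * (x 0 + x 1) ≤ m * 1 := by gcongr
          _ = m := mul_one _
          _ ≤ R τ := hτR
      · have e1 : sv1 (n i) p₀ a b (t i.castSucc) m - sv0 (n i) p₀ =
            m • PP (un (n i)) a + (m * t i.castSucc) • PP (un (n i)) b := by
          rw [sv1, sv0, map_add, map_smul, map_add, map_smul, smul_add, smul_smul]; abel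
        have e2 : sv1 (n i) p₀ a b (t i.succ) m - sv0 (n i) p₀ =
            m • PP (un (n i)) a + (m * t i.succ) • PP (un (n i)) b := by
          rw [sv1, sv0, map_add, map_smul, map_add, map_smul, smul_add, smul_smul]; abel
        change _ = sv0 (n i) p₀ + (x 0 • (sv1 (n i) p₀ a b (t i.castSucc) m - sv0 (n i) p₀) +
          x 1 • (sv1 (n i) p₀ a b (t i.succ) m - sv0 (n i) p₀))
        rw [e1, e2, zero_smul, add_zero]
        simp only [map_add, map_smul, sv0]
        have e3 : (m * (x 0 + x 1)) • ((PP (un (n i))) a + τ • (PP (un (n i))) b) =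
          (m * (x 0 + x 1)) • ((PP (un (n i))) a) + (m * ((x 0 + x 1) * τ)) • (PP (un (n i))) b := by
          module
        rw [e3, hτe]
        module
    have hup' : ∀ i : Fin N, (μHE[2] ((fun y : E3 => y - (inner ℝ y (e + w (c i)) / ‖e + w (c i)‖ ^ 2) • (e + w (c i))) '' S i)).toReal ≤
        κ * ((t i.succ - t i.castSucc) * ((H i) ^ 2 / (2 * Real.sqrt (1 + ‖w (c i)‖ ^ 2)))) := by
      intro i
      apply ENNReal.toReal_le_of_le_ofReal _ (hup i)
      have : 0 ≤ t i.succ - t i.castSucc := by linarith [hlt i]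
      positivity
    have hlo' : ∀ i : Fin N, κ *
        ((t i.succ - t i.castSucc) * ((max (R (c i) - θ) 0) ^ 2 / (2 * Real.sqrt (1 + ‖w (c i)‖ ^ 2)))) ≤
        (μHE[2] ((fun y : E3 => y - (inner ℝ y (e + w (c i)) / ‖e + w (c i)‖ ^ 2) • (e + w (c i))) '' S i)).toReal := by
      intro i
      have h3 := ENNReal.toReal_mono (ne_top_of_le_ne_top ENNReal.ofReal_ne_top (hup i)) (hlo i)
      rwa [ENNReal.toReal_ofReal] at h3
      have : 0 ≤ t i.succ - t i.castSucc := by linarith [hlt i]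
      positivity
    have e2 := Finset.sum_le_sum (fun i (_ : i ∈ Finset.univ) => hGup i)
    rw [Finset.sum_add_distrib, hsumm] at e2
    have e3 := Finset.sum_le_sum (fun i (_ : i ∈ Finset.univ) => hGlo i)
    rw [Finset.sum_sub_distrib, hsumm] at e3
    have e4 := mul_le_mul_of_nonneg_left e2 hκ0.le
    have e5 := mul_le_mul_of_nonneg_left e3 hκ0.le
    rw [mul_add] at e4
    rw [mul_sub] at e5
    have e6 := Finset.sum_le_sum (fun i (_ : i ∈ Finset.univ) => hup' i)
    have e7 := Finset.sum_le_sum (fun i (_ : i ∈ Finset.univ) => hlo' i)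
    rw [← Finset.mul_sum] at e6 e7
    rw [abs_le]
    constructor
    · change -η ≤ (∑ i : Fin N, (μHE[2] ((fun y : E3 => y - (inner ℝ y (e + w (c i)) / ‖e + w (c i)‖ ^ 2) • (e + w (c i))) '' S i)).toReal) - κ * ∫ τ in α..β, G τ
      linarith
    · change (∑ i : Fin N, (μHE[2] ((fun y : E3 => y - (inner ℝ y (e + w (c i)) / ‖e + w (c i)‖ ^ 2) • (e + w (c i))) '' S i)).toReal) - κ * (∫ τ in α..β, G τ) ≤ η
      linarith

end Crest.Agent.H7
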