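import Mathlib
import Crest.Agent.H7.Ruled3
import Crest.Agent.H7.Plane

open MeasureTheory Measure Module Set Filter Topology
open scoped ENNReal

namespace Crest.Agent.H7

theorem s329 (h M : ℝ) (hh : 0 < h) (hM : 0 < M) (D : Set E2) (hD : IsCompact D)
    (V : E2 → E2) (U : Set E2)
    (hU : IsOpen U) (hDU : D ⊆ U) (hV : ContDiffOn ℝ 1 V U)
    (htr : ∀ p ∈ D, LinearMap.trace ℝ _ (fderiv ℝ V p).toLinearMap = 0)
    (hdet : ∀ p ∈ D, -(M ^ 2)⁻¹ < LinearMap.det (fderiv ℝ V p).toLinearMap ∧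
      LinearMap.det (fderiv ℝ V p).toLinearMap ≤ 0)
    (ε : ℝ) (hε : 0 < ε) :
    ∃ (k : ℕ) (u : Fin k → E3) (B : Fin k → Set E3),
      (∀ i, ‖u i‖ = 1) ∧
      (∀ i, Bornology.IsBounded (B i) ∧ ∃ O : Set E3, IsOpen O ∧
        B i = O ∩ {x | inner ℝ x (u i) = 0}) ∧
      {z : E3 | ∃ p ∈ D, ∃ x : ℝ, abs x ≤ M ∧
          z = !₂[x, p 0 + x * V p 0, h * (p 1 + x * V p 1)]} ⊆
        ⋃ i, {z : E3 | ∃ y ∈ B i, ∃ τ : ℝ, z = y + τ • u i} ∧
      ∑ i, (μHE[2] (B i)).toReal ≤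
        h * (∫ p in D, 1 / Real.sqrt (1 + (V p 0) ^ 2 + h ^ 2 * (V p 1) ^ 2)) + ε := by
  obtain ⟨ι, _, c, a, b, g, h1, h2, h3⟩ :=
    ruled_cover D hD V U hU hDU hV M h hM htr hdet (ε / (2 * h)) (by positivity)
  -- direction vectors
  let n : ι → ℝ := fun i => Real.sqrt (1 + (g i 0) ^ 2 + h ^ 2 * (g i 1) ^ 2)
  have hn : ∀ i, 0 < n i := fun i => Real.sqrt_pos.2 (JJ_arg_pos h (g i))
  let lift : E2 → E3 := fun x => !₂[0, x 0, h * x 1]
  let u : ι → E3 := fun i => (n i)⁻¹ • !₂[1, g i 0, h * g i 1]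
  have hu : ∀ i, ‖u i‖ = 1 := by
    intro i
    have h4 : ‖(!₂[1, g i 0, h * g i 1] : E3)‖ ^ 2 = (n i) ^ 2 := by
      rw [normsq3]
      simp only [n]
      rw [Real.sq_sqrt (JJ_arg_pos h (g i)).le]
      simp; ring
    have h5 : ‖(!₂[1, g i 0, h * g i 1] : E3)‖ = n i := by
      rw [← sq_eq_sq₀ (norm_nonneg _) (hn i).le]; exact h4
    simp only [u]
    rw [norm_smul, h5, norm_inv, Real.norm_eq_abs, abs_of_pos (hn i), inv_mul_cancel₀ (hn i).ne']
  let T : ι → Set E3 := fun i => {x : E3 | ∃ s ∈ Icc (0:ℝ) 1, ∃ t ∈ Icc (0:ℝ) 1,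
    x = PP (u i) (lift (c i)) + s • PP (u i) (lift (a i)) + t • PP (u i) (lift (b i))}
  have hTc : ∀ i, IsCompact (T i) := fun i => isCompact_parallelogram _ _ _
  have hTu : ∀ i, ∀ x ∈ T i, inner ℝ x (u i) = 0 := by
    rintro i x ⟨s, _, t, _, rfl⟩
    rw [inner_add_left, inner_add_left, inner_smul_left, inner_smul_left, inner_PP_left (hu i),
      inner_PP_left (hu i), inner_PP_left (hu i)]
    simp
  have harea : ∀ i, (μHE[2] (T i)).toReal = h * (‖a i‖ ^ 2 * JJ h (g i)) := by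
    intro i
    simp only [T]
    rw [area_parallelogram, gram_PP (hu i), Real.sqrt_sq_eq_abs, ENNReal.toReal_ofReal (abs_nonneg _)]
    obtain ⟨ha0, hab, hperp⟩ := h1 i
    have hd : det3 (lift (a i)) (lift (b i)) (u i) = (n i)⁻¹ * h * (a i 0 * b i 1 - a i 1 * b i 0) := by
      simp [det3, lift, u]; ring
    have hdet2 : (a i 0 * b i 1 - a i 1 * b i 0) ^ 2 = (‖a i‖ ^ 2) ^ 2 := by
      have e1 : ‖b i‖ ^ 2 = ‖a i‖ ^ 2 := by rw [hab]
      rw [normsq2, normsq2] at e1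
      rw [inner2] at hperp
      rw [normsq2]
      linear_combination (a i 0 ^ 2 + a i 1 ^ 2) * e1 - (a i 0 * b i 0 + a i 1 * b i 1) * hperp
    have habs : |a i 0 * b i 1 - a i 1 * b i 0| = ‖a i‖ ^ 2 := by
      rw [← Real.sqrt_sq_eq_abs, hdet2, Real.sqrt_sq (by positivity)]
    rw [hd, abs_mul, habs, abs_of_pos (mul_pos (inv_pos.2 (hn i)) hh)]
    simp only [JJ, n]
    ring
  obtain ⟨N, hN⟩ : ∃ N : ℝ, N = Fintype.card ι := ⟨_, rfl⟩
  have hN0 : 0 ≤ N := by rw [hN]; exact Nat.cast_nonneg _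
  have hη : 0 < ε / (2 * (N + 1)) := by positivity
  have hB := fun i => open_base (hu i) (hTc i) (hTu i) hη
  choose B hTB hBb hBO hBa using hB
  set e := Fintype.equivFin ι
  refine ⟨Fintype.card ι, fun i => u (e.symm i), fun i => B (e.symm i), fun i => hu _,
    fun i => ⟨hBb _, hBO _⟩, ?_, ?_⟩
  · rintro z ⟨p, hp, x, hx, rfl⟩
    have hmem : (x, p + x • V p) ∈ {z : ℝ × E2 | ∃ p ∈ D, |z.1| ≤ M ∧ z.2 = p + z.1 • V p} :=
      ⟨p, hp, hx, rfl⟩
    obtain ⟨i, s, hs, t, ht, hst⟩ := mem_iUnion.1 (h2 hmem)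
    simp only at hst
    refine mem_iUnion.2 ⟨e i, ?_⟩
    simp only [e.symm_apply_apply]
    set q := lift (c i) + s • lift (a i) + t • lift (b i) with hq
    refine ⟨PP (u i) q, hTB i ⟨s, hs, t, ht, ?_⟩, inner ℝ q (u i) + x * n i, ?_⟩
    · rw [hq, map_add, map_add, map_smul, map_smul]
    · have e0 := congrArg (fun y : E2 => y 0) hst
      have e1 := congrArg (fun y : E2 => y 1) hst
      simp at e0 e1
      have hz : (!₂[x, p 0 + x * V p 0, h * (p 1 + x * V p 1)] : E3) =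
          q + x • !₂[1, g i 0, h * g i 1] := by
        ext j; fin_cases j
        · simp [hq, lift]
        · simp [hq, lift]; linarith
        · simp [hq, lift]; linear_combination h * e1
      rw [hz, PP_apply, add_smul, mul_smul]
      simp only [u]
      rw [smul_smul (n i), mul_inv_cancel₀ (hn i).ne', one_smul]
      abel
  · have : ∑ i : Fin (Fintype.card ι), (μHE[2] (B (e.symm i))).toReal = ∑ i, (μHE[2] (B i)).toReal := by
      rw [← e.symm.sum_comp (fun i => (μHE[2] (B i)).toReal)]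
    rw [this]
    calc ∑ i, (μHE[2] (B i)).toReal ≤ ∑ i, (h * (‖a i‖ ^ 2 * JJ h (g i)) + ε / (2 * (N + 1))) := by
          apply Finset.sum_le_sum
          intro i _
          rw [← harea i]; exact hBa i
      _ = h * (∑ i, ‖a i‖ ^ 2 * JJ h (g i)) + N * (ε / (2 * (N + 1))) := by
          rw [Finset.sum_add_distrib, ← Finset.mul_sum, Finset.sum_const, Finset.card_univ,
            nsmul_eq_mul, hN]
      _ ≤ h * ((∫ p in D, JJ h (V p)) + ε / (2 * h)) + ε / 2 := by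
          have := aux_kappa hε.le hN0
          gcongr
      _ = h * (∫ p in D, JJ h (V p)) + ε := by field_simp; ring
      _ = _ := rfl

end Crest.Agent.H7
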