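import Mathlib
import Crest.Agent.H7.Plane
import Crest.Agent.H7.Sweep

open MeasureTheory Measure Module Set Filter Topology
open scoped ENNReal

namespace Crest.Agent.H7

lemma tri_area {v : E3} (hv : ‖v‖ = 1) (A B C : E3) :
    μHE[2] (convexHull ℝ {PP v A, PP v B, PP v C}) =
      ENNReal.ofReal (|det3 (B - A) (C - A) v| / 2) := by
  rw [area_triangle, ← map_sub, ← map_sub, gram_PP hv, Real.sqrt_sq_eq_abs]

lemma det3_sub_right (x y z v : E3) : det3 x (z - y) v = det3 x z v - det3 x y v := by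
  simp only [det3, PiLp.sub_apply]; ring

lemma det3_PP (x y z v : E3) : det3 x (PP v y - z) v = det3 x (y - z) v := by
  rw [PP_apply]
  simp only [det3, PiLp.sub_apply, PiLp.smul_apply, smul_eq_mul]; ring

lemma quad_area_aux {v : E3} (hv : ‖v‖ = 1) (A B C D : E3) (hc : 0 < det3 (B - A) (C - A) v)
    (hd : det3 (B - A) (D - A) v < 0) :
    ENNReal.ofReal (|det3 (B - A) (D - C) v| / 2) ≤
      μHE[2] (convexHull ℝ {PP v A, PP v B, PP v C, PP v D}) := by
  set K := convexHull ℝ {PP v A, PP v B, PP v C, PP v D} with hK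
  set H : Set E3 := {x : E3 | 0 < det3 (B - A) (x - A) v} with hH
  have hHo : IsOpen H := by
    apply isOpen_lt continuous_const
    simp only [det3, PiLp.sub_apply]
    fun_prop
  have hcd : det3 (B - A) (D - C) v = det3 (B - A) (D - A) v - det3 (B - A) (C - A) v := by
    simp only [det3, PiLp.sub_apply]; ring
  set T1 : Set E3 := (fun x : E2 => PP v A + (x 0 • (PP v B - PP v A) + x 1 • (PP v C - PP v A))) '' stdTriO
    with hT1
  have h1 : μHE[2] T1 = ENNReal.ofReal (det3 (B - A) (C - A) v / 2) := by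
    rw [hT1, area_lin2, volume_stdTriO, ← map_sub, ← map_sub, gram_PP hv, Real.sqrt_sq_eq_abs,
      ← ENNReal.ofReal_mul (abs_nonneg _), abs_of_pos hc]
    congr 1; ring
  have h2 : μHE[2] (convexHull ℝ {PP v A, PP v B, PP v D}) =
      ENNReal.ofReal (-det3 (B - A) (D - A) v / 2) := by
    rw [tri_area hv, abs_of_neg hd]
  have h3 : T1 ⊆ K ∩ H := by
    rintro y ⟨x, ⟨hx0, hx1, hx2⟩, rfl⟩
    constructor
    · have : PP v A + (x 0 • (PP v B - PP v A) + x 1 • (PP v C - PP v A)) ∈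
        convexHull ℝ {PP v A, PP v B, PP v C} := by
        rw [convexHull_triple]
        exact ⟨x, ⟨hx0.le, hx1.le, hx2.le⟩, rfl⟩
      apply convexHull_mono _ this
      intro z hz
      simp only [mem_insert_iff, mem_singleton_iff] at hz ⊢
      tauto
    · simp only [hH, mem_ofPred_eq]
      have : det3 (B - A) (PP v A + (x 0 • (PP v B - PP v A) + x 1 • (PP v C - PP v A)) - A) v =
          x 1 * det3 (B - A) (C - A) v := by
        simp only [PP_apply]
        simp only [det3, PiLp.sub_apply, PiLp.smul_apply, PiLp.add_apply, smul_eq_mul]; ring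
      rw [this]; positivity
  have h4 : convexHull ℝ {PP v A, PP v B, PP v D} ⊆ K \ H := by
    intro y hy
    constructor
    · apply convexHull_mono _ hy
      intro z hz
      simp only [mem_insert_iff, mem_singleton_iff] at hz ⊢
      tauto
    · rw [convexHull_triple] at hy
      obtain ⟨x, ⟨hx0, hx1, hx2⟩, rfl⟩ := hy
      simp only [hH, mem_ofPred_eq, not_lt]
      have : det3 (B - A) (PP v A + (x 0 • (PP v B - PP v A) + x 1 • (PP v D - PP v A)) - A) v =
          x 1 * det3 (B - A) (D - A) v := by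
        simp only [PP_apply]
        simp only [det3, PiLp.sub_apply, PiLp.smul_apply, PiLp.add_apply, smul_eq_mul]; ring
      rw [this]; exact mul_nonpos_of_nonneg_of_nonpos hx1 hd.le
  have h5 : |det3 (B - A) (D - C) v| / 2 = det3 (B - A) (C - A) v / 2 +
      -det3 (B - A) (D - A) v / 2 := by
    rw [hcd, abs_of_neg (by linarith)]; ring
  rw [h5, ENNReal.ofReal_add (by linarith) (by linarith), ← h1, ← h2,
    ← measure_inter_add_diff K hHo.measurableSet]
  exact add_le_add (measure_mono h3) (measure_mono h4)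

lemma quad_area {v : E3} (hv : ‖v‖ = 1) (A B C D : E3) :
    ENNReal.ofReal (|det3 (B - A) (D - C) v| / 2) ≤
      μHE[2] (convexHull ℝ {PP v A, PP v B, PP v C, PP v D}) := by
  have hcd : det3 (B - A) (D - C) v = det3 (B - A) (D - A) v - det3 (B - A) (C - A) v := by
    simp only [det3, PiLp.sub_apply]; ring
  have hC : ENNReal.ofReal (|det3 (B - A) (C - A) v| / 2) ≤
      μHE[2] (convexHull ℝ {PP v A, PP v B, PP v C, PP v D}) := by
    rw [← tri_area hv]
    apply measure_mono (convexHull_mono _)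
    intro z hz
    simp only [mem_insert_iff, mem_singleton_iff] at hz ⊢
    tauto
  have hD : ENNReal.ofReal (|det3 (B - A) (D - A) v| / 2) ≤
      μHE[2] (convexHull ℝ {PP v A, PP v B, PP v C, PP v D}) := by
    rw [← tri_area hv]
    apply measure_mono (convexHull_mono _)
    intro z hz
    simp only [mem_insert_iff, mem_singleton_iff] at hz ⊢
    tauto
  set c := det3 (B - A) (C - A) v with hc
  set d := det3 (B - A) (D - A) v with hd
  rcases lt_trichotomy c 0 with h1 | h1 | h1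
  · rcases lt_or_ge 0 d with h2 | h2
    · have := quad_area_aux hv A B D C (by rw [← hd]; exact h2) (by rw [← hc]; exact h1)
      have e1 : det3 (B - A) (C - D) v = c - d := by
        rw [hc, hd]; simp only [det3, PiLp.sub_apply]; ring
      rw [e1, abs_sub_comm] at this
      rw [hcd]
      have e2 : ({PP v A, PP v B, PP v C, PP v D} : Set E3) = {PP v A, PP v B, PP v D, PP v C} := by
        ext z; simp only [mem_insert_iff, mem_singleton_iff]; tauto
      rw [e2]; exact this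
    · rcases le_total c d with h3 | h3
      · refine le_trans (ENNReal.ofReal_le_ofReal ?_) hC
        rw [hcd, abs_of_nonneg (by linarith), abs_of_neg h1]; linarith
      · refine le_trans (ENNReal.ofReal_le_ofReal ?_) hD
        rw [hcd, abs_of_nonpos (by linarith), abs_of_nonpos h2]; linarith
  · refine le_trans (ENNReal.ofReal_le_ofReal ?_) hD
    rw [hcd, h1, sub_zero]
  · rcases lt_or_ge d 0 with h2 | h2
    · exact quad_area_aux hv A B C D h1 h2
    · rcases le_total c d with h3 | h3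
      · refine le_trans (ENNReal.ofReal_le_ofReal ?_) hD
        rw [hcd, abs_of_nonneg (by linarith), abs_of_nonneg h2]; linarith
      · refine le_trans (ENNReal.ofReal_le_ofReal ?_) hC
        rw [hcd, abs_of_nonpos (by linarith), abs_of_pos h1]; linarith

/-- standard tetrahedron vertices -/
noncomputable def kA : E3 := !₂[1, 0, 0]
noncomputable def kB : E3 := !₂[-1, 0, 0]
noncomputable def kC : E3 := !₂[0, 1, Real.sqrt 2]
noncomputable def kD : E3 := !₂[0, -1, Real.sqrt 2]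
/-- the standard tetrahedron -/
noncomputable def KK : Set E3 := convexHull ℝ {kA, kB, kC, kD}

lemma image_PP_KK (v : E3) : PP v '' KK = convexHull ℝ {PP v kA, PP v kB, PP v kC, PP v kD} := by
  rw [KK, LinearMap.image_convexHull]
  congr 1
  simp only [image_insert_eq, image_singleton]

lemma real_ineq {X Y Z : ℝ} (hX : 0 ≤ X) (hY : 0 ≤ Y) (hZ : 0 ≤ Z) (h : X ^ 2 + Y ^ 2 + Z ^ 2 = 1)
    (hYX : Y ≤ X) (h1 : X + Y < 1) (h2 : 2 * Z < Real.sqrt 2) :
    Real.sqrt 2 ≤ Real.sqrt 2 * X + Z := by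
  have hs : Real.sqrt 2 ^ 2 = 2 := Real.sq_sqrt (by norm_num)
  have hs0 : 0 < Real.sqrt 2 := by positivity
  set s := Real.sqrt 2
  -- v1 = (X+Y)/s, v2 = (X-Y)/s, v3 = Z ; v_i (1 - s v_i) >= 0
  have k1 : 0 ≤ (X + Y) * (1 - (X + Y)) := mul_nonneg (by linarith) (by linarith)
  have k2 : 0 ≤ (X - Y) * (1 - (X - Y)) := mul_nonneg (by linarith) (by linarith)
  have k3 : 0 ≤ Z * (s - 2 * Z) := mul_nonneg hZ (by linarith)
  -- sum: (X+Y)(1-(X+Y)) + (X-Y)(1-(X-Y)) = 2X - 2(X²+Y²)
  have k4 : 0 ≤ 2 * X - 2 * (X ^ 2 + Y ^ 2) := by nlinarith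
  -- multiply: s*X + Z ≥ s
  have k5 : 0 ≤ s * (2 * X - 2 * (X ^ 2 + Y ^ 2)) := mul_nonneg hs0.le k4
  have k6 : 0 ≤ s * (Z * (s - 2 * Z)) := mul_nonneg hs0.le k3
  nlinarith

lemma min_proj {v : E3} (hv : ‖v‖ = 1) : ENNReal.ofReal (Real.sqrt 2) ≤ μHE[2] (PP v '' KK) := by
  rw [image_PP_KK]
  have hs : Real.sqrt 2 ^ 2 = 2 := Real.sq_sqrt (by norm_num)
  have hs0 : 0 < Real.sqrt 2 := by positivity
  have hn : v 0 ^ 2 + v 1 ^ 2 + v 2 ^ 2 = 1 := by rw [← normsq3, hv]; norm_num
  have hP1 := quad_area hv kA kB kC kD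
  have hP2 := quad_area hv kA kC kB kD
  have hP3 := quad_area hv kA kD kB kC
  have e2 : ({PP v kA, PP v kC, PP v kB, PP v kD} : Set E3) = {PP v kA, PP v kB, PP v kC, PP v kD} := by
    ext z; simp only [mem_insert_iff, mem_singleton_iff]; tauto
  have e3 : ({PP v kA, PP v kD, PP v kB, PP v kC} : Set E3) = {PP v kA, PP v kB, PP v kC, PP v kD} := by
    ext z; simp only [mem_insert_iff, mem_singleton_iff]; tauto
  rw [e2] at hP2
  rw [e3] at hP3
  have hF : ∀ A B C : E3, A ∈ ({kA, kB, kC, kD} : Set E3) → B ∈ ({kA, kB, kC, kD} : Set E3) →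
      C ∈ ({kA, kB, kC, kD} : Set E3) → ENNReal.ofReal (|det3 (B - A) (C - A) v| / 2) ≤
      μHE[2] (convexHull ℝ {PP v kA, PP v kB, PP v kC, PP v kD}) := by
    intro A B C hA hB hC
    rw [← tri_area hv]
    apply measure_mono (convexHull_mono _)
    have e : ({PP v kA, PP v kB, PP v kC, PP v kD} : Set E3) = PP v '' {kA, kB, kC, kD} := by
      simp only [image_insert_eq, image_singleton]
    rw [e]
    intro z hz
    simp only [mem_insert_iff, mem_singleton_iff] at hz
    rcases hz with rfl | rfl | rfl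
    · exact mem_image_of_mem _ hA
    · exact mem_image_of_mem _ hB
    · exact mem_image_of_mem _ hC
  have hF1 := hF kA kB kC (by simp) (by simp) (by simp)
  have hF2 := hF kA kB kD (by simp) (by simp) (by simp)
  have hF3 := hF kC kD kA (by simp) (by simp) (by simp)
  have hF4 := hF kC kD kB (by simp) (by simp) (by simp)
  have d1 : det3 (kB - kA) (kD - kC) v = 4 * v 2 := by
    simp [det3, kA, kB, kC, kD]; ring
  have d2 : det3 (kC - kA) (kD - kB) v = 2 * Real.sqrt 2 * (v 0 + v 1) := by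
    simp [det3, kA, kB, kC, kD]; ring
  have d3 : det3 (kD - kA) (kC - kB) v = 2 * Real.sqrt 2 * (v 1 - v 0) := by
    simp [det3, kA, kB, kC, kD]; ring
  have f1 : det3 (kB - kA) (kC - kA) v = 2 * (Real.sqrt 2 * v 1 - v 2) := by
    simp [det3, kA, kB, kC, kD]; ring
  have f2 : det3 (kB - kA) (kD - kA) v = 2 * (Real.sqrt 2 * v 1 + v 2) := by
    simp [det3, kA, kB, kC, kD]; ring
  have f3 : det3 (kD - kC) (kA - kC) v = 2 * (Real.sqrt 2 * v 0 + v 2) := by
    simp [det3, kA, kB, kC, kD]; ring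
  have f4 : det3 (kD - kC) (kB - kC) v = 2 * (Real.sqrt 2 * v 0 - v 2) := by
    simp [det3, kA, kB, kC, kD]; ring
  rw [d1] at hP1
  rw [d2] at hP2
  rw [d3] at hP3
  rw [f1] at hF1
  rw [f2] at hF2
  rw [f3] at hF3
  rw [f4] at hF4
  -- finish by real inequality
  by_contra hcon
  push Not at hcon
  have q1 := (ENNReal.ofReal_lt_ofReal_iff hs0).1 (hP1.trans_lt hcon)
  have q2 := (ENNReal.ofReal_lt_ofReal_iff hs0).1 (hP2.trans_lt hcon)
  have q3 := (ENNReal.ofReal_lt_ofReal_iff hs0).1 (hP3.trans_lt hcon)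
  have g1 := (ENNReal.ofReal_lt_ofReal_iff hs0).1 (hF1.trans_lt hcon)
  have g2 := (ENNReal.ofReal_lt_ofReal_iff hs0).1 (hF2.trans_lt hcon)
  have g3 := (ENNReal.ofReal_lt_ofReal_iff hs0).1 (hF3.trans_lt hcon)
  have g4 := (ENNReal.ofReal_lt_ofReal_iff hs0).1 (hF4.trans_lt hcon)
  rw [abs_mul, abs_of_pos (by norm_num : (0:ℝ) < 4)] at q1
  rw [abs_mul, abs_of_pos (by positivity : (0:ℝ) < 2 * Real.sqrt 2)] at q2 q3
  rw [abs_mul, abs_of_pos (by norm_num : (0:ℝ) < 2)] at g1 g2 g3 g4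
  have w1 : 2 * |v 2| < Real.sqrt 2 := by linarith
  have q2' : |v 0 + v 1| < 1 := by nlinarith
  have q3' : |v 1 - v 0| < 1 := by nlinarith
  have w2 : |v 0| + |v 1| < 1 := by
    rw [abs_lt] at q2' q3'
    rcases abs_cases (v 0) with ⟨h, _⟩ | ⟨h, _⟩ <;> rcases abs_cases (v 1) with ⟨h', _⟩ | ⟨h', _⟩ <;>
      rw [h, h'] <;> linarith [q2'.1, q2'.2, q3'.1, q3'.2]
  have w3 : Real.sqrt 2 * |v 1| + |v 2| < Real.sqrt 2 := by
    have g1' : |Real.sqrt 2 * v 1 - v 2| < Real.sqrt 2 := by linarith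
    have g2' : |Real.sqrt 2 * v 1 + v 2| < Real.sqrt 2 := by linarith
    rw [abs_lt] at g1' g2'
    rcases abs_cases (v 1) with ⟨h, _⟩ | ⟨h, _⟩ <;> rcases abs_cases (v 2) with ⟨h', _⟩ | ⟨h', _⟩ <;>
      rw [h, h'] <;> linarith [g1'.1, g1'.2, g2'.1, g2'.2]
  have w4 : Real.sqrt 2 * |v 0| + |v 2| < Real.sqrt 2 := by
    have g1' : |Real.sqrt 2 * v 0 - v 2| < Real.sqrt 2 := by linarith
    have g2' : |Real.sqrt 2 * v 0 + v 2| < Real.sqrt 2 := by linarith
    rw [abs_lt] at g1' g2'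
    rcases abs_cases (v 0) with ⟨h, _⟩ | ⟨h, _⟩ <;> rcases abs_cases (v 2) with ⟨h', _⟩ | ⟨h', _⟩ <;>
      rw [h, h'] <;> linarith [g1'.1, g1'.2, g2'.1, g2'.2]
  have hn' : |v 0| ^ 2 + |v 1| ^ 2 + |v 2| ^ 2 = 1 := by simpa [sq_abs] using hn
  rcases le_total (|v 1|) (|v 0|) with h | h
  · have := real_ineq (abs_nonneg _) (abs_nonneg _) (abs_nonneg _) hn' h w2 w1
    linarith
  · have := real_ineq (X := |v 1|) (Y := |v 0|) (Z := |v 2|) (abs_nonneg _) (abs_nonneg _)
      (abs_nonneg _) (by linarith) h (by linarith) w1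
    linarith

lemma proj_x : μHE[2] (PP (!₂[1, 0, 0] : E3) '' KK) = ENNReal.ofReal (Real.sqrt 2) := by
  have hs : Real.sqrt 2 ^ 2 = 2 := Real.sq_sqrt (by norm_num)
  have hs0 : 0 < Real.sqrt 2 := by positivity
  have hv : ‖(!₂[1, 0, 0] : E3)‖ = 1 := by
    rw [← sq_eq_sq₀ (norm_nonneg _) zero_le_one, normsq3]; simp
  rw [image_PP_KK]
  set v : E3 := !₂[1, 0, 0]
  have e1 : PP v kB = PP v kA := by
    rw [PP_apply, PP_apply, inner3, inner3]
    ext j; fin_cases j <;> simp [kA, kB, v]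
  have e2 : ({PP v kA, PP v kB, PP v kC, PP v kD} : Set E3) = {PP v kA, PP v kC, PP v kD} := by
    rw [e1]; simp
  rw [e2, tri_area hv]
  congr 1
  have : det3 (kC - kA) (kD - kA) v = 2 * Real.sqrt 2 := by
    simp [det3, kA, kC, kD, v]; ring
  rw [this, abs_of_pos (by positivity)]
  ring

end Crest.Agent.H7
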