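import Mathlib
import Crest.Agent.H7.Tetra1

open MeasureTheory Measure Module Set Filter Topology
open scoped ENNReal

namespace Crest.Agent.H7

/-- solve for the sweep parameters -/
lemma sweep_solve (s k x y z : ℝ) (hs : s ^ 2 = 2) (hs0 : 0 < s) (hy1 : s * y ≤ z)
    (hy2 : -(s * y) ≤ z) :
    ∃ t ρ : ℝ, -(s / 2) ≤ t ∧ t ≤ s / 2 ∧ 0 ≤ ρ ∧ ρ ^ 2 = z ^ 2 + 4 * k * x * y + 2 * k ^ 2 * x ^ 2 ∧
      z = ρ - 2 * k * t * x ∧ y = ρ * t - x * (k * (t ^ 2 + 1 / 2)) ∧ t * (z + ρ) = 2 * y + k * x := by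
  have hz : 0 ≤ z := by linarith
  set m := k * x with hm
  have hD : 0 ≤ z ^ 2 + 4 * m * y + 2 * m ^ 2 := by
    rcases le_total 0 m with h | h
    · have : 0 ≤ m * (z + s * y) := mul_nonneg h (by linarith)
      nlinarith [sq_nonneg (z - s * m), mul_nonneg hs0.le this]
    · have : 0 ≤ (-m) * (z - s * y) := mul_nonneg (by linarith) (by linarith)
      nlinarith [sq_nonneg (z + s * m), mul_nonneg hs0.le this]
  set D := z ^ 2 + 4 * m * y + 2 * m ^ 2 with hDdef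
  set ρ := Real.sqrt D with hρ
  have hρ0 : 0 ≤ ρ := Real.sqrt_nonneg _
  have hρ2 : ρ ^ 2 = D := Real.sq_sqrt hD
  have hρ2' : ρ ^ 2 = z ^ 2 + 4 * k * x * y + 2 * k ^ 2 * x ^ 2 := by
    rw [hρ2, hDdef, hm]; ring
  rcases (add_nonneg hz hρ0).eq_or_lt with h0 | h0
  · have hz0 : z = 0 := by linarith
    have hr0 : ρ = 0 := by linarith
    have hy0 : y = 0 := by
      have h1 : s * y ≤ 0 := by rw [← hz0]; exact hy1
      have h2 : 0 ≤ s * y := by linarith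
      have h3 : s * y = 0 := le_antisymm h1 h2
      exact (mul_eq_zero.1 h3).resolve_left hs0.ne'
    have hm0 : m = 0 := by
      have : D = 0 := by rw [← hρ2, hr0]; norm_num
      rw [hDdef, hz0, hy0] at this
      nlinarith
    refine ⟨0, ρ, by linarith, by linarith, hρ0, hρ2', ?_, ?_, ?_⟩
    · rw [hz0, hr0]; ring
    · rw [hy0, hr0]
      have : x * (k * (0 ^ 2 + 1 / 2)) = m / 2 := by rw [hm]; ring
      rw [this, hm0]; ring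
    · rw [hy0, hm0]; ring
  · have key1 : s * (2 * y + m) - z ≤ ρ := by
      rcases le_or_gt (s * (2 * y + m) - z) 0 with h | h
      · linarith
      · apply Real.le_sqrt_of_sq_le
        have hQ : 0 < 2 * y + m := by
          by_contra hc
          push Not at hc
          have : s * (2 * y + m) ≤ 0 := mul_nonpos_of_nonneg_of_nonpos hs0.le hc
          linarith
        have : 0 ≤ (2 * y + m) * (s * (z - s * y)) :=
          mul_nonneg hQ.le (mul_nonneg hs0.le (by linarith))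
        have e : D - (s * (2 * y + m) - z) ^ 2 = 2 * ((2 * y + m) * (s * (z - s * y))) := by
          rw [hDdef]
          linear_combination (-(2 * y + m) ^ 2 + 2 * y * (2 * y + m)) * hs
        linarith
    have key2 : s * (-(2 * y + m)) - z ≤ ρ := by
      rcases le_or_gt (s * (-(2 * y + m)) - z) 0 with h | h
      · linarith
      · apply Real.le_sqrt_of_sq_le
        have hQ : 0 < -(2 * y + m) := by
          by_contra hc
          push Not at hc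
          have : s * (-(2 * y + m)) ≤ 0 := mul_nonpos_of_nonneg_of_nonpos hs0.le hc
          linarith
        have : 0 ≤ (-(2 * y + m)) * (s * (z + s * y)) :=
          mul_nonneg hQ.le (mul_nonneg hs0.le (by linarith))
        have e : D - (s * (-(2 * y + m)) - z) ^ 2 = 2 * ((-(2 * y + m)) * (s * (z + s * y))) := by
          rw [hDdef]
          linear_combination (-(2 * y + m) ^ 2 + 2 * y * (2 * y + m)) * hs
        linarith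
    have ht : (2 * y + m) / (z + ρ) * (z + ρ) = 2 * y + m := div_mul_cancel₀ _ h0.ne'
    set t := (2 * y + m) / (z + ρ) with htdef
    have ht2 : 2 * m * t = ρ - z := by
      have : (2 * m * t - (ρ - z)) * (z + ρ) = 0 := by
        linear_combination 2 * m * ht - hρ2 + hDdef
      rcases mul_eq_zero.1 this with h | h
      · linarith
      · exact absurd h h0.ne'
    refine ⟨t, ρ, ?_, ?_, hρ0, hρ2', ?_, ?_, ht⟩
    · by_contra hc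
      push Not at hc
      have h1 : t * (z + ρ) < -(s / 2) * (z + ρ) := mul_lt_mul_of_pos_right hc h0
      rw [ht] at h1
      nlinarith
    · by_contra hc
      push Not at hc
      have h1 : s / 2 * (z + ρ) < t * (z + ρ) := mul_lt_mul_of_pos_right hc h0
      rw [ht] at h1
      nlinarith
    · have : 2 * k * t * x = 2 * m * t := by rw [hm]; ring
      rw [this, ht2]; ring
    · have e1 : x * (k * (t ^ 2 + 1 / 2)) = m * t * t + m / 2 := by rw [hm]; ring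
      have e2 : m * t = (ρ - z) / 2 := by linarith
      rw [e1, e2]
      linarith

lemma q_lower {k s x y z ρ t e : ℝ} (hk : 0 < k) (hk1 : k ≤ 1 / 2000) (hs : s ^ 2 = 2)
    (hs0 : 0 < s) (hz1 : s / 2 - 3 / 4 * k ≤ z) (hz2 : z ≤ s / 2 + 3 / 4 * k) (hρ0 : 0 ≤ ρ)
    (hρ : ρ ^ 2 ≤ z ^ 2 + k + 2 * k ^ 2 * x ^ 2) (hx : x ^ 2 ≤ 251 / 1000)
    (hy : y ^ 2 ≤ 251 / 1000) (ht : t * (z + ρ) = e) (he : 4 * y ^ 2 - k ≤ e ^ 2) :
    2 * y ^ 2 + 8 * y ^ 4 - 8 * k ≤ t ^ 2 + 2 * t ^ 4 := by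
  have hs1 : 1.414 < s := by nlinarith
  have hs2 : s < 1.415 := by nlinarith
  have hz0 : 0.7 < z := by norm_num at *; linarith
  have h1 : ρ ≤ z + 3 / 4 * k := by
    apply le_of_sq_le_sq _ (by positivity)
    have h2 : k ^ 2 * x ^ 2 ≤ k ^ 2 * (251 / 1000) := mul_le_mul_of_nonneg_left hx (by positivity)
    have h3 : k ^ 2 ≤ k * (1 / 2000) := by nlinarith
    have h4 : k * 0.7 < k * z := mul_lt_mul_of_pos_left hz0 hk
    have hz0' : s / 2 - 3 / 4 * k ≤ z := hz1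
    have h5 : k * (0.706) ≤ k * z := mul_le_mul_of_nonneg_left (by norm_num at *; linarith) hk.le
    nlinarith
  have h2 : z + ρ ≤ s + 9 / 4 * k := by linarith
  have h3 : (z + ρ) ^ 2 ≤ 2 + 6.4 * k := by
    have : (z + ρ) ^ 2 ≤ (s + 9 / 4 * k) ^ 2 := pow_le_pow_left₀ (by linarith) h2 2
    nlinarith
  have h4 : 4 * y ^ 2 - k ≤ t ^ 2 * (2 + 6.4 * k) := by
    calc 4 * y ^ 2 - k ≤ e ^ 2 := he
      _ = t ^ 2 * (z + ρ) ^ 2 := by rw [← ht]; ring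
      _ ≤ t ^ 2 * (2 + 6.4 * k) := mul_le_mul_of_nonneg_left h3 (sq_nonneg t)
  have h5 : 2 * y ^ 2 - 2.2 * k ≤ t ^ 2 := by
    by_contra hc
    push Not at hc
    have h6 : t ^ 2 * (2 + 6.4 * k) < (2 * y ^ 2 - 2.2 * k) * (2 + 6.4 * k) :=
      mul_lt_mul_of_pos_right hc (by positivity)
    have h7 : k * y ^ 2 ≤ k * (251 / 1000) := mul_le_mul_of_nonneg_left hy hk.le
    nlinarith [sq_nonneg k]
  have h6 : 0 ≤ (t ^ 2 - 2 * y ^ 2) ^ 2 := sq_nonneg _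
  have h7 : (2 * y ^ 2 - 2.2 * k) * (1 + 8 * y ^ 2) ≤ t ^ 2 * (1 + 8 * y ^ 2) :=
    mul_le_mul_of_nonneg_right h5 (by positivity)
  have h8 : k * y ^ 2 ≤ k * (251 / 1000) := mul_le_mul_of_nonneg_left hy hk.le
  nlinarith

lemma prod_bounds {s x y z z' : ℝ} (hs : s ^ 2 = 2) (hzz : z + z' = s)
    (hy1 : s * y ≤ z) (hy2 : -(s * y) ≤ z) (hx1 : s * x ≤ z') (hx2 : -(s * x) ≤ z') :
    x * y ≤ 1 / 4 ∧ -(1 / 4) ≤ x * y ∧ 2 * x ^ 2 ≤ z' ^ 2 ∧ 2 * y ^ 2 ≤ z ^ 2 := by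
  have hX : |s * x| ≤ z' := abs_le.2 ⟨by linarith, hx1⟩
  have hY : |s * y| ≤ z := abs_le.2 ⟨by linarith, hy1⟩
  have hz' : 0 ≤ z' := (abs_nonneg _).trans hX
  have hz : 0 ≤ z := (abs_nonneg _).trans hY
  have h1 : |s * x| * |s * y| ≤ z' * z := mul_le_mul hX hY (abs_nonneg _) hz'
  have h2 : |s * x| * |s * y| = 2 * |x * y| := by
    rw [← abs_mul]
    have : s * x * (s * y) = s ^ 2 * (x * y) := by ring
    rw [this, hs, abs_mul]; norm_num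
  have h3 : z' * z ≤ 1 / 2 := by
    have h4 : (z + z') ^ 2 = 2 := by rw [hzz, hs]
    nlinarith [sq_nonneg (z - z')]
  have h4 : |x * y| ≤ 1 / 4 := by linarith
  have h5 := abs_le.1 h4
  refine ⟨h5.2, h5.1, ?_, ?_⟩
  · have : |s * x| ^ 2 ≤ z' ^ 2 := pow_le_pow_left₀ (abs_nonneg _) hX 2
    rw [sq_abs, mul_pow, hs] at this; exact this
  · have : |s * y| ^ 2 ≤ z ^ 2 := pow_le_pow_left₀ (abs_nonneg _) hY 2
    rw [sq_abs, mul_pow, hs] at this; exact this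

lemma z_lower {k s z : ℝ} (hk : 0 < k) (hk1 : k ≤ 1 / 2000) (hs : s ^ 2 = 2) (hs1 : 1.414 < s)
    (hz : 0 ≤ z) (h : 1 / 2 - k - 2 * k ^ 2 < z ^ 2) : s / 2 - 3 / 4 * k ≤ z := by
  by_contra hc
  push Not at hc
  have h1 : z ^ 2 < (s / 2 - 3 / 4 * k) ^ 2 := pow_lt_pow_left₀ hc hz (by norm_num)
  have h2 : (s / 2 - 3 / 4 * k) ^ 2 = 1 / 2 - 3 / 4 * (s * k) + 9 / 16 * k ^ 2 := by
    linear_combination (1 / 4 : ℝ) * hs
  have h3 : 1.414 * k ≤ s * k := mul_le_mul_of_nonneg_right hs1.le hk.le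
  have h4 : k ^ 2 ≤ k * (1 / 2000) := by
    rw [sq]; exact mul_le_mul_of_nonneg_left hk1 hk.le
  rw [h2] at h1
  norm_num at *
  linarith

lemma zeta_bound {k s p θ ζ : ℝ} (hk : 0 < k) (hk1 : k ≤ 1 / 2000) (hs : s ^ 2 = 2)
    (hp1 : p ≤ 1 / 4) (hp2 : -(1 / 4) ≤ p) (hθ : θ = s * ζ + 4 * k * p)
    (hθ1 : -(1.07 * k ^ 2) ≤ θ) (hθ2 : θ ≤ 1.07 * k ^ 2) :
    2 * ζ ^ 2 ≤ 16 * k ^ 2 * p ^ 2 + 2.2 * k ^ 3 := by
  have hk3 : 0 < k ^ 3 := by positivity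
  have hθsq : θ ^ 2 ≤ 1.15 * k ^ 4 := by
    have h1 : θ ^ 2 ≤ (1.07 * k ^ 2) ^ 2 := sq_le_sq' hθ1 hθ2
    have h2 : (1.07 * k ^ 2) ^ 2 = 1.1449 * k ^ 4 := by ring
    have h3 : 0 ≤ k ^ 4 := by positivity
    rw [h2] at h1
    linarith
  have hpθ : -(p * θ) ≤ 0.27 * k ^ 2 := by
    have h1 : |p| * |θ| ≤ 1 / 4 * (1.07 * k ^ 2) :=
      mul_le_mul (abs_le.2 ⟨hp2, hp1⟩) (abs_le.2 ⟨hθ1, hθ2⟩) (abs_nonneg _) (by norm_num)
    rw [← abs_mul] at h1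
    have h2 := neg_abs_le (p * θ)
    have h3 := sq_nonneg k
    linarith
  have e1 : 2 * ζ ^ 2 = (θ - 4 * k * p) ^ 2 := by
    rw [hθ]; linear_combination (-ζ ^ 2) * hs
  rw [e1]
  have e2 : (θ - 4 * k * p) ^ 2 = 16 * k ^ 2 * p ^ 2 + 8 * k * (-(p * θ)) + θ ^ 2 := by ring
  rw [e2]
  have h3 : 8 * k * (-(p * θ)) ≤ 8 * k * (0.27 * k ^ 2) := mul_le_mul_of_nonneg_left hpθ (by positivity)
  have h4 : k ^ 4 ≤ k ^ 3 * (1 / 2000) := by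
    have : k ^ 4 = k ^ 3 * k := by ring
    rw [this]; exact mul_le_mul_of_nonneg_left hk1 hk3.le
  have h5 : 8 * k * (0.27 * k ^ 2) = 2.16 * k ^ 3 := by ring
  rw [h5] at h3
  linarith

/-- the two sweeps together cover the tetrahedron -/
lemma not_both {k s x y z z' ρ ρ' t t' : ℝ} (hk : 0 < k) (hk1 : k ≤ 1 / 2000) (hs : s ^ 2 = 2)
    (hs0 : 0 < s) (hzz : z + z' = s) (hy1 : s * y ≤ z) (hy2 : -(s * y) ≤ z)
    (hx1 : s * x ≤ z') (hx2 : -(s * x) ≤ z') (hρ0 : 0 ≤ ρ) (hρ0' : 0 ≤ ρ')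
    (hρ : ρ ^ 2 = z ^ 2 + 4 * k * x * y + 2 * k ^ 2 * x ^ 2)
    (hρ' : ρ' ^ 2 = z' ^ 2 + 4 * (-k) * y * x + 2 * (-k) ^ 2 * y ^ 2)
    (ht : t * (z + ρ) = 2 * y + k * x) (ht' : t' * (z' + ρ') = 2 * x + (-k) * y) :
    ρ ^ 2 ≤ 1 / 2 + k ^ 2 * (t ^ 2 + 2 * t ^ 4) + 12 * k ^ 3 ∨
      ρ' ^ 2 ≤ 1 / 2 + k ^ 2 * (t' ^ 2 + 2 * t' ^ 4) + 12 * k ^ 3 := by
  by_contra hcon
  push Not at hcon
  obtain ⟨c1, c2⟩ := hcon
  have hs1 : 1.414 < s := by nlinarith only [hs, hs0]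
  have hs2 : s < 1.415 := by nlinarith only [hs, hs0]
  have hz : 0 ≤ z := by linarith
  have hz' : 0 ≤ z' := by linarith
  obtain ⟨hp1, hp2, hx2', hy2'⟩ := prod_bounds hs hzz hy1 hy2 hx1 hx2
  set p := x * y with hp
  have hq : 0 ≤ t ^ 2 + 2 * t ^ 4 := by positivity
  have hq' : 0 ≤ t' ^ 2 + 2 * t' ^ 4 := by positivity
  have d1 : ρ ^ 2 = z ^ 2 + 4 * k * p + 2 * k ^ 2 * x ^ 2 := by rw [hρ, hp]; ring
  have d2 : ρ' ^ 2 = z' ^ 2 - 4 * k * p + 2 * k ^ 2 * y ^ 2 := by rw [hρ', hp]; ring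
  have hkp1 : k * p ≤ k * (1 / 4) := mul_le_mul_of_nonneg_left hp1 hk.le
  have hkp2 : k * (-(1 / 4)) ≤ k * p := mul_le_mul_of_nonneg_left hp2 hk.le
  have hk2q : 0 ≤ k ^ 2 * (t ^ 2 + 2 * t ^ 4) := by positivity
  have hk2q' : 0 ≤ k ^ 2 * (t' ^ 2 + 2 * t' ^ 4) := by positivity
  have hk3 : 0 < k ^ 3 := by positivity
  have hk2 : k ^ 2 ≤ k * (1 / 2000) := by
    rw [sq]; exact mul_le_mul_of_nonneg_left hk1 hk.le
  have hzs : z ≤ s := by linarith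
  have hzs' : z' ≤ s := by linarith
  have hz2s : z ^ 2 ≤ 2 := by rw [← hs]; exact pow_le_pow_left₀ hz hzs 2
  have hz2s' : z' ^ 2 ≤ 2 := by rw [← hs]; exact pow_le_pow_left₀ hz' hzs' 2
  have hx1' : x ^ 2 ≤ 1 := by linarith
  have hy1' : y ^ 2 ≤ 1 := by linarith
  have hkx : k ^ 2 * x ^ 2 ≤ k ^ 2 * 1 := mul_le_mul_of_nonneg_left hx1' (by positivity)
  have hky : k ^ 2 * y ^ 2 ≤ k ^ 2 * 1 := mul_le_mul_of_nonneg_left hy1' (by positivity)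
  have z1 : s / 2 - 3 / 4 * k ≤ z := z_lower hk hk1 hs hs1 hz (by linarith)
  have z2 : s / 2 - 3 / 4 * k ≤ z' := z_lower hk hk1 hs hs1 hz' (by linarith)
  have z3 : z ≤ s / 2 + 3 / 4 * k := by linarith
  have z4 : z' ≤ s / 2 + 3 / 4 * k := by linarith
  have hsk : (s / 2 + 3 / 4 * k) ^ 2 ≤ 0.502 := by
    have e : (s / 2 + 3 / 4 * k) ^ 2 = 1 / 2 + 3 / 4 * (s * k) + 9 / 16 * k ^ 2 := by
      linear_combination (1 / 4 : ℝ) * hs
    have h1 : s * k ≤ 1.415 * k := mul_le_mul_of_nonneg_right hs2.le hk.le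
    rw [e]; norm_num at *; linarith
  have hz2sq : z ^ 2 ≤ 0.502 := (pow_le_pow_left₀ hz z3 2).trans hsk
  have hz2sq' : z' ^ 2 ≤ 0.502 := (pow_le_pow_left₀ hz' z4 2).trans hsk
  have hx3 : x ^ 2 ≤ 251 / 1000 := by norm_num at *; linarith
  have hy3 : y ^ 2 ≤ 251 / 1000 := by norm_num at *; linarith
  have Q1 : 2 * y ^ 2 + 8 * y ^ 4 - 8 * k ≤ t ^ 2 + 2 * t ^ 4 := by
    refine q_lower (x := x) hk hk1 hs hs0 z1 z3 hρ0 ?_ hx3 hy3 ht ?_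
    · rw [d1]; linarith
    · have : (2 * y + k * x) ^ 2 = 4 * y ^ 2 + 4 * (k * p) + (k * x) ^ 2 := by rw [hp]; ring
      rw [this]; linarith [sq_nonneg (k * x)]
  have Q2 : 2 * x ^ 2 + 8 * x ^ 4 - 8 * k ≤ t' ^ 2 + 2 * t' ^ 4 := by
    refine q_lower (x := y) hk hk1 hs hs0 z2 z4 hρ0' ?_ hy3 hx3 ht' ?_
    · rw [d2]; linarith
    · have : (2 * x + (-k) * y) ^ 2 = 4 * x ^ 2 - 4 * (k * p) + (k * y) ^ 2 := by rw [hp]; ring
      rw [this]; linarith [sq_nonneg (k * y)]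
  -- ζ
  obtain ⟨ζ, hζ⟩ : ∃ ζ, ζ = z - s / 2 := ⟨_, rfl⟩
  have ez : z = s / 2 + ζ := by linarith
  have ez' : z' = s / 2 - ζ := by linarith
  have hζ1 : -(3 / 4 * k) ≤ ζ := by linarith
  have hζ2 : ζ ≤ 3 / 4 * k := by linarith
  have hζsq : ζ ^ 2 ≤ 9 / 16 * k ^ 2 := by
    have h1 := sq_le_sq' hζ1 hζ2
    have h2 : (3 / 4 * k) ^ 2 = 9 / 16 * k ^ 2 := by ring
    rw [h2] at h1; exact h1
  obtain ⟨θ, hθ⟩ : ∃ θ, θ = s * ζ + 4 * k * p := ⟨_, rfl⟩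
  have ezz : z ^ 2 = 1 / 2 + s * ζ + ζ ^ 2 := by rw [ez]; linear_combination (1 / 4 : ℝ) * hs
  have ezz' : z' ^ 2 = 1 / 2 - s * ζ + ζ ^ 2 := by rw [ez']; linear_combination (1 / 4 : ℝ) * hs
  have hkx3 : k ^ 2 * x ^ 2 ≤ k ^ 2 * (251 / 1000) := mul_le_mul_of_nonneg_left hx3 (by positivity)
  have hky3 : k ^ 2 * y ^ 2 ≤ k ^ 2 * (251 / 1000) := mul_le_mul_of_nonneg_left hy3 (by positivity)
  have hk20 : 0 ≤ k ^ 2 := sq_nonneg k
  have hθ1 : -(1.07 * k ^ 2) ≤ θ := by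
    have h1 : 1 / 2 < ρ ^ 2 := by linarith
    rw [d1, ezz] at h1
    rw [hθ]
    linarith
  have hθ2 : θ ≤ 1.07 * k ^ 2 := by
    have h1 : 1 / 2 < ρ' ^ 2 := by linarith
    rw [d2, ezz'] at h1
    rw [hθ]
    linarith
  have hζ3 := zeta_bound hk hk1 hs hp1 hp2 hθ hθ1 hθ2
  have hsum : 1 + k ^ 2 * ((t ^ 2 + 2 * t ^ 4) + (t' ^ 2 + 2 * t' ^ 4)) + 24 * k ^ 3 <
      1 + 2 * ζ ^ 2 + 2 * k ^ 2 * (x ^ 2 + y ^ 2) := by
    rw [d1, ezz] at c1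
    rw [d2, ezz'] at c2
    linarith
  have hqq : k ^ 2 * (2 * (x ^ 2 + y ^ 2) + 16 * p ^ 2 - 16 * k) ≤
      k ^ 2 * ((t ^ 2 + 2 * t ^ 4) + (t' ^ 2 + 2 * t' ^ 4)) := by
    apply mul_le_mul_of_nonneg_left _ (by positivity)
    have h1 : 0 ≤ (x ^ 2 - y ^ 2) ^ 2 := sq_nonneg _
    have e : p ^ 2 = x ^ 2 * y ^ 2 := by rw [hp]; ring
    have e2 : (x ^ 2 - y ^ 2) ^ 2 = x ^ 4 - 2 * (x ^ 2 * y ^ 2) + y ^ 4 := by ring
    rw [e2] at h1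
    rw [e]; linarith
  have e5 : k ^ 2 * (2 * (x ^ 2 + y ^ 2) + 16 * p ^ 2 - 16 * k) =
      2 * k ^ 2 * (x ^ 2 + y ^ 2) + 16 * k ^ 2 * p ^ 2 - 16 * k ^ 3 := by ring
  rw [e5] at hqq
  linarith

end Crest.Agent.H7
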