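import Mathlib
import Crest.Agent.H7.Tetra2

open MeasureTheory Measure Module Set Filter Topology
open scoped ENNReal

namespace Crest.Agent.H7

lemma KK_sub : KK ⊆ {x : E3 | Real.sqrt 2 * x 1 ≤ x 2 ∧ -(Real.sqrt 2 * x 1) ≤ x 2 ∧
    Real.sqrt 2 * x 0 ≤ Real.sqrt 2 - x 2 ∧ -(Real.sqrt 2 * x 0) ≤ Real.sqrt 2 - x 2} := by
  have hs0 : 0 < Real.sqrt 2 := by positivity
  rw [KK]
  apply convexHull_min
  · intro x hx
    simp only [mem_insert_iff, mem_singleton_iff] at hx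
    rcases hx with rfl | rfl | rfl | rfl
    · simp [kA, hs0.le]
    · simp [kB, hs0.le]
    · simp [kC, hs0.le]
    · simp [kD, hs0.le]
  · intro x hx y hy a b ha hb hab
    simp only [mem_ofPred_eq, PiLp.add_apply, PiLp.smul_apply, smul_eq_mul] at *
    obtain ⟨x1, x2, x3, x4⟩ := hx
    obtain ⟨y1, y2, y3, y4⟩ := hy
    set s := Real.sqrt 2
    have e : s = a * s + b * s := by rw [← add_mul, hab, one_mul]
    refine ⟨?_, ?_, ?_, ?_⟩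
    · linarith [mul_le_mul_of_nonneg_left x1 ha, mul_le_mul_of_nonneg_left y1 hb]
    · linarith [mul_le_mul_of_nonneg_left x2 ha, mul_le_mul_of_nonneg_left y2 hb]
    · linarith [mul_le_mul_of_nonneg_left x3 ha, mul_le_mul_of_nonneg_left y3 hb]
    · linarith [mul_le_mul_of_nonneg_left x4 ha, mul_le_mul_of_nonneg_left y4 hb]

/-- the tilt vector -/
noncomputable def wv (k t : ℝ) (a b : E3) : E3 := (-(k * (t ^ 2 + 1 / 2))) • b + (-(2 * k * t)) • a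

lemma wv_perp {e a b : E3} (k t : ℝ) (ha : inner ℝ a e = 0) (hb : inner ℝ b e = 0) :
    inner ℝ (wv k t a b) e = 0 := by
  rw [wv, inner_add_left, inner_smul_left, inner_smul_left, ha, hb]; simp

lemma wv_norm {a b : E3} (k t : ℝ) (ha : ‖a‖ = 1) (hb : ‖b‖ = 1) (hab : inner ℝ a b = 0) :
    ‖wv k t a b‖ ^ 2 = k ^ 2 * (t ^ 4 + 5 * t ^ 2 + 1 / 4) := by
  rw [wv, norm_add_sq_real, norm_smul, norm_smul, inner_smul_left, inner_smul_right,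
    real_inner_comm, hab, ha, hb, Real.norm_eq_abs, Real.norm_eq_abs, mul_one, mul_one, sq_abs,
    sq_abs]
  simp only [conj_trivial]; ring

lemma wv_sub (k t c : ℝ) (a b : E3) :
    wv k t a b = wv k c a b + ((-(2 * k * (t - c))) • a + (-(k * (t ^ 2 - c ^ 2))) • b) := by
  rw [wv, wv]; module

/-- radial profile bound function -/
noncomputable def qf (t : ℝ) : ℝ := t ^ 2 + 2 * t ^ 4

lemma qf_lip {s t c Δ : ℝ} (hs : s ^ 2 = 2) (hs1 : s < 1.415) (hs0 : 0 < s)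
    (ht : t ∈ Icc (-(s / 2)) (s / 2))
    (hc : c ∈ Icc (-(s / 2)) (s / 2)) (hd : |t - c| ≤ Δ) : qf t ≤ qf c + 4.3 * Δ := by
  have h1 : qf t - qf c = (t - c) * ((t + c) * (1 + 2 * (t ^ 2 + c ^ 2))) := by
    rw [qf, qf]; ring
  have ht2 : t ^ 2 ≤ 1 / 2 := by
    have := sq_le_sq' ht.1 ht.2
    have e : (s / 2) ^ 2 = 1 / 2 := by linear_combination (1 / 4 : ℝ) * hs
    rwa [e] at this
  have hc2 : c ^ 2 ≤ 1 / 2 := by
    have := sq_le_sq' hc.1 hc.2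
    have e : (s / 2) ^ 2 = 1 / 2 := by linear_combination (1 / 4 : ℝ) * hs
    rwa [e] at this
  have h2 : |(t + c) * (1 + 2 * (t ^ 2 + c ^ 2))| ≤ s * 3 := by
    rw [abs_mul]
    apply mul_le_mul _ _ (abs_nonneg _) hs0.le
    · rw [abs_le]; constructor <;> linarith [ht.1, ht.2, hc.1, hc.2]
    · rw [abs_of_nonneg (by positivity)]; linarith
  have h3 : qf t - qf c ≤ Δ * (s * 3) := by
    rw [h1]
    refine (le_abs_self _).trans ?_
    rw [abs_mul]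
    exact mul_le_mul hd h2 (abs_nonneg _) ((abs_nonneg _).trans hd)
  have h4 : 0 ≤ Δ := (abs_nonneg _).trans hd
  nlinarith

/-- the sector radius -/
lemma radius_ok {k s t c ρ Δ h : ℝ} (hk : 0 < k) (hk1 : k ≤ 1 / 2000) (hs : s ^ 2 = 2)
    (hs1 : s < 1.415) (hs0 : 0 < s) (ht : t ∈ Icc (-(s / 2)) (s / 2))
    (hc : c ∈ Icc (-(s / 2)) (s / 2)) (hd : |t - c| ≤ Δ) (hΔ : Δ ≤ 0.71 * k ^ 2)
    (hρ0 : 0 ≤ ρ) (hρ : ρ ^ 2 ≤ 1 / 2 + k ^ 2 * qf t + 12 * k ^ 3)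
    (hh0 : 0 ≤ h) (hh : 1 / 2 + k ^ 2 * qf c + 20 * k ^ 3 ≤ h ^ 2) : ρ + 6 * k * Δ ≤ h := by
  have hΔ0 : 0 ≤ Δ := (abs_nonneg _).trans hd
  have hk2 : k ^ 2 ≤ 1 / 4000000 := by nlinarith only [hk, hk1]
  have hk3 : k ^ 3 ≤ k ^ 2 * (1 / 2000) := by
    have : k ^ 3 = k ^ 2 * k := by ring
    rw [this]; exact mul_le_mul_of_nonneg_left hk1 (sq_nonneg k)
  have ht2 : t ^ 2 ≤ 1 / 2 := by
    have := sq_le_sq' ht.1 ht.2
    have e : (s / 2) ^ 2 = 1 / 2 := by linear_combination (1 / 4 : ℝ) * hs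
    rwa [e] at this
  have hqt : qf t ≤ 1 := by
    rw [qf]
    have : t ^ 4 ≤ 1 / 4 := by
      have e : t ^ 4 = t ^ 2 * t ^ 2 := by ring
      rw [e]
      calc t ^ 2 * t ^ 2 ≤ (1 / 2) * (1 / 2) := mul_le_mul ht2 ht2 (sq_nonneg t) (by norm_num)
        _ = 1 / 4 := by norm_num
    linarith
  have hkq : k ^ 2 * qf t ≤ k ^ 2 * 1 := mul_le_mul_of_nonneg_left hqt (sq_nonneg k)
  have hρ1 : ρ ≤ 3 / 4 := by
    apply le_of_sq_le_sq _ (by norm_num)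
    linarith
  apply le_of_sq_le_sq _ hh0
  have hl := qf_lip hs hs1 hs0 ht hc hd
  have hl2 : k ^ 2 * qf t ≤ k ^ 2 * (qf c + 4.3 * Δ) := mul_le_mul_of_nonneg_left hl (sq_nonneg k)
  have hkΔ : k ^ 2 * Δ ≤ k ^ 2 * (0.71 * k ^ 2) := mul_le_mul_of_nonneg_left hΔ (sq_nonneg k)
  have hk4 : k ^ 4 ≤ k ^ 3 * (1 / 2000) := by
    have : k ^ 4 = k ^ 3 * k := by ring
    rw [this]; exact mul_le_mul_of_nonneg_left hk1 (by positivity)
  have h5 : k * Δ ≤ k * (0.71 * k ^ 2) := mul_le_mul_of_nonneg_left hΔ hk.le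
  have h5' : 0 ≤ k * Δ := by positivity
  have h6 : (k * Δ) * ρ ≤ (k * (0.71 * k ^ 2)) * (3 / 4) := mul_le_mul h5 hρ1 hρ0 (by positivity)
  have h7 : (k * Δ) ^ 2 ≤ (k * (0.71 * k ^ 2)) ^ 2 := pow_le_pow_left₀ h5' h5 2
  have h8 : (k * (0.71 * k ^ 2)) ^ 2 ≤ k ^ 3 * (1 / 2000) := by
    have e : (k * (0.71 * k ^ 2)) ^ 2 = k ^ 3 * (0.5041 * (k ^ 2 * k)) := by ring
    rw [e]
    apply mul_le_mul_of_nonneg_left _ (by positivity)
    have : k ^ 2 * k ≤ 1 / 4000000 * (1 / 2000) := mul_le_mul hk2 hk1 hk.le (by norm_num)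
    linarith
  have e : (ρ + 6 * k * Δ) ^ 2 = ρ ^ 2 + 12 * ((k * Δ) * ρ) + 36 * (k * Δ) ^ 2 := by ring
  rw [e]
  have e2 : k * (0.71 * k ^ 2) * (3 / 4) = 0.5325 * k ^ 3 := by ring
  have e3 : k ^ 2 * (0.71 * k ^ 2) = 0.71 * k ^ 4 := by ring
  rw [e2] at h6
  rw [e3] at hkΔ
  have hk30 : 0 < k ^ 3 := by positivity
  linarith

/-- coverage of a sweep point of one half by a sector -/
lemma half_mem {e a b p₀ : E3}
    {k s p q t c ρ σ K h : ℝ} (hk : 0 < k) (hk1 : k ≤ 1 / 2000) (hs : s ^ 2 = 2)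
    (hs1 : s < 1.415) (hs0 : 0 < s) (hK : |K| = k)
    (hp : -(s / 2) ≤ p) (hq : q ≤ s / 2) (hpq : p < q)
    (hΔ : q - p ≤ 0.71 * k ^ 2) (hc : c ∈ Icc p q) (ht : t ∈ Icc p q)
    (hρ0 : 0 ≤ ρ) (hρ : ρ ^ 2 ≤ 1 / 2 + k ^ 2 * qf t + 12 * k ^ 3) (hσ : |σ| ≤ 1)
    (hh0 : 0 < h) (hh : 1 / 2 + k ^ 2 * qf c + 20 * k ^ 3 ≤ h ^ 2) :
    ∃ y ∈ convexHull ℝ {sv0 (e + wv K c a b) (p₀ - (2 * 1 * (2 * k) * (q - p)) • a - (1 * (2 * k) * (q - p) * (p + q)) • b),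
        sv1 (e + wv K c a b) (p₀ - (2 * 1 * (2 * k) * (q - p)) • a - (1 * (2 * k) * (q - p) * (p + q)) • b) a b p h,
        sv1 (e + wv K c a b) (p₀ - (2 * 1 * (2 * k) * (q - p)) • a - (1 * (2 * k) * (q - p) * (p + q)) • b) a b q h},
      ∃ σ' : ℝ, p₀ + ρ • (a + t • b) + σ • (e + wv K t a b) = y + σ' • (e + wv K c a b) := by
  have htc : |t - c| ≤ q - p := by
    rw [abs_le]; constructor <;> linarith [hc.1, hc.2, ht.1, ht.2]
  have hd : 0 < q - p := by linarith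
  refine sweep_mem (τ := t) (A := -(2 * K * (t - c))) (B := -(K * (t ^ 2 - c ^ 2)))
    (Rm := h - 6 * k * (q - p)) hpq ht hρ0 ?_ hσ ?_ ?_ ?_ ?_ hh0 ?_
  · have := radius_ok (Δ := q - p) hk hk1 hs hs1 hs0 (t := t) (c := c)
      ⟨by linarith [ht.1], by linarith [ht.2]⟩
      ⟨by linarith [hc.1], by linarith [hc.2]⟩ htc hΔ hρ0 hρ hh0.le hh
    linarith
  · rw [wv_sub K t c]; abel
  · rw [abs_neg, abs_mul, abs_mul, hK]
    rw [abs_of_pos (by norm_num : (0:ℝ) < 2)]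
    gcongr
  · have e1 : -(K * (t ^ 2 - c ^ 2)) - p * -(2 * K * (t - c)) =
        -(K * ((t - c) * (t + c - 2 * p))) := by ring
    rw [e1, abs_neg, abs_mul, abs_mul, hK]
    have h2 : |t + c - 2 * p| ≤ 2 * (q - p) := by
      rw [abs_le]; constructor <;> linarith [hc.1, hc.2, ht.1, ht.2]
    calc k * (|t - c| * |t + c - 2 * p|) ≤ k * ((q - p) * (2 * (q - p))) := by gcongr
      _ = 2 * k * (q - p) ^ 2 := by ring
  · have e1 : -(K * (t ^ 2 - c ^ 2)) - q * -(2 * K * (t - c)) =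
        -(K * ((t - c) * (t + c - 2 * q))) := by ring
    rw [e1, abs_neg, abs_mul, abs_mul, hK]
    have h2 : |t + c - 2 * q| ≤ 2 * (q - p) := by
      rw [abs_le]; constructor <;> linarith [hc.1, hc.2, ht.1, ht.2]
    calc k * (|t - c| * |t + c - 2 * q|) ≤ k * ((q - p) * (2 * (q - p))) := by gcongr
      _ = 2 * k * (q - p) ^ 2 := by ring
  · linarith

/-- the primitive used in the area sum -/
noncomputable def gf (t : ℝ) : ℝ := 7 / 4 * t ^ 4 - t ^ 2 / 4 - 1 / 16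
noncomputable def Gf (t : ℝ) : ℝ := 7 / 20 * t ^ 5 - t ^ 3 / 12 - t / 16

lemma Gf_step {t Δ : ℝ} (ht : |t| ≤ 0.71) (hΔ0 : 0 < Δ) (hΔ : Δ ≤ 0.001) :
    Δ * gf t ≤ Gf (t + Δ) - Gf t + 2 * Δ ^ 2 := by
  have e : Gf (t + Δ) - Gf t + 2 * Δ ^ 2 - Δ * gf t = Δ ^ 2 * (7 / 2 * t ^ 3 + 7 / 2 * t ^ 2 * Δ +
      7 / 4 * t * Δ ^ 2 + 7 / 20 * Δ ^ 3 - t / 4 - Δ / 12 + 2) := by
    rw [Gf, Gf, gf]; ring
  have h3 : |t ^ 3| ≤ 0.36 := by
    rw [abs_pow]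
    calc |t| ^ 3 ≤ 0.71 ^ 3 := pow_le_pow_left₀ (abs_nonneg _) ht 3
      _ ≤ 0.36 := by norm_num
  have h4 := abs_le.1 h3
  have h5 := abs_le.1 ht
  have h6 : |t * Δ ^ 2| ≤ 0.71 * (0.001) ^ 2 := by
    rw [abs_mul, abs_of_pos (by positivity : 0 < Δ ^ 2)]
    exact mul_le_mul ht (pow_le_pow_left₀ hΔ0.le hΔ 2) (by positivity) (by norm_num)
  have h7 := abs_le.1 h6
  have h8 : 0 ≤ t ^ 2 * Δ := by positivity
  have h9 : 0 < Δ ^ 3 := by positivity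
  have : 0 ≤ Δ ^ 2 * (7 / 2 * t ^ 3 + 7 / 2 * t ^ 2 * Δ +
      7 / 4 * t * Δ ^ 2 + 7 / 20 * Δ ^ 3 - t / 4 - Δ / 12 + 2) := by
    apply mul_nonneg (by positivity)
    norm_num at *
    linarith
  linarith

/-- bound of a single sector area -/
lemma area_bound {k c W : ℝ} (hk : 0 < k) (hk1 : k ≤ 1 / 2000) (hc : c ^ 2 ≤ 1 / 2)
    (hW : W = k ^ 2 * (c ^ 4 + 5 * c ^ 2 + 1 / 4)) :
    (1 / 2 + k ^ 2 * qf c + 20 * k ^ 3) / (2 * Real.sqrt (1 + W)) ≤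
      (1 / 2 + k ^ 2 * gf c + 20 * k ^ 3 + 2 * k ^ 4) / 2 := by
  have hc0 : 0 ≤ c ^ 2 := sq_nonneg c
  have hc4 : c ^ 4 ≤ 1 / 4 := by
    have e : c ^ 4 = c ^ 2 * c ^ 2 := by ring
    rw [e]
    calc c ^ 2 * c ^ 2 ≤ (1 / 2) * (1 / 2) := mul_le_mul hc hc (sq_nonneg c) (by norm_num)
      _ = 1 / 4 := by norm_num
  have hc40 : 0 ≤ c ^ 4 := by positivity
  set g := c ^ 4 + 5 * c ^ 2 + 1 / 4 with hg
  have hg0 : 0 ≤ g := by positivity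
  have hg3 : g ≤ 3 := by linarith
  have hk2 : k ^ 2 ≤ 1 / 4000000 := by nlinarith only [hk, hk1]
  have hk20 : 0 < k ^ 2 := by positivity
  have hW0 : 0 ≤ W := by rw [hW]; positivity
  have hW1 : W ≤ 1 := by
    rw [hW]
    calc k ^ 2 * g ≤ 1 / 4000000 * 3 := mul_le_mul hk2 hg3 hg0 (by norm_num)
      _ ≤ 1 := by norm_num
  have hsq : 1 + W / 2 - W ^ 2 / 8 ≤ Real.sqrt (1 + W) := by
    apply Real.le_sqrt_of_sq_le
    have e : (1 + W / 2 - W ^ 2 / 8) ^ 2 = 1 + W - W ^ 3 * (1 / 8 - W / 64) := by ring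
    rw [e]
    have : 0 ≤ W ^ 3 * (1 / 8 - W / 64) := mul_nonneg (by positivity) (by linarith)
    linarith
  have hS : 0 < Real.sqrt (1 + W) := Real.sqrt_pos.2 (by linarith)
  have hgf : gf c = qf c - g / 4 := by rw [gf, qf, hg]; ring
  have hgf1 : -(3 / 16) ≤ gf c := by rw [gf]; linarith
  have hk3 : k ^ 3 ≤ k ^ 2 * (1 / 2000) := by
    have : k ^ 3 = k ^ 2 * k := by ring
    rw [this]; exact mul_le_mul_of_nonneg_left hk1 (sq_nonneg k)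
  have hk30 : 0 < k ^ 3 := by positivity
  have hk40 : 0 < k ^ 4 := by positivity
  set Y := 1 / 2 + k ^ 2 * gf c + 20 * k ^ 3 + 2 * k ^ 4 with hY
  have hY0 : 0 ≤ Y := by
    have : k ^ 2 * (-(3 / 16)) ≤ k ^ 2 * gf c := mul_le_mul_of_nonneg_left hgf1 hk20.le
    linarith
  have hgf2 : gf c ≤ 1 := by rw [gf]; linarith
  have hY1 : Y ≤ 1 := by
    have : k ^ 2 * gf c ≤ k ^ 2 * 1 := mul_le_mul_of_nonneg_left hgf2 hk20.le
    have h4 : k ^ 4 ≤ k ^ 2 := by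
      have e : k ^ 4 = k ^ 2 * k ^ 2 := by ring
      rw [e]; nlinarith only [hk2, hk20]
    linarith
  have key : 1 / 2 + k ^ 2 * qf c + 20 * k ^ 3 ≤ Y * Real.sqrt (1 + W) := by
    calc 1 / 2 + k ^ 2 * qf c + 20 * k ^ 3 ≤ Y * (1 + W / 2 - W ^ 2 / 8) := by
          have e1 : Y * (1 + W / 2 - W ^ 2 / 8) = Y + W / 4 + (Y - 1 / 2) * (W / 2) - Y * (W ^ 2 / 8) := by
            ring
          have e2 : Y + W / 4 = 1 / 2 + k ^ 2 * qf c + 20 * k ^ 3 + 2 * k ^ 4 := by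
            rw [hY, hW, hgf]; ring
          have e3 : -(3 / 16 * k ^ 2) ≤ Y - 1 / 2 := by
            have : k ^ 2 * (-(3 / 16)) ≤ k ^ 2 * gf c := mul_le_mul_of_nonneg_left hgf1 hk20.le
            rw [hY]; linarith
          have e4 : -(3 / 16 * k ^ 2) * (W / 2) ≤ (Y - 1 / 2) * (W / 2) :=
            mul_le_mul_of_nonneg_right e3 (by linarith)
          have e5 : W ≤ 3 * k ^ 2 := by
            rw [hW]
            calc k ^ 2 * g ≤ k ^ 2 * 3 := mul_le_mul_of_nonneg_left hg3 hk20.le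
              _ = 3 * k ^ 2 := by ring
          have e6 : k ^ 2 * W ≤ k ^ 2 * (3 * k ^ 2) := mul_le_mul_of_nonneg_left e5 hk20.le
          have e7 : W ^ 2 ≤ (3 * k ^ 2) ^ 2 := pow_le_pow_left₀ hW0 e5 2
          have e8 : Y * (W ^ 2 / 8) ≤ 1 * (W ^ 2 / 8) := mul_le_mul_of_nonneg_right hY1 (by positivity)
          have e9 : k ^ 2 * (3 * k ^ 2) = 3 * k ^ 4 := by ring
          have e10 : (3 * k ^ 2) ^ 2 = 9 * k ^ 4 := by ring
          rw [e9] at e6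
          rw [e10] at e7
          rw [e1, e2]
          linarith
      _ ≤ Y * Real.sqrt (1 + W) := mul_le_mul_of_nonneg_left hsq hY0
  rw [div_le_div_iff₀ (by positivity) (by norm_num)]
  linarith

end Crest.Agent.H7
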