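import Mathlib
import Crest.Agent.H7.Tetra3
import Crest.Agent.H7.Riemann

open MeasureTheory Measure Module Set Filter Topology
open scoped ENNReal

namespace Crest.Agent.H7

noncomputable def eV : Fin 2 → E3 := ![!₂[1, 0, 0], !₂[0, 1, 0]]
noncomputable def aV : Fin 2 → E3 := ![!₂[0, 0, 1], !₂[0, 0, -1]]
noncomputable def bV : Fin 2 → E3 := ![!₂[0, 1, 0], !₂[1, 0, 0]]
noncomputable def pV : Fin 2 → E3 := ![0, !₂[0, 0, Real.sqrt 2]]
noncomputable def KV (k : ℝ) : Fin 2 → ℝ := ![k, -k]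

lemma norm_one_of_sq {x : E3} (h : x 0 ^ 2 + x 1 ^ 2 + x 2 ^ 2 = 1) : ‖x‖ = 1 := by
  rw [← sq_eq_sq₀ (norm_nonneg _) zero_le_one, normsq3, h]; norm_num

lemma eV_norm (j : Fin 2) : ‖eV j‖ = 1 := by
  apply norm_one_of_sq; fin_cases j <;> simp [eV]
lemma aV_norm (j : Fin 2) : ‖aV j‖ = 1 := by
  apply norm_one_of_sq; fin_cases j <;> simp [aV]
lemma bV_norm (j : Fin 2) : ‖bV j‖ = 1 := by
  apply norm_one_of_sq; fin_cases j <;> simp [bV]
lemma ae_perp (j : Fin 2) : inner ℝ (aV j) (eV j) = 0 := by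
  rw [inner3]; fin_cases j <;> simp [aV, eV]
lemma be_perp (j : Fin 2) : inner ℝ (bV j) (eV j) = 0 := by
  rw [inner3]; fin_cases j <;> simp [bV, eV]
lemma ab_perp (j : Fin 2) : inner ℝ (aV j) (bV j) = 0 := by
  rw [inner3]; fin_cases j <;> simp [aV, bV]
lemma KV_abs {k : ℝ} (hk : 0 < k) (j : Fin 2) : |KV k j| = k := by
  fin_cases j <;> simp [KV, hk.le]
lemma KV_sq (k : ℝ) (j : Fin 2) : KV k j ^ 2 = k ^ 2 := by
  fin_cases j <;> simp [KV]

/-- uniform partition -/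
noncomputable def TT (N : ℕ) (i : Fin (N + 1)) : ℝ := -(Real.sqrt 2 / 2) + i * (Real.sqrt 2 / N)

lemma TT_diff (N : ℕ) (i : Fin N) : TT N i.succ - TT N i.castSucc = Real.sqrt 2 / N := by
  simp only [TT, Fin.val_succ, Fin.val_castSucc, Nat.cast_add, Nat.cast_one]; ring

lemma TT_zero (N : ℕ) : TT N 0 = -(Real.sqrt 2 / 2) := by simp [TT]

lemma TT_last {N : ℕ} (hN : 0 < N) : TT N (Fin.last N) = Real.sqrt 2 / 2 := by
  have : (N : ℝ) ≠ 0 := by positivity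
  simp only [TT, Fin.val_last]
  field_simp; norm_num

lemma TT_mono {N : ℕ} (hN : 0 < N) : StrictMono (TT N) := by
  intro i j hij
  simp only [TT]
  have h1 : (0:ℝ) < Real.sqrt 2 / N := by positivity
  have h2 : ((i : ℕ) : ℝ) < ((j : ℕ) : ℝ) := by exact_mod_cast hij
  have := mul_lt_mul_of_pos_right h2 h1
  linarith

noncomputable def nI (k : ℝ) (N : ℕ) (i : Fin 2 × Fin N) : E3 :=
  eV i.1 + wv (KV k i.1) (TT N i.2.castSucc) (aV i.1) (bV i.1)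

noncomputable def oI (k : ℝ) (N : ℕ) (i : Fin 2 × Fin N) : E3 :=
  pV i.1 - (2 * 1 * (2 * k) * (TT N i.2.succ - TT N i.2.castSucc)) • aV i.1 -
    (1 * (2 * k) * (TT N i.2.succ - TT N i.2.castSucc) * (TT N i.2.castSucc + TT N i.2.succ)) • bV i.1

noncomputable def BI (k : ℝ) (N : ℕ) (i : Fin 2 × Fin N) : ℝ :=
  1 / 2 + k ^ 2 * qf (TT N i.2.castSucc) + 20 * k ^ 3

noncomputable def SI (k : ℝ) (N : ℕ) (i : Fin 2 × Fin N) : ℝ :=
  Real.sqrt (1 + ‖wv (KV k i.1) (TT N i.2.castSucc) (aV i.1) (bV i.1)‖ ^ 2)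

lemma sqrt2_facts : Real.sqrt 2 ^ 2 = 2 ∧ 0 < Real.sqrt 2 ∧ 1.414 < Real.sqrt 2 ∧
    Real.sqrt 2 < 1.415 := by
  have hs : Real.sqrt 2 ^ 2 = 2 := Real.sq_sqrt (by norm_num)
  have hs0 : 0 < Real.sqrt 2 := by positivity
  set s := Real.sqrt 2
  exact ⟨hs, hs0, by nlinarith only [hs, hs0], by nlinarith only [hs, hs0]⟩

lemma TT_sq {N : ℕ} (hN : 0 < N) (i : Fin (N + 1)) : TT N i ^ 2 ≤ 1 / 2 ∧
    -(Real.sqrt 2 / 2) ≤ TT N i ∧ TT N i ≤ Real.sqrt 2 / 2 := by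
  obtain ⟨hs, hs0, -, -⟩ := sqrt2_facts
  have h := mesh_mem (TT_mono hN) (TT_zero N) (TT_last hN) i
  refine ⟨?_, h.1, h.2⟩
  have := sq_le_sq' h.1 h.2
  have e : (Real.sqrt 2 / 2) ^ 2 = 1 / 2 := by linear_combination (1 / 4 : ℝ) * hs
  rwa [e] at this

lemma cover_aux {k : ℝ} (hk : 0 < k) (hk1 : k ≤ 1 / 2000) {N : ℕ} (hN : 0 < N)
    (hΔ : Real.sqrt 2 / N ≤ 0.71 * k ^ 2) (h : Fin 2 × Fin N → ℝ)
    (hh0 : ∀ i, 0 < h i) (hh : ∀ i, BI k N i ≤ h i ^ 2) :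
    KK ⊆ ⋃ i, {x : E3 | ∃ y ∈ convexHull ℝ {sv0 (nI k N i) (oI k N i),
      sv1 (nI k N i) (oI k N i) (aV i.1) (bV i.1) (TT N i.2.castSucc) (h i),
      sv1 (nI k N i) (oI k N i) (aV i.1) (bV i.1) (TT N i.2.succ) (h i)}, ∃ σ : ℝ,
        x = y + σ • nI k N i} := by
  obtain ⟨hs, hs0, hs1, hs2⟩ := sqrt2_facts
  intro X hX
  obtain ⟨y1, y2, x1, x2⟩ := KK_sub hX
  obtain ⟨z', hz'⟩ : ∃ z', z' = Real.sqrt 2 - X 2 := ⟨_, rfl⟩
  rw [← hz'] at x1 x2
  obtain ⟨t, ρ, ht1, ht2, hρ0, hρ, e1, e2, e3⟩ :=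
    sweep_solve (Real.sqrt 2) k (X 0) (X 1) (X 2) hs hs0 y1 y2
  obtain ⟨t', ρ', ht1', ht2', hρ0', hρ', e1', e2', e3'⟩ :=
    sweep_solve (Real.sqrt 2) (-k) (X 1) (X 0) z' hs hs0 x1 x2
  have hx0 : |X 0| ≤ 1 := by
    rw [abs_le]
    have hz : 0 ≤ X 2 := by linarith
    constructor
    · by_contra hc
      push Not at hc
      nlinarith only [hc, x2, hz, hz', hs0]
    · by_contra hc
      push Not at hc
      nlinarith only [hc, x1, hz, hz', hs0]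
  have hy0 : |X 1| ≤ 1 := by
    rw [abs_le]
    have hz : 0 ≤ z' := by linarith
    constructor
    · by_contra hc
      push Not at hc
      nlinarith only [hc, y2, hz, hz', hs0]
    · by_contra hc
      push Not at hc
      nlinarith only [hc, y1, hz, hz', hs0]
  rcases not_both hk hk1 hs hs0 (by linarith) y1 y2 x1 x2 hρ0 hρ0' hρ hρ' e3 e3' with hcase | hcase
  · obtain ⟨i, hi⟩ := exists_piece (TT_zero N) (TT_last hN) (by linarith) (τ := t) ⟨ht1, ht2⟩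
    refine mem_iUnion.2 ⟨(0, i), ?_⟩
    have hlt := TT_mono hN (i.castSucc_lt_succ)
    obtain ⟨y, hy, σ', hσ⟩ := half_mem (e := eV 0) (a := aV 0) (b := bV 0) (p₀ := pV 0) (k := k)
      (K := KV k 0) (s := Real.sqrt 2) (σ := X 0) hk hk1 hs hs2 hs0 (KV_abs hk 0) (TT_sq hN _).2.1
      (TT_sq hN _).2.2 hlt (by rw [TT_diff]; exact hΔ) (c := TT N i.castSucc) ⟨le_rfl, hlt.le⟩ hi hρ0
      hcase hx0 (hh0 (0, i)) (hh (0, i))
    refine ⟨y, hy, σ', ?_⟩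
    change X = y + σ' • (eV 0 + wv (KV k 0) (TT N i.castSucc) (aV 0) (bV 0))
    rw [← hσ]
    ext j
    fin_cases j
    · simp [pV, aV, bV, eV, wv, KV]
    · simp [pV, aV, bV, eV, wv, KV]
      linarith
    · simp [pV, aV, bV, eV, wv, KV]
      linarith
  · obtain ⟨i, hi⟩ := exists_piece (TT_zero N) (TT_last hN) (by linarith) (τ := t') ⟨ht1', ht2'⟩
    refine mem_iUnion.2 ⟨(1, i), ?_⟩
    have hlt := TT_mono hN (i.castSucc_lt_succ)
    obtain ⟨y, hy, σ', hσ⟩ := half_mem (e := eV 1) (a := aV 1) (b := bV 1) (p₀ := pV 1) (k := k)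
      (K := KV k 1) (s := Real.sqrt 2) (σ := X 1) hk hk1 hs hs2 hs0 (KV_abs hk 1) (TT_sq hN _).2.1
      (TT_sq hN _).2.2 hlt (by rw [TT_diff]; exact hΔ) (c := TT N i.castSucc) ⟨le_rfl, hlt.le⟩ hi hρ0'
      hcase hy0 (hh0 (1, i)) (hh (1, i))
    refine ⟨y, hy, σ', ?_⟩
    change X = y + σ' • (eV 1 + wv (KV k 1) (TT N i.castSucc) (aV 1) (bV 1))
    rw [← hσ]
    ext j
    fin_cases j
    · simp [pV, aV, bV, eV, wv, KV]
      linarith
    · simp [pV, aV, bV, eV, wv, KV]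
    · simp [pV, aV, bV, eV, wv, KV]
      linarith

lemma sum_area_bound {k : ℝ} (hk : 0 < k) (hk1 : k ≤ 1 / 2000) {N : ℕ} (hN : 0 < N)
    (hΔ : Real.sqrt 2 / N ≤ 0.71 * k ^ 2) :
    ∑ i : Fin 2 × Fin N, Real.sqrt 2 / N * (BI k N i / (2 * SI k N i)) ≤
      Real.sqrt 2 * (1 / 2 - 13 / 6000 * k ^ 2) := by
  obtain ⟨hs, hs0, hs1, hs2⟩ := sqrt2_facts
  have hN0 : (0:ℝ) < N := by exact_mod_cast hN
  have hΔ0 : 0 < Real.sqrt 2 / N := by positivity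
  have hk2 : k ^ 2 ≤ 1 / 4000000 := by nlinarith only [hk, hk1]
  have hk20 : 0 < k ^ 2 := by positivity
  have step : ∀ i : Fin 2 × Fin N, Real.sqrt 2 / N * (BI k N i / (2 * SI k N i)) ≤
      (Real.sqrt 2 / N * (1 / 2 + 20 * k ^ 3 + 2 * k ^ 4) +
        k ^ 2 * (Gf (TT N i.2.succ) - Gf (TT N i.2.castSucc) + 2 * (Real.sqrt 2 / N) ^ 2)) / 2 := by
    intro i
    have h1 := area_bound (c := TT N i.2.castSucc) hk hk1 (TT_sq hN _).1
      (W := ‖wv (KV k i.1) (TT N i.2.castSucc) (aV i.1) (bV i.1)‖ ^ 2)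
      (by rw [wv_norm _ _ (aV_norm _) (bV_norm _) (ab_perp _), KV_sq])
    have h2 : BI k N i / (2 * SI k N i) ≤ (1 / 2 + k ^ 2 * gf (TT N i.2.castSucc) + 20 * k ^ 3 + 2 * k ^ 4) / 2 := h1
    have h3 : |TT N i.2.castSucc| ≤ 0.71 := by
      have := (TT_sq hN i.2.castSucc).2
      rw [abs_le]; constructor <;> norm_num at * <;> linarith
    have h4 := Gf_step h3 hΔ0 (by norm_num at *; linarith)
    have h5 : TT N i.2.castSucc + Real.sqrt 2 / N = TT N i.2.succ := by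
      rw [← TT_diff N i.2]; ring
    rw [h5] at h4
    have h6 := mul_le_mul_of_nonneg_left h2 hΔ0.le
    have h7 := mul_le_mul_of_nonneg_left h4 hk20.le
    linarith
  have hsum := Finset.sum_le_sum (fun i (_ : i ∈ Finset.univ) => step i)
  refine hsum.trans ?_
  have c1 : ∑ i : Fin 2 × Fin N, Real.sqrt 2 / N * (1 / 2 + 20 * k ^ 3 + 2 * k ^ 4) =
      2 * (Real.sqrt 2 * (1 / 2 + 20 * k ^ 3 + 2 * k ^ 4)) := by
    rw [Finset.sum_const, Finset.card_univ, Fintype.card_prod, Fintype.card_fin, Fintype.card_fin,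
      nsmul_eq_mul]
    push_cast
    field_simp
  have c2 : ∑ i : Fin 2 × Fin N, 2 * (Real.sqrt 2 / N) ^ 2 = 4 * (Real.sqrt 2 * (Real.sqrt 2 / N)) := by
    rw [Finset.sum_const, Finset.card_univ, Fintype.card_prod, Fintype.card_fin, Fintype.card_fin,
      nsmul_eq_mul]
    push_cast
    field_simp
    ring
  have c3 : ∑ i : Fin 2 × Fin N, (Gf (TT N i.2.succ) - Gf (TT N i.2.castSucc)) =
      2 * (-(Real.sqrt 2 / 60)) := by
    rw [Fintype.sum_prod_type]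
    have h1 := sum_mesh (fun i : Fin (N + 1) => Gf (TT N i))
    simp only [h1, TT_last hN, TT_zero]
    rw [Finset.sum_const, Finset.card_univ, Fintype.card_fin, nsmul_eq_mul]
    have h2 : Gf (Real.sqrt 2 / 2) - Gf (-(Real.sqrt 2 / 2)) = -(Real.sqrt 2 / 60) := by
      rw [Gf, Gf]
      linear_combination (7 / 320 * Real.sqrt 2 ^ 3 + (7 / 160 - 1 / 48) * Real.sqrt 2) * hs
    rw [h2]; norm_num
  rw [← Finset.sum_div, Finset.sum_add_distrib, c1, ← Finset.mul_sum, Finset.sum_add_distrib,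
    c2, c3]
  have hk3 : k ^ 3 ≤ k ^ 2 * (1 / 2000) := by
    have : k ^ 3 = k ^ 2 * k := by ring
    rw [this]; exact mul_le_mul_of_nonneg_left hk1 (sq_nonneg k)
  have hk4 : k ^ 4 ≤ k ^ 2 * (1 / 4000000) := by
    have : k ^ 4 = k ^ 2 * k ^ 2 := by ring
    rw [this]; exact mul_le_mul_of_nonneg_left hk2 (sq_nonneg k)
  have hk5 : k ^ 2 * (Real.sqrt 2 / N) ≤ k ^ 2 * (0.71 * k ^ 2) :=
    mul_le_mul_of_nonneg_left hΔ hk20.le
  have e6 : k ^ 2 * (0.71 * k ^ 2) = 0.71 * k ^ 4 := by ring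
  rw [e6] at hk5
  have : (2 * (Real.sqrt 2 * (1 / 2 + 20 * k ^ 3 + 2 * k ^ 4)) +
      k ^ 2 * (2 * (-(Real.sqrt 2 / 60)) + 4 * (Real.sqrt 2 * (Real.sqrt 2 / N)))) / 2 =
      Real.sqrt 2 * (1 / 2 + 20 * k ^ 3 + 2 * k ^ 4 - k ^ 2 / 60 + 2 * (k ^ 2 * (Real.sqrt 2 / N))) := by
    ring
  rw [this]
  apply mul_le_mul_of_nonneg_left _ hs0.le
  linarith

theorem kcover {k : ℝ} (hk : 0 < k) (hk1 : k ≤ 1 / 2000) {N : ℕ} (hN : 2 / k ^ 2 ≤ N) :
    ∃ (u p q r : Fin 2 × Fin N → E3),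
        (∀ i, ‖u i‖ = 1) ∧
        (∀ i, inner ℝ (p i) (u i) = 0 ∧ inner ℝ (q i) (u i) = 0 ∧ inner ℝ (r i) (u i) = 0) ∧
        KK ⊆ ⋃ i, {x : E3 | ∃ b ∈ convexHull ℝ {p i, q i, r i}, ∃ t : ℝ, x = b + t • u i} ∧
        ∑ i, (μHE[2] (convexHull ℝ ({p i, q i, r i} : Set E3))).toReal =
          Real.sqrt 2 * (1 / 2 - 13 / 6000 * k ^ 2) := by
  obtain ⟨hs, hs0, hs1, hs2⟩ := sqrt2_facts
  have hk20 : 0 < k ^ 2 := by positivity
  have hN0 : (0:ℝ) < N := lt_of_lt_of_le (by positivity) hN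
  have hNpos : 0 < N := by exact_mod_cast hN0
  have hΔ0 : 0 < Real.sqrt 2 / N := by positivity
  have hΔ : Real.sqrt 2 / N ≤ 0.71 * k ^ 2 := by
    rw [div_le_iff₀ hN0]
    rw [div_le_iff₀ hk20] at hN
    have : 0.71 * (k ^ 2 * N) ≥ 0.71 * 2 := by nlinarith
    norm_num at *
    linarith
  set A0 := ∑ i : Fin 2 × Fin N, Real.sqrt 2 / N * (BI k N i / (2 * SI k N i)) with hA0
  have hA := sum_area_bound hk hk1 hNpos hΔ
  rw [← hA0] at hA
  set Ts := Real.sqrt 2 * (1 / 2 - 13 / 6000 * k ^ 2) with hTs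
  have hSI : ∀ i, 0 < SI k N i := fun i => Real.sqrt_pos.2 (by positivity)
  have hBI : ∀ i, 0 < BI k N i := by
    intro i
    have : 0 ≤ qf (TT N i.2.castSucc) := by rw [qf]; positivity
    rw [BI]; positivity
  let i0 : Fin 2 × Fin N := (0, ⟨0, hNpos⟩)
  let Df : Fin 2 × Fin N → ℝ := fun i => if i = i0 then (Ts - A0) * (2 * SI k N i0) / (Real.sqrt 2 / N) else 0
  have hDf : ∀ i, 0 ≤ Df i := by
    intro i
    simp only [Df]
    split_ifs
    · have := hSI i0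
      have : 0 ≤ Ts - A0 := by linarith
      positivity
    · exact le_rfl
  let h : Fin 2 × Fin N → ℝ := fun i => Real.sqrt (BI k N i + Df i)
  have hh0 : ∀ i, 0 < h i := fun i => Real.sqrt_pos.2 (by linarith [hBI i, hDf i])
  have hhsq : ∀ i, h i ^ 2 = BI k N i + Df i := fun i => Real.sq_sqrt (by linarith [hBI i, hDf i])
  have hcov := cover_aux hk hk1 hNpos hΔ h hh0 (fun i => by rw [hhsq]; linarith [hDf i])
  have hn0 : ∀ i, nI k N i ≠ 0 := fun i => axis_ne_zero (eV_norm _) (wv_perp _ _ (ae_perp _) (be_perp _))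
  refine ⟨fun i => un (nI k N i), fun i => sv0 (nI k N i) (oI k N i),
    fun i => sv1 (nI k N i) (oI k N i) (aV i.1) (bV i.1) (TT N i.2.castSucc) (h i),
    fun i => sv1 (nI k N i) (oI k N i) (aV i.1) (bV i.1) (TT N i.2.succ) (h i),
    fun i => norm_un (hn0 i), fun i => ⟨inner_PP_left (norm_un (hn0 i)) _,
      inner_PP_left (norm_un (hn0 i)) _, inner_PP_left (norm_un (hn0 i)) _⟩, ?_, ?_⟩
  · intro X hX
    obtain ⟨i, y, hy, σ, hσ⟩ := mem_iUnion.1 (hcov hX)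
    refine mem_iUnion.2 ⟨i, y, hy, σ * ‖nI k N i‖, ?_⟩
    simp only [un]
    rw [hσ, smul_smul, mul_assoc, mul_inv_cancel₀ (norm_ne_zero_iff.2 (hn0 i)), mul_one]
  · have harea : ∀ i : Fin 2 × Fin N, (μHE[2] (convexHull ℝ ({sv0 (nI k N i) (oI k N i),
        sv1 (nI k N i) (oI k N i) (aV i.1) (bV i.1) (TT N i.2.castSucc) (h i),
        sv1 (nI k N i) (oI k N i) (aV i.1) (bV i.1) (TT N i.2.succ) (h i)} : Set E3))).toReal =
        Real.sqrt 2 / N * (BI k N i / (2 * SI k N i)) + (if i = i0 then (Ts - A0) else 0) := by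
      intro i
      have hlt := TT_mono hNpos (i.2.castSucc_lt_succ)
      have h1 := sector_area (eV_norm i.1) (ae_perp i.1) (be_perp i.1)
        (wv_perp (KV k i.1) (TT N i.2.castSucc) (ae_perp _) (be_perp _)) (oI k N i) hlt.le (h i)
      change μHE[2] (convexHull ℝ {sv0 (nI k N i) (oI k N i),
        sv1 (nI k N i) (oI k N i) (aV i.1) (bV i.1) (TT N i.2.castSucc) (h i),
        sv1 (nI k N i) (oI k N i) (aV i.1) (bV i.1) (TT N i.2.succ) (h i)}) = _ at h1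
      rw [h1, ab_perp, aV_norm, bV_norm, TT_diff, hhsq]
      change (ENNReal.ofReal (Real.sqrt (1 ^ 2 * 1 ^ 2 - 0 ^ 2) * (Real.sqrt 2 / N *
        ((BI k N i + Df i) / (2 * SI k N i))))).toReal = _
      have hS := hSI i
      have hBD : 0 ≤ BI k N i + Df i := by linarith [hBI i, hDf i]
      rw [ENNReal.toReal_ofReal (by positivity)]
      have e1 : Real.sqrt (1 ^ 2 * 1 ^ 2 - 0 ^ 2) = 1 := by norm_num
      rw [e1, one_mul, add_div, mul_add]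
      congr 1
      simp only [Df]
      split_ifs with hi
      · rw [hi]
        have := hSI i0
        field_simp
      · simp
    simp only [harea]
    rw [Finset.sum_add_distrib, Finset.sum_ite_eq' Finset.univ i0 (fun _ => Ts - A0)]
    simp only [Finset.mem_univ, if_true]
    rw [← hA0]; ring

end Crest.Agent.H7
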