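import Mathlib
import Crest.Agent.H7.Tetra4

open MeasureTheory Measure Module Set Filter Topology
open scoped ENNReal

namespace Crest.Agent.H7

theorem s325 :
    ((∀ v : E3, ‖v‖ = 1 →
        ENNReal.ofReal (Real.sqrt 2) ≤ μHE[2] ((fun y => y - inner ℝ y v • v) '' convexHull ℝ {!₂[1, 0, 0], !₂[-1, 0, 0], !₂[0, 1, Real.sqrt 2], !₂[0, -1, Real.sqrt 2]})) ∧
      ∃ v : E3, ‖v‖ = 1 ∧
        μHE[2] ((fun y => y - inner ℝ y v • v) '' convexHull ℝ {!₂[1, 0, 0], !₂[-1, 0, 0], !₂[0, 1, Real.sqrt 2], !₂[0, -1, Real.sqrt 2]}) = ENNReal.ofReal (Real.sqrt 2)) ∧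
    ∀ ε : ℝ, 0 < ε → ε ≤ 1 / 2000 →
      ∃ (u p q r : Fin (2 * ⌈2 / ε ^ 2⌉₊) → E3),
        (∀ i, ‖u i‖ = 1) ∧
        (∀ i, inner ℝ (p i) (u i) = 0 ∧ inner ℝ (q i) (u i) = 0 ∧ inner ℝ (r i) (u i) = 0) ∧
        convexHull ℝ {!₂[1, 0, 0], !₂[-1, 0, 0], !₂[0, 1, Real.sqrt 2], !₂[0, -1, Real.sqrt 2]} ⊆
          ⋃ i, {x : E3 | ∃ b ∈ convexHull ℝ {p i, q i, r i}, ∃ t : ℝ, x = b + t • u i} ∧
        abs ((∑ i, (μHE[2] (convexHull ℝ ({p i, q i, r i} : Set (E3)))).toReal) / Real.sqrt 2 -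
            (1 / 2 - 13 / 6000 * ε ^ 2)) ≤ 2 * ε ^ 4 := by
  refine ⟨⟨fun v hv => ?_, !₂[1, 0, 0], ?_, ?_⟩, fun ε hε hε1 => ?_⟩
  · exact min_proj hv
  · exact norm_one_of_sq (by simp)
  · exact proj_x
  · obtain ⟨u, p, q, r, h1, h2, h3, h4⟩ := kcover hε hε1 (N := ⌈2 / ε ^ 2⌉₊) (Nat.le_ceil _)
    let e : Fin 2 × Fin ⌈2 / ε ^ 2⌉₊ ≃ Fin (2 * ⌈2 / ε ^ 2⌉₊) := finProdFinEquiv
    refine ⟨fun i => u (e.symm i), fun i => p (e.symm i), fun i => q (e.symm i),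
      fun i => r (e.symm i), fun i => h1 _, fun i => h2 _, ?_, ?_⟩
    · intro x hx
      obtain ⟨i, hi⟩ := mem_iUnion.1 (h3 hx)
      refine mem_iUnion.2 ⟨e i, ?_⟩
      simp only [e.symm_apply_apply]
      exact hi
    · have h5 : ∑ i, (μHE[2] (convexHull ℝ ({p (e.symm i), q (e.symm i), r (e.symm i)} : Set E3))).toReal =
        Real.sqrt 2 * (1 / 2 - 13 / 6000 * ε ^ 2) := by
        rw [← h4, ← e.symm.sum_comp]
      rw [h5, mul_div_cancel_left₀ _ (by positivity), sub_self, abs_zero]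
      positivity

lemma exists_hausdorff_factor : ∃ c : ℝ, 0 < c ∧ ∀ S : Set E3,
    (μH[(2:ℝ)] S).toReal = c * (μHE[2] S).toReal := by
  obtain ⟨d, hd⟩ : ∃ d, d = addHaarScalarFactor (volume : Measure (EuclideanSpace ℝ (Fin 2))) μH[((2:ℕ):ℝ)] := ⟨_, rfl⟩
  have h0 : d ≠ 0 := by rw [hd]; exact addHaarScalarFactor_volume_hausdorffMeasure_ne_zero 2
  refine ⟨(d : ℝ)⁻¹, by positivity, fun S => ?_⟩
  have h1 : (μHE[2] : Measure E3) S = d • (μH[((2:ℕ):ℝ)] : Measure E3) S := by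
    rw [euclideanHausdorffMeasure_def, hd]; rfl
  rw [h1, ENNReal.smul_def, smul_eq_mul, ENNReal.toReal_mul]
  have h2 : ((d : ENNReal)).toReal = (d : ℝ) := rfl
  have h3 : (d : ℝ) ≠ 0 := by exact_mod_cast h0
  rw [h2]
  push_cast
  field_simp

theorem s324 :
    ∃ (m : ℕ) (u p q r : Fin m → E3),
      (∀ i, ‖u i‖ = 1) ∧
      (∀ i, inner ℝ (p i) (u i) = 0 ∧ inner ℝ (q i) (u i) = 0 ∧ inner ℝ (r i) (u i) = 0) ∧
      convexHull ℝ {!₂[1, 0, 0], !₂[-1, 0, 0], !₂[0, 1, Real.sqrt 2], !₂[0, -1, Real.sqrt 2]} ⊆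
        ⋃ i, {x : E3 | ∃ b ∈ convexHull ℝ {p i, q i, r i}, ∃ t : ℝ, x = b + t • u i} ∧
      ∃ δ : ℝ, 0 < δ ∧ ∀ v : E3, ‖v‖ = 1 →
        ∑ i, (μH[(2 : ℝ)] (convexHull ℝ {p i, q i, r i})).toReal + δ ≤
          (μH[(2 : ℝ)] ((fun y => y - inner ℝ y v • v) '' convexHull ℝ {!₂[1, 0, 0], !₂[-1, 0, 0], !₂[0, 1, Real.sqrt 2], !₂[0, -1, Real.sqrt 2]})).toReal / 2 := by
  obtain ⟨c, hc, hcS⟩ := exists_hausdorff_factor
  obtain ⟨u, p, q, r, h1, h2, h3, h4⟩ := kcover (k := 1 / 2000) (by norm_num) le_rfl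
    (N := ⌈2 / (1 / 2000 : ℝ) ^ 2⌉₊) (Nat.le_ceil _)
  let e : Fin 2 × Fin ⌈2 / (1 / 2000 : ℝ) ^ 2⌉₊ ≃ Fin (2 * ⌈2 / (1 / 2000 : ℝ) ^ 2⌉₊) := finProdFinEquiv
  refine ⟨_, fun i => u (e.symm i), fun i => p (e.symm i), fun i => q (e.symm i),
      fun i => r (e.symm i), fun i => h1 _, fun i => h2 _, ?_, ?_⟩
  · intro x hx
    obtain ⟨i, hi⟩ := mem_iUnion.1 (h3 hx)
    refine mem_iUnion.2 ⟨e i, ?_⟩
    simp only [e.symm_apply_apply]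
    exact hi
  · refine ⟨c * (Real.sqrt 2 * (13 / 6000 * (1 / 2000) ^ 2)), by positivity, fun v hv => ?_⟩
    have h5 : ∑ i, (μHE[2] (convexHull ℝ ({p (e.symm i), q (e.symm i), r (e.symm i)} : Set E3))).toReal =
        Real.sqrt 2 * (1 / 2 - 13 / 6000 * (1 / 2000) ^ 2) := by
      rw [← h4, ← e.symm.sum_comp]
    simp only [hcS]
    rw [← Finset.mul_sum, h5]
    have h6 : Real.sqrt 2 ≤ (μHE[2] (PP v '' KK)).toReal := by
      have hfin : μHE[2] (PP v '' KK) ≠ ⊤ := by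
        have hK : IsCompact (PP v '' KK) := by
          apply IsCompact.image _ (PP_continuous v)
          rw [KK]
          exact (Set.toFinite _).isCompact_convexHull ℝ
        refine (area_lt_top hv hK ?_).ne
        rintro x ⟨y, _, rfl⟩
        exact inner_PP_left hv y
      have := ENNReal.toReal_mono hfin (min_proj hv)
      rwa [ENNReal.toReal_ofReal (Real.sqrt_nonneg _)] at this
    change c * _ + _ ≤ c * (μHE[2] (PP v '' KK)).toReal / 2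
    have h7 := mul_le_mul_of_nonneg_left h6 hc.le
    linarith

end Crest.Agent.H7
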