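import Mathlib
import Crest.Agent.H7.Tetra5

open MeasureTheory Measure Module Set Filter Topology
open scoped ENNReal Pointwise

set_option linter.unusedSimpArgs false

namespace Crest.Agent.H7

/-- A linear isometry from an orthonormal triple. -/
lemma exists_iso {u1 u2 u3 : E3} (h1 : ‖u1‖ = 1) (h2 : ‖u2‖ = 1) (h3 : ‖u3‖ = 1)
    (h12 : inner ℝ u1 u2 = 0) (h13 : inner ℝ u1 u3 = 0) (h23 : inner ℝ u2 u3 = 0) :
    ∃ U : E3 ≃ₗᵢ[ℝ] E3, ∀ x, U x = x 0 • u1 + x 1 • u2 + x 2 • u3 := by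
  let L : E3 →ₗ[ℝ] E3 :=
    { toFun := fun x => x 0 • u1 + x 1 • u2 + x 2 • u3
      map_add' := fun x y => by simp only [PiLp.add_apply]; module
      map_smul' := fun c x => by simp only [PiLp.smul_apply, smul_eq_mul, RingHom.id_apply]; module }
  have hn : ∀ x, ‖L x‖ = ‖x‖ := by
    intro x
    rw [← sq_eq_sq₀ (norm_nonneg _) (norm_nonneg _), normsq3 x]
    change ‖x 0 • u1 + x 1 • u2 + x 2 • u3‖ ^ 2 = _
    rw [norm_add_sq_real, norm_add_sq_real, inner_add_left, inner_smul_left, inner_smul_right,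
      inner_smul_left, inner_smul_right, inner_smul_left, inner_smul_right, h12, h13, h23,
      norm_smul, norm_smul, norm_smul, h1, h2, h3]
    simp only [Real.norm_eq_abs, mul_one, sq_abs]
    ring
  exact ⟨(LinearIsometry.mk L hn).toLinearIsometryEquiv rfl, fun x => rfl⟩

lemma inner_of_dist {x y : E3} {ℓ : ℝ} (hx : ‖x‖ = ℓ) (hy : ‖y‖ = ℓ) (hxy : ‖x - y‖ = ℓ) :
    inner ℝ x y = ℓ ^ 2 / 2 := by
  have := norm_sub_sq_real x y
  rw [hx, hy, hxy] at this
  linarith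

lemma tetra_similar (w : Fin 4 → E3) (ℓ : ℝ) (hℓ : 0 < ℓ)
    (hw : ∀ i j, i ≠ j → dist (w i) (w j) = ℓ) :
    ∃ (U : E3 ≃ₗᵢ[ℝ] E3) (m : E3), convexHull ℝ (Set.range w) = (fun x => m + (ℓ / 2) • U x) '' KK := by
  obtain ⟨hs, hs0, -, -⟩ := sqrt2_facts
  set s := Real.sqrt 2 with hsdef
  set a := w 1 - w 0 with ha
  set b := w 2 - w 0 with hb
  set c := w 3 - w 0 with hc
  have na : ‖a‖ = ℓ := by rw [ha, ← dist_eq_norm]; exact hw 1 0 (by decide)
  have nb : ‖b‖ = ℓ := by rw [hb, ← dist_eq_norm]; exact hw 2 0 (by decide)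
  have nc : ‖c‖ = ℓ := by rw [hc, ← dist_eq_norm]; exact hw 3 0 (by decide)
  have nab : ‖a - b‖ = ℓ := by
    rw [ha, hb, sub_sub_sub_cancel_right, ← dist_eq_norm]; exact hw 1 2 (by decide)
  have nac : ‖a - c‖ = ℓ := by
    rw [ha, hc, sub_sub_sub_cancel_right, ← dist_eq_norm]; exact hw 1 3 (by decide)
  have nbc : ‖b - c‖ = ℓ := by
    rw [hb, hc, sub_sub_sub_cancel_right, ← dist_eq_norm]; exact hw 2 3 (by decide)
  have iab := inner_of_dist na nb nab
  have iac := inner_of_dist na nc nac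
  have ibc := inner_of_dist nb nc nbc
  have iba : inner ℝ b a = ℓ ^ 2 / 2 := by rw [real_inner_comm]; exact iab
  have ica : inner ℝ c a = ℓ ^ 2 / 2 := by rw [real_inner_comm]; exact iac
  have icb : inner ℝ c b = ℓ ^ 2 / 2 := by rw [real_inner_comm]; exact ibc
  have iaa : inner ℝ a a = ℓ ^ 2 := by rw [real_inner_self_eq_norm_sq, na]
  have ibb : inner ℝ b b = ℓ ^ 2 := by rw [real_inner_self_eq_norm_sq, nb]
  have icc : inner ℝ c c = ℓ ^ 2 := by rw [real_inner_self_eq_norm_sq, nc]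
  have one_of : ∀ x : E3, inner ℝ x x = 1 → ‖x‖ = 1 := by
    intro x hx
    rw [real_inner_self_eq_norm_sq] at hx
    rw [← sq_eq_sq₀ (norm_nonneg _) zero_le_one, hx]; norm_num
  obtain ⟨U, hU⟩ := exists_iso (u1 := (-ℓ⁻¹) • a) (u2 := ℓ⁻¹ • (b - c))
    (u3 := (s / (2 * ℓ)) • (b + c - a)) (by
      apply one_of
      simp only [inner_smul_left, inner_smul_right, iaa, conj_trivial]
      field_simp) (by
      apply one_of
      simp only [inner_smul_left, inner_smul_right, inner_sub_left, inner_sub_right, ibb, icc, ibc,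
        icb, conj_trivial]
      field_simp; ring) (by
      apply one_of
      simp only [inner_smul_left, inner_smul_right, inner_sub_left, inner_sub_right, inner_add_left,
        inner_add_right, ibb, icc, ibc, icb, iaa, iab, iba, iac, ica, conj_trivial]
      field_simp
      linear_combination 4 * hs) (by
      simp only [inner_smul_left, inner_smul_right, inner_sub_left, inner_sub_right, inner_add_left,
        inner_add_right, ibb, icc, ibc, icb, iaa, iab, iba, iac, ica, conj_trivial]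
      ring) (by
      simp only [inner_smul_left, inner_smul_right, inner_sub_left, inner_sub_right, inner_add_left,
        inner_add_right, ibb, icc, ibc, icb, iaa, iab, iba, iac, ica, conj_trivial]
      ring) (by
      simp only [inner_smul_left, inner_smul_right, inner_sub_left, inner_sub_right, inner_add_left,
        inner_add_right, ibb, icc, ibc, icb, iaa, iab, iba, iac, ica, conj_trivial]
      ring)
  set m : E3 := (1 / 2 : ℝ) • (w 0 + w 1) with hm
  refine ⟨U, m, ?_⟩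
  let Φ : E3 →ᵃ[ℝ] E3 := AffineMap.const ℝ E3 m + ((ℓ / 2) • U.toLinearEquiv.toLinearMap).toAffineMap
  have hΦ : ∀ x, Φ x = m + (ℓ / 2) • U x := fun x => rfl
  have e : (fun x => m + (ℓ / 2) • U x) = Φ := by ext1 x; exact (hΦ x).symm
  rw [e, KK, AffineMap.image_convexHull]
  congr 1
  have fA : Φ kA = w 0 := by
    rw [hΦ, hU]
    simp only [kA]
    simp
    rw [smul_smul]
    have : ℓ / 2 * ℓ⁻¹ = 1 / 2 := by field_simp
    rw [this, hm, ha]; module
  have fB : Φ kB = w 1 := by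
    rw [hΦ, hU]
    simp only [kB]
    simp
    rw [smul_smul]
    have : ℓ / 2 * ℓ⁻¹ = 1 / 2 := by field_simp
    rw [this, hm, ha]; module
  have hs' : s * (s / (2 * ℓ)) = ℓ⁻¹ := by field_simp; exact hs
  have fC : Φ kC = w 2 := by
    rw [hΦ, hU]
    simp only [kC, ← hsdef]
    simp
    rw [smul_smul, smul_smul, smul_smul]
    have e1 : ℓ / 2 * ℓ⁻¹ = 1 / 2 := by field_simp
    have e2 : ℓ / 2 * s * (s / (2 * ℓ)) = 1 / 2 := by rw [mul_assoc, hs']; field_simp
    rw [e1, e2, hm, ha, hb, hc]; module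
  have fD : Φ kD = w 3 := by
    rw [hΦ, hU]
    simp only [kD, ← hsdef]
    simp
    rw [smul_smul, smul_smul, smul_smul]
    have e1 : ℓ / 2 * ℓ⁻¹ = 1 / 2 := by field_simp
    have e2 : ℓ / 2 * s * (s / (2 * ℓ)) = 1 / 2 := by rw [mul_assoc, hs']; field_simp
    rw [e1, e2, hm, ha, hb, hc]; module
  simp only [image_insert_eq, image_singleton, fA, fB, fC, fD]
  ext x
  simp only [mem_range, mem_insert_iff, mem_singleton_iff]
  constructor
  · rintro ⟨i, rfl⟩
    fin_cases i <;> simp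
  · rintro (rfl | rfl | rfl | rfl)
    · exact ⟨0, rfl⟩
    · exact ⟨1, rfl⟩
    · exact ⟨2, rfl⟩
    · exact ⟨3, rfl⟩

/-- scaling of the projected area under the similarity -/
lemma proj_scaled (U : E3 ≃ₗᵢ[ℝ] E3) (m : E3) {r : ℝ} (hr : 0 < r) (v : E3) (S : Set E3) :
    μHE[2] ((fun y => y - inner ℝ y v • v) '' ((fun x => m + r • U x) '' S)) =
      ENNReal.ofReal (r ^ 2) * μHE[2] (PP (U.symm v) '' S) := by
  have e1 : (fun y => y - inner ℝ y v • v) '' ((fun x => m + r • U x) '' S) =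
      (fun y => PP v m + y) '' (r • (U '' (PP (U.symm v) '' S))) := by
    rw [← image_smul, image_image, image_image, image_image, image_image]
    apply image_congr
    intro x _
    change PP v (m + r • U x) = PP v m + r • U (PP (U.symm v) x)
    rw [map_add, map_smul]
    congr 2
    rw [PP_apply, PP_apply, map_sub, map_smul, LinearIsometryEquiv.apply_symm_apply]
    congr 2
    rw [← U.inner_map_map x (U.symm v), LinearIsometryEquiv.apply_symm_apply]
  rw [e1, (isometry_add_left (PP v m)).euclideanHausdorffMeasure_image,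
    euclideanHausdorffMeasure_smul₀ 2 hr.ne', U.isometry.euclideanHausdorffMeasure_image,
    ENNReal.smul_def, smul_eq_mul]
  congr 1
  rw [ENNReal.ofReal, ENNReal.coe_inj]
  ext
  simp [abs_of_pos hr, Real.coe_toNNReal _ (sq_nonneg r)]

lemma PP_KK_ne_top {v : E3} (hv : ‖v‖ = 1) : μHE[2] (PP v '' KK) ≠ ⊤ := by
  have hK : IsCompact (PP v '' KK) := by
    apply IsCompact.image _ (PP_continuous v)
    rw [KK]
    exact (Set.toFinite _).isCompact_convexHull ℝ
  refine (area_lt_top hv hK ?_).ne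
  rintro x ⟨y, _, rfl⟩
  exact inner_PP_left hv y

lemma proj_lower {w : Fin 4 → E3} {ℓ : ℝ} (hℓ : 0 < ℓ)
    {U : E3 ≃ₗᵢ[ℝ] E3} {m : E3} (hU : convexHull ℝ (Set.range w) = (fun x => m + (ℓ / 2) • U x) '' KK)
    {v : E3} (hv : ‖v‖ = 1) :
    (ℓ / 2) ^ 2 * Real.sqrt 2 ≤
      (μHE[2] ((fun y => y - inner ℝ y v • v) '' convexHull ℝ (Set.range w))).toReal := by
  have hv' : ‖U.symm v‖ = 1 := by rw [U.symm.norm_map]; exact hv
  rw [hU, proj_scaled U m (by positivity) v, ENNReal.toReal_mul, ENNReal.toReal_ofReal (by positivity)]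
  apply mul_le_mul_of_nonneg_left _ (by positivity)
  have := ENNReal.toReal_mono (PP_KK_ne_top hv') (min_proj hv')
  rwa [ENNReal.toReal_ofReal (Real.sqrt_nonneg _)] at this

/-- the numerical conclusions -/
lemma concl {w : Fin 4 → E3} {ℓ : ℝ} (hℓ : 0 < ℓ)
    {U : E3 ≃ₗᵢ[ℝ] E3} {m : E3} (hU : convexHull ℝ (Set.range w) = (fun x => m + (ℓ / 2) • U x) '' KK)
    {k : ℕ} (u : Fin k → E3) (hu : ∀ i, ‖u i‖ = 1) (A : Fin k → ℝ) (hA : ∀ i, 0 ≤ A i) {d : ℝ}
    (hd : 0 < d) (hsum : ∑ i, A i ≤ (ℓ / 2) ^ 2 * Real.sqrt 2 * (1 / 2 - d)) :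
    (∃ δ : ℝ, 0 < δ ∧ ∀ v : E3, ‖v‖ = 1 → (∑ i, A i) + δ ≤
          (μHE[2] ((fun y => y - inner ℝ y v • v) '' convexHull ℝ (Set.range w))).toReal / 2) ∧
      ∑ i, A i / (μHE[2] ((fun y => y - inner ℝ y (u i) • u i) '' convexHull ℝ (Set.range w))).toReal < 1 / 2 := by
  set M := (ℓ / 2) ^ 2 * Real.sqrt 2 with hM
  have hM0 : 0 < M := by positivity
  constructor
  · refine ⟨M * d, by positivity, fun v hv => ?_⟩
    have := proj_lower hℓ hU hv
    rw [← hM] at this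
    linarith
  · calc ∑ i, A i / (μHE[2] ((fun y => y - inner ℝ y (u i) • u i) '' convexHull ℝ (Set.range w))).toReal
        ≤ ∑ i, A i / M := by
          apply Finset.sum_le_sum
          intro i _
          exact div_le_div_of_nonneg_left (hA i) hM0 (proj_lower hℓ hU (hu i))
      _ = (∑ i, A i) / M := by rw [Finset.sum_div]
      _ ≤ (M * (1 / 2 - d)) / M := div_le_div_of_nonneg_right hsum hM0.le
      _ = 1 / 2 - d := by field_simp
      _ < 1 / 2 := by linarith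

/-- splitting triangles into strips -/
lemma strips {P A B : E3} {n : ℕ} (hn : 0 < n) {x y : ℝ} (hx : 0 ≤ x) (hy : 0 ≤ y) (hxy : x + y ≤ 1) :
    ∃ j : Fin n, ∃ s ∈ Icc (0:ℝ) 1, ∃ t ∈ Icc (0:ℝ) 1, P + x • A + y • B =
      (P + ((j : ℝ) / n) • B) + s • ((1 - (j : ℝ) / n) • A) + t • ((1 / (n : ℝ)) • B) := by
  have hn0 : (0:ℝ) < n := by exact_mod_cast hn
  -- choose j
  obtain ⟨j, hj1, hj2⟩ : ∃ j : Fin n, (j : ℝ) ≤ y * n ∧ y * n ≤ (j : ℝ) + 1 := by
    rcases lt_or_ge (⌊y * n⌋₊) n with h | h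
    · refine ⟨⟨⌊y * n⌋₊, h⟩, Nat.floor_le (by positivity), (Nat.lt_floor_add_one _).le⟩
    · refine ⟨⟨n - 1, by omega⟩, ?_, ?_⟩
      · have h1 : (n : ℝ) ≤ y * n := (Nat.cast_le.2 h).trans (Nat.floor_le (by positivity))
        have h2 : (((n - 1 : ℕ)) : ℝ) ≤ n := by exact_mod_cast Nat.sub_le n 1
        exact h2.trans h1
      · have h1 : y * n ≤ n := by nlinarith
        have h2 : (((n - 1 : ℕ)) : ℝ) + 1 = n := by
          have : n - 1 + 1 = n := Nat.sub_add_cancel hn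
          exact_mod_cast this
        simp only; rw [h2]; exact h1
  set a := (j : ℝ) / n with ha
  have ha0 : 0 ≤ a := by positivity
  have hay : a ≤ y := by rw [ha, div_le_iff₀ hn0]; exact hj1
  have hya : y ≤ a + 1 / n := by
    rw [ha, ← add_div, le_div_iff₀ hn0]; exact hj2
  have hja : a < 1 := by
    rw [ha, div_lt_one hn0]; exact_mod_cast j.2
  refine ⟨j, x / (1 - a), ⟨by apply div_nonneg hx; linarith, ?_⟩, (y - a) * n,
    ⟨by apply mul_nonneg (by linarith) hn0.le, ?_⟩, ?_⟩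
  · rw [div_le_one (by linarith)]; linarith
  · have : (y - a) * n ≤ (1 / n) * n := mul_le_mul_of_nonneg_right (by linarith) hn0.le
    rwa [one_div, inv_mul_cancel₀ hn0.ne'] at this
  · rw [smul_smul, smul_smul]
    have e1 : x / (1 - a) * (1 - a) = x := div_mul_cancel₀ _ (by linarith)
    have e2 : (y - a) * n * (1 / n) = y - a := by field_simp
    rw [e1, e2]; module

lemma strips_sum {n : ℕ} (hn : 0 < n) : ∑ j : Fin n, (1 - (j : ℝ) / n) * (1 / n) = (1 + 1 / n) / 2 := by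
  have hn0 : (0:ℝ) < n := by exact_mod_cast hn
  rw [Fin.sum_univ_eq_sum_range (fun j => (1 - (j : ℝ) / n) * (1 / n)), ← Finset.sum_mul,
    Finset.sum_sub_distrib, ← Finset.sum_div]
  have h1 : (∑ j ∈ Finset.range n, (j : ℝ)) = n * (n - 1) / 2 := by
    have := Finset.sum_range_id_mul_two n
    have h2 : ((∑ j ∈ Finset.range n, j : ℕ) : ℝ) * 2 = n * ((n - 1 : ℕ) : ℝ) := by exact_mod_cast this
    rw [Nat.cast_sub hn] at h2
    push_cast at h2
    linarith
  rw [h1, Finset.sum_const, Finset.card_range, nsmul_eq_mul]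
  field_simp
  ring

theorem s327 (w : Fin 4 → E3) (ℓ : ℝ) (hℓ : 0 < ℓ)
    (hw : ∀ i j, i ≠ j → dist (w i) (w j) = ℓ) :
    (∃ (k : ℕ) (u c a b : Fin k → E3),
      (∀ i, ‖u i‖ = 1) ∧
      (∀ i, inner ℝ (c i) (u i) = 0 ∧ inner ℝ (a i) (u i) = 0 ∧ inner ℝ (b i) (u i) = 0) ∧
      convexHull ℝ (Set.range w) ⊆ ⋃ i, {x : E3 |
        ∃ s ∈ Set.Icc (0 : ℝ) 1, ∃ t ∈ Set.Icc (0 : ℝ) 1, ∃ τ : ℝ, x = c i + s • a i + t • b i + τ • u i} ∧
      (∃ δ : ℝ, 0 < δ ∧ ∀ v : E3, ‖v‖ = 1 →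
        (∑ i, (μHE[2] {x : E3 |
            ∃ s ∈ Set.Icc (0 : ℝ) 1, ∃ t ∈ Set.Icc (0 : ℝ) 1, x = c i + s • a i + t • b i}).toReal) + δ ≤
          (μHE[2] ((fun y => y - inner ℝ y v • v) '' convexHull ℝ (Set.range w))).toReal / 2) ∧
      ∑ i, (μHE[2] {x : E3 |
            ∃ s ∈ Set.Icc (0 : ℝ) 1, ∃ t ∈ Set.Icc (0 : ℝ) 1, x = c i + s • a i + t • b i}).toReal /
          (μHE[2] ((fun y => y - inner ℝ y (u i) • u i) '' convexHull ℝ (Set.range w))).toReal < 1 / 2) ∧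
    (∃ (k : ℕ) (u : Fin k → E3) (B : Fin k → Set (E3)),
      (∀ i, ‖u i‖ = 1) ∧
      (∀ i, Bornology.IsBounded (B i) ∧ ∃ O : Set (E3), IsOpen O ∧
        B i = O ∩ {x | inner ℝ x (u i) = 0}) ∧
      convexHull ℝ (Set.range w) ⊆
        ⋃ i, {x : E3 | ∃ y ∈ B i, ∃ τ : ℝ, x = y + τ • u i} ∧
      (∃ δ : ℝ, 0 < δ ∧ ∀ v : E3, ‖v‖ = 1 →
        (∑ i, (μHE[2] (B i)).toReal) + δ ≤
          (μHE[2] ((fun y => y - inner ℝ y v • v) '' convexHull ℝ (Set.range w))).toReal / 2) ∧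
      ∑ i, (μHE[2] (B i)).toReal /
          (μHE[2] ((fun y => y - inner ℝ y (u i) • u i) '' convexHull ℝ (Set.range w))).toReal < 1 / 2) := by
  obtain ⟨U, m, hU⟩ := tetra_similar w ℓ hℓ hw
  obtain ⟨N, hN⟩ : ∃ N : ℕ, 2 / (1 / 2000 : ℝ) ^ 2 ≤ N := ⟨_, Nat.le_ceil _⟩
  obtain ⟨u, p, q, r, h1, h2, h3, h4⟩ := kcover (k := 1 / 2000) (by norm_num) le_rfl hN
  set d : ℝ := 13 / 6000 * (1 / 2000) ^ 2 with hd
  have hd0 : 0 < d := by rw [hd]; positivity
  have hd1 : d < 1 / 2 := by rw [hd]; norm_num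
  -- number of strips
  obtain ⟨n, hn⟩ := exists_nat_gt (1 / d)
  have hn0 : (0:ℝ) < n := lt_trans (by positivity) hn
  have hnpos : 0 < n := by exact_mod_cast hn0
  have hnd : 1 / (n : ℝ) < d := by
    rw [div_lt_iff₀ hn0]; rw [div_lt_iff₀ hd0] at hn; linarith
  set M := (ℓ / 2) ^ 2 * Real.sqrt 2 with hM
  have hM0 : 0 < M := by positivity
  let ρ : ℝ := ℓ / 2
  have hρ : 0 < ρ := by simp only [ρ]; positivity
  -- new data indexed by ι
  let ι := (Fin 2 × Fin N) × Fin n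
  let uu : ι → E3 := fun i => U (u i.1)
  have huu : ∀ i, ‖uu i‖ = 1 := fun i => by simp only [uu]; rw [U.norm_map]; exact h1 _
  have hUperp : ∀ (x : E3) (i : ι), inner ℝ x (u i.1) = 0 → inner ℝ (U x) (uu i) = 0 := by
    intro x i hx
    simp only [uu]; rw [U.inner_map_map]; exact hx
  let P : ι → E3 := fun i => PP (uu i) m + ρ • U (p i.1)
  let A : ι → E3 := fun i => ρ • U (q i.1 - p i.1)
  let B : ι → E3 := fun i => ρ • U (r i.1 - p i.1)
  have hPp : ∀ i, inner ℝ (P i) (uu i) = 0 := by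
    intro i
    simp only [P]
    rw [inner_add_left, inner_PP_left (huu i), inner_smul_left, hUperp _ i (h2 i.1).1]; simp
  have hAp : ∀ i, inner ℝ (A i) (uu i) = 0 := by
    intro i
    simp only [A]
    rw [inner_smul_left, hUperp _ i (by rw [inner_sub_left, (h2 i.1).1, (h2 i.1).2.1, sub_zero])]; simp
  have hBp : ∀ i, inner ℝ (B i) (uu i) = 0 := by
    intro i
    simp only [B]
    rw [inner_smul_left, hUperp _ i (by rw [inner_sub_left, (h2 i.1).1, (h2 i.1).2.2, sub_zero])]; simp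
  let cc : ι → E3 := fun i => P i + ((i.2 : ℝ) / n) • B i
  let aa : ι → E3 := fun i => (1 - (i.2 : ℝ) / n) • A i
  let bb : ι → E3 := fun i => (1 / (n : ℝ)) • B i
  have hccp : ∀ i, inner ℝ (cc i) (uu i) = 0 := by
    intro i; simp only [cc]; rw [inner_add_left, inner_smul_left, hPp, hBp]; simp
  have haap : ∀ i, inner ℝ (aa i) (uu i) = 0 := by
    intro i; simp only [aa]; rw [inner_smul_left, hAp]; simp
  have hbbp : ∀ i, inner ℝ (bb i) (uu i) = 0 := by
    intro i; simp only [bb]; rw [inner_smul_left, hBp]; simp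
  -- cover
  have hcov : ∀ X ∈ convexHull ℝ (Set.range w), ∃ i : ι, ∃ s ∈ Set.Icc (0 : ℝ) 1,
      ∃ t ∈ Set.Icc (0 : ℝ) 1, ∃ τ : ℝ, X = cc i + s • aa i + t • bb i + τ • uu i := by
    intro X hX
    rw [hU] at hX
    obtain ⟨x, hx, rfl⟩ := hX
    obtain ⟨i, b, hb, σ, hσ⟩ := mem_iUnion.1 (h3 hx)
    rw [convexHull_triple] at hb
    obtain ⟨z, ⟨hz0, hz1, hz2⟩, rfl⟩ := hb
    let i0 : ι := (i, ⟨0, hnpos⟩)
    obtain ⟨j, s, hs, t, ht, hst⟩ := strips (P := P i0) (A := A i0) (B := B i0) hnpos hz0 hz1 hz2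
    refine ⟨(i, j), s, hs, t, ht, inner ℝ m (uu i0) + ρ * σ, ?_⟩
    change m + ρ • U x = (P i0 + ((j : ℝ) / n) • B i0) + s • ((1 - (j : ℝ) / n) • A i0) +
      t • ((1 / (n : ℝ)) • B i0) + (inner ℝ m (uu i0) + ρ * σ) • uu i0
    rw [← hst, hσ]
    simp only [P, A, B, PP_apply, map_add, map_smul, map_sub]
    have : U (u i) = uu i0 := rfl
    rw [this]
    module
  -- areas
  have harea : ∀ i, (μHE[2] {x : E3 | ∃ s ∈ Set.Icc (0 : ℝ) 1, ∃ t ∈ Set.Icc (0 : ℝ) 1,
      x = cc i + s • aa i + t • bb i}).toReal =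
      (1 - (i.2 : ℝ) / n) * (1 / n) * (ρ ^ 2 * (2 * (μHE[2] (convexHull ℝ ({p i.1, q i.1, r i.1} : Set E3))).toReal)) := by
    intro i
    rw [area_parallelogram, area_triangle, ENNReal.toReal_ofReal (Real.sqrt_nonneg _),
      ENNReal.toReal_ofReal (by positivity)]
    have hj : 0 ≤ 1 - (i.2 : ℝ) / n := by
      have : (i.2 : ℝ) / n ≤ 1 := by
        rw [div_le_one hn0]; exact_mod_cast i.2.2.le
      linarith
    have e1 : ‖aa i‖ ^ 2 * ‖bb i‖ ^ 2 - inner ℝ (aa i) (bb i) ^ 2 =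
        ((1 - (i.2 : ℝ) / n) * (1 / n) * ρ ^ 2) ^ 2 *
        (‖q i.1 - p i.1‖ ^ 2 * ‖r i.1 - p i.1‖ ^ 2 - inner ℝ (q i.1 - p i.1) (r i.1 - p i.1) ^ 2) := by
      simp only [aa, bb, A, B]
      rw [inner_smul_left, inner_smul_right, inner_smul_left, inner_smul_right, U.inner_map_map,
        norm_smul, norm_smul, norm_smul, norm_smul, U.norm_map, U.norm_map]
      simp only [Real.norm_eq_abs, mul_pow, sq_abs, conj_trivial]
      ring
    rw [e1, Real.sqrt_mul (by positivity), Real.sqrt_sq (by positivity)]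
    ring
  have hsum : ∑ i : ι, (μHE[2] {x : E3 | ∃ s ∈ Set.Icc (0 : ℝ) 1, ∃ t ∈ Set.Icc (0 : ℝ) 1,
      x = cc i + s • aa i + t • bb i}).toReal ≤ M * (1 / 2 - d / 2) := by
    simp only [harea]
    rw [Fintype.sum_prod_type]
    have e1 : ∀ x : Fin 2 × Fin N, ∑ j : Fin n, (1 - (j : ℝ) / n) * (1 / n) *
        (ρ ^ 2 * (2 * (μHE[2] (convexHull ℝ ({p x, q x, r x} : Set E3))).toReal)) =
        (1 + 1 / n) * ρ ^ 2 * (μHE[2] (convexHull ℝ ({p x, q x, r x} : Set E3))).toReal := by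
      intro x
      rw [← Finset.sum_mul, strips_sum hnpos]; ring
    simp only [e1]
    rw [← Finset.mul_sum, h4]
    have e2 : (1 + 1 / (n:ℝ)) * ρ ^ 2 * (Real.sqrt 2 * (1 / 2 - d)) = M * ((1 + 1 / n) * (1 / 2 - d)) := by
      simp only [hM, ρ]; ring
    rw [e2]
    apply mul_le_mul_of_nonneg_left _ hM0.le
    nlinarith
  let e := Fintype.equivFin ι
  have hre : ∀ f : ι → ℝ, ∑ i : Fin (Fintype.card ι), f (e.symm i) = ∑ i, f i := fun f =>
    e.symm.sum_comp f
  constructor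
  · refine ⟨Fintype.card ι, fun i => uu (e.symm i), fun i => cc (e.symm i), fun i => aa (e.symm i),
      fun i => bb (e.symm i), fun i => huu _, fun i => ⟨hccp _, haap _, hbbp _⟩, ?_, ?_⟩
    · intro X hX
      obtain ⟨i, hi⟩ := hcov X hX
      refine mem_iUnion.2 ⟨e i, ?_⟩
      simp only [e.symm_apply_apply]
      exact hi
    · refine concl hℓ hU (fun i => uu (e.symm i)) (fun i => huu _)
        (fun i => (μHE[2] {x : E3 | ∃ s ∈ Set.Icc (0 : ℝ) 1, ∃ t ∈ Set.Icc (0 : ℝ) 1,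
          x = cc (e.symm i) + s • aa (e.symm i) + t • bb (e.symm i)}).toReal)
        (fun i => ENNReal.toReal_nonneg) (d := d / 2) (by positivity) ?_
      rw [hre (fun i => (μHE[2] {x : E3 | ∃ s ∈ Set.Icc (0 : ℝ) 1, ∃ t ∈ Set.Icc (0 : ℝ) 1,
          x = cc i + s • aa i + t • bb i}).toReal)]
      exact hsum
  · -- open bases
    set C : ℝ := (Fintype.card ι : ℝ) with hC
    have hC0 : 0 ≤ C := Nat.cast_nonneg _
    have hη : 0 < M * (d / 4) / (C + 1) := by positivity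
    have hopen := fun i : ι => open_base (huu i) (isCompact_parallelogram (cc i) (aa i) (bb i)) (by
      rintro x ⟨s, _, t, _, rfl⟩
      have e3 : inner ℝ (s • aa i) (uu i) = 0 := by rw [real_inner_smul_left, haap, mul_zero]
      have e4 : inner ℝ (t • bb i) (uu i) = 0 := by rw [real_inner_smul_left, hbbp, mul_zero]
      rw [inner_add_left, inner_add_left, hccp, e3, e4]; simp) hη
    choose BB hB1 hB2 hB3 hB4 using hopen
    refine ⟨Fintype.card ι, fun i => uu (e.symm i), fun i => BB (e.symm i), fun i => huu _,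
      fun i => ⟨hB2 _, hB3 _⟩, ?_, ?_⟩
    · intro X hX
      obtain ⟨i, s, hs, t, ht, τ, hτ⟩ := hcov X hX
      refine mem_iUnion.2 ⟨e i, ?_⟩
      simp only [e.symm_apply_apply]
      exact ⟨_, hB1 i ⟨s, hs, t, ht, rfl⟩, τ, hτ⟩
    · refine concl hℓ hU (fun i => uu (e.symm i)) (fun i => huu _)
        (fun i => (μHE[2] (BB (e.symm i))).toReal)
        (fun i => ENNReal.toReal_nonneg) (d := d / 4) (by positivity) ?_
      rw [hre (fun i => (μHE[2] (BB i)).toReal)]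
      calc ∑ i, (μHE[2] (BB i)).toReal ≤ ∑ i : ι, ((μHE[2] {x : E3 | ∃ s ∈ Set.Icc (0 : ℝ) 1, ∃ t ∈ Set.Icc (0 : ℝ) 1,
          x = cc i + s • aa i + t • bb i}).toReal + M * (d / 4) / (C + 1)) :=
            Finset.sum_le_sum (fun i _ => hB4 i)
        _ = (∑ i : ι, (μHE[2] {x : E3 | ∃ s ∈ Set.Icc (0 : ℝ) 1, ∃ t ∈ Set.Icc (0 : ℝ) 1,
          x = cc i + s • aa i + t • bb i}).toReal) + C * (M * (d / 4) / (C + 1)) := by
            rw [Finset.sum_add_distrib, Finset.sum_const, Finset.card_univ, nsmul_eq_mul]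
        _ ≤ M * (1 / 2 - d / 2) + M * (d / 4) := by
            have h5 : C * (M * (d / 4) / (C + 1)) ≤ M * (d / 4) := by
              rw [mul_div_assoc', div_le_iff₀ (by positivity)]
              have : 0 ≤ M * (d / 4) := by positivity
              nlinarith
            linarith
        _ = M * (1 / 2 - d / 4) := by ring

end Crest.Agent.H7
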